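import Vale.Agent.P089.Defs

/-! Calculus of the operators `amp g x` (job Amp). -/

namespace Vale.Agent.P089

variable {G : Type} [Group G] {H K L H' K' : Type}
  [NormedAddCommGroup H] [InnerProductSpace ℂ H] [NormedAddCommGroup K] [InnerProductSpace ℂ K]
  [NormedAddCommGroup L] [InnerProductSpace ℂ L]
  [NormedAddCommGroup H'] [InnerProductSpace ℂ H'] [NormedAddCommGroup K'] [InnerProductSpace ℂ K']

lemma amp_apply (g : G) (x : H →L[ℂ] K) (ξ : L2 G H) (h : G) : amp g x ξ h = x (ξ (g⁻¹ * h)) := rfl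

lemma amp_comp (g g' : G) (x : K →L[ℂ] L) (y : H →L[ℂ] K) :
    amp g x ∘L amp g' y = amp (g * g') (x ∘L y) := by
  refine ContinuousLinearMap.ext fun ξ => lp.ext (funext fun h => ?_)
  change x (y (ξ (g'⁻¹ * (g⁻¹ * h)))) = x (y (ξ ((g * g')⁻¹ * h)))
  rw [mul_inv_rev, mul_assoc]

lemma amp_id : amp (1 : G) (ContinuousLinearMap.id ℂ H) = ContinuousLinearMap.id ℂ (L2 G H) := by
  refine ContinuousLinearMap.ext fun ξ => lp.ext (funext fun h => ?_)
  change ξ (1⁻¹ * h) = ξ h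
  rw [inv_one, one_mul]

lemma amp_add (g : G) (x y : H →L[ℂ] K) : amp g (x + y) = amp g x + amp g y := by
  exact ContinuousLinearMap.ext fun ξ => lp.ext (funext fun h => rfl)

lemma amp_sub (g : G) (x y : H →L[ℂ] K) : amp g (x - y) = amp g x - amp g y := by
  exact ContinuousLinearMap.ext fun ξ => lp.ext (funext fun h => rfl)

lemma amp_smul (g : G) (c : ℂ) (x : H →L[ℂ] K) : amp g (c • x) = c • amp g x := by
  exact ContinuousLinearMap.ext fun ξ => lp.ext (funext fun h => rfl)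

lemma amp_zero (g : G) : amp g (0 : H →L[ℂ] K) = 0 := by
  exact ContinuousLinearMap.ext fun ξ => lp.ext (funext fun h => rfl)

lemma amp_sum {ι : Type} (g : G) (s : Finset ι) (x : ι → H →L[ℂ] K) :
    amp g (∑ i ∈ s, x i) = ∑ i ∈ s, amp g (x i) := by
  classical
  induction s using Finset.induction_on with
  | empty => simpa using amp_zero g
  | insert a s ha ih => rw [Finset.sum_insert ha, Finset.sum_insert ha, amp_add, ih]

lemma norm_amp_le (g : G) (x : H →L[ℂ] K) : ‖amp g x‖ ≤ ‖x‖ := by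
  exact LinearMap.mkContinuous_norm_le _ (norm_nonneg _) _

lemma amp_mem_Mor (g : G) (x : H →L[ℂ] K) : amp g x ∈ Mor G H K := by
  exact Submodule.le_topologicalClosure _ (Submodule.subset_span ⟨g, x, rfl⟩)

lemma amp_mem_Cpt (g : G) {x : H →L[ℂ] K} (hx : IsCompactOperator x) : amp g x ∈ Cpt G H K := by
  exact Submodule.le_topologicalClosure _ (Submodule.subset_span ⟨g, x, hx, rfl⟩)

lemma isClosed_Mor : IsClosed (Mor G H K : Set (L2 G H →L[ℂ] L2 G K)) := by
  exact Submodule.isClosed_topologicalClosure _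

lemma isClosed_Cpt : IsClosed (Cpt G H K : Set (L2 G H →L[ℂ] L2 G K)) := by
  exact Submodule.isClosed_topologicalClosure _

/-- induction principle: a closed submodule containing the generators contains `Mor` -/
lemma Mor_le {N : Submodule ℂ (L2 G H →L[ℂ] L2 G K)} (hc : IsClosed (N : Set (L2 G H →L[ℂ] L2 G K)))
    (h : ∀ g x, amp g x ∈ N) : Mor G H K ≤ N := by
  refine Submodule.topologicalClosure_minimal _ (Submodule.span_le.2 ?_) hc
  rintro _ ⟨g, x, rfl⟩
  exact h g x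

lemma Cpt_le {N : Submodule ℂ (L2 G H →L[ℂ] L2 G K)} (hc : IsClosed (N : Set (L2 G H →L[ℂ] L2 G K)))
    (h : ∀ g (x : H →L[ℂ] K), IsCompactOperator x → amp g x ∈ N) : Cpt G H K ≤ N := by
  refine Submodule.topologicalClosure_minimal _ (Submodule.span_le.2 ?_) hc
  rintro _ ⟨g, x, hx, rfl⟩
  exact h g x hx

namespace AmpX

variable {A B C : Type} [NormedAddCommGroup A] [NormedSpace ℂ A] [NormedAddCommGroup B]
  [NormedSpace ℂ B] [NormedAddCommGroup C] [NormedSpace ℂ C]

/-- operators `x` with `x ∘ y ∈ N` -/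
noncomputable def preL (N : Submodule ℂ (A →L[ℂ] C)) (y : A →L[ℂ] B) : Submodule ℂ (B →L[ℂ] C) :=
  N.comap ((ContinuousLinearMap.compL ℂ A B C).flip y).toLinearMap

/-- operators `y` with `x ∘ y ∈ N` -/
noncomputable def preR (N : Submodule ℂ (A →L[ℂ] C)) (x : B →L[ℂ] C) : Submodule ℂ (A →L[ℂ] B) :=
  N.comap (ContinuousLinearMap.compL ℂ A B C x).toLinearMap

lemma closed_preL {N : Submodule ℂ (A →L[ℂ] C)} (h : IsClosed (N : Set (A →L[ℂ] C)))
    (y : A →L[ℂ] B) : IsClosed (preL N y : Set (B →L[ℂ] C)) :=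
  h.preimage ((ContinuousLinearMap.compL ℂ A B C).flip y).continuous

lemma closed_preR {N : Submodule ℂ (A →L[ℂ] C)} (h : IsClosed (N : Set (A →L[ℂ] C)))
    (x : B →L[ℂ] C) : IsClosed (preR N x : Set (A →L[ℂ] B)) :=
  h.preimage (ContinuousLinearMap.compL ℂ A B C x).continuous

lemma mem_preL {N : Submodule ℂ (A →L[ℂ] C)} {y : A →L[ℂ] B} {x : B →L[ℂ] C} :
    x ∈ preL N y ↔ x ∘L y ∈ N := Iff.rfl

lemma mem_preR {N : Submodule ℂ (A →L[ℂ] C)} {y : A →L[ℂ] B} {x : B →L[ℂ] C} :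
    y ∈ preR N x ↔ x ∘L y ∈ N := Iff.rfl

end AmpX

lemma Mor_comp {x : L2 G K →L[ℂ] L2 G L} {y : L2 G H →L[ℂ] L2 G K} (hx : x ∈ Mor G K L)
    (hy : y ∈ Mor G H K) : x ∘L y ∈ Mor G H L := by
  refine AmpX.mem_preL.1 (Mor_le (AmpX.closed_preL isClosed_Mor y) (fun g a => ?_) hx)
  refine AmpX.mem_preL.2 (AmpX.mem_preR.1
    (Mor_le (AmpX.closed_preR isClosed_Mor _) (fun g' b => ?_) hy))
  rw [AmpX.mem_preR, amp_comp]
  exact amp_mem_Mor _ _

lemma id_mem_Mor : ContinuousLinearMap.id ℂ (L2 G H) ∈ Mor G H H := by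
  rw [← amp_id]
  exact amp_mem_Mor _ _

lemma Cpt_le_Mor : Cpt G H K ≤ Mor G H K := by
  exact Cpt_le isClosed_Mor fun g x _ => amp_mem_Mor g x

lemma Mor_comp_Cpt {x : L2 G K →L[ℂ] L2 G L} {y : L2 G H →L[ℂ] L2 G K} (hx : x ∈ Mor G K L)
    (hy : y ∈ Cpt G H K) : x ∘L y ∈ Cpt G H L := by
  refine AmpX.mem_preL.1 (Mor_le (AmpX.closed_preL isClosed_Cpt y) (fun g a => ?_) hx)
  refine AmpX.mem_preL.2 (AmpX.mem_preR.1
    (Cpt_le (AmpX.closed_preR isClosed_Cpt _) (fun g' b hb => ?_) hy))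
  rw [AmpX.mem_preR, amp_comp]
  exact amp_mem_Cpt _ (hb.clm_comp a)

lemma Cpt_comp_Mor {x : L2 G K →L[ℂ] L2 G L} {y : L2 G H →L[ℂ] L2 G K} (hx : x ∈ Cpt G K L)
    (hy : y ∈ Mor G H K) : x ∘L y ∈ Cpt G H L := by
  refine AmpX.mem_preL.1 (Cpt_le (AmpX.closed_preL isClosed_Cpt y) (fun g a ha => ?_) hx)
  refine AmpX.mem_preL.2 (AmpX.mem_preR.1
    (Mor_le (AmpX.closed_preR isClosed_Cpt _) (fun g' b => ?_) hy))
  rw [AmpX.mem_preR, amp_comp]
  exact amp_mem_Cpt _ (ha.comp_clm b)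

lemma Mor_le_Cpt_left [FiniteDimensional ℂ H] : Mor G H K ≤ Cpt G H K := by
  have : ProperSpace H := FiniteDimensional.proper ℂ H
  exact Mor_le isClosed_Cpt fun g x =>
    amp_mem_Cpt g (isCompactOperator_of_locallyCompactSpace_rng x)

lemma Mor_le_Cpt_right [FiniteDimensional ℂ K] : Mor G H K ≤ Cpt G H K := by
  have : ProperSpace K := FiniteDimensional.proper ℂ K
  exact Mor_le isClosed_Cpt fun g x =>
    amp_mem_Cpt g (isCompactOperator_of_locallyCompactSpace_dom x)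

lemma fst_inl : WithLp.fstL 2 ℂ H K ∘L inl H K = ContinuousLinearMap.id ℂ H := by
  exact ContinuousLinearMap.ext fun _ => rfl

lemma fst_inr : WithLp.fstL 2 ℂ H K ∘L inr H K = 0 := by
  exact ContinuousLinearMap.ext fun _ => rfl

lemma snd_inl : WithLp.sndL 2 ℂ H K ∘L inl H K = 0 := by
  exact ContinuousLinearMap.ext fun _ => rfl

lemma snd_inr : WithLp.sndL 2 ℂ H K ∘L inr H K = ContinuousLinearMap.id ℂ K := by
  exact ContinuousLinearMap.ext fun _ => rfl

lemma inl_fst_add : inl H K ∘L WithLp.fstL 2 ℂ H K + inr H K ∘L WithLp.sndL 2 ℂ H K =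
    ContinuousLinearMap.id ℂ (DS H K) := by
  refine ContinuousLinearMap.ext fun v => ?_
  apply (WithLp.prodContinuousLinearEquiv 2 ℂ H K).injective
  simp [inl, inr]
  rfl

lemma dsum_mem {a : L2 G H →L[ℂ] L2 G H'} {b : L2 G K →L[ℂ] L2 G K'} (ha : a ∈ Mor G H H')
    (hb : b ∈ Mor G K K') : dsum a b ∈ Mor G (DS H K) (DS H' K') := by
  exact Submodule.add_mem _ (Mor_comp (amp_mem_Mor _ _) (Mor_comp ha (amp_mem_Mor _ _)))
    (Mor_comp (amp_mem_Mor _ _) (Mor_comp hb (amp_mem_Mor _ _)))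

lemma dsum_comp {H'' K'' : Type} [NormedAddCommGroup H''] [InnerProductSpace ℂ H'']
    [NormedAddCommGroup K''] [InnerProductSpace ℂ K''] (a' : L2 G H' →L[ℂ] L2 G H'')
    (b' : L2 G K' →L[ℂ] L2 G K'') (a : L2 G H →L[ℂ] L2 G H') (b : L2 G K →L[ℂ] L2 G K') :
    dsum a' b' ∘L dsum a b = dsum (a' ∘L a) (b' ∘L b) := by
  have h1 : amp (1 : G) (WithLp.fstL 2 ℂ H' K') ∘L dsum a b = a ∘L amp 1 (WithLp.fstL 2 ℂ H K) := by
    simp only [dsum, ContinuousLinearMap.comp_add, ← ContinuousLinearMap.comp_assoc, amp_comp,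
      one_mul, fst_inl, fst_inr, amp_id, amp_zero, ContinuousLinearMap.id_comp,
      ContinuousLinearMap.zero_comp, add_zero]
  have h2 : amp (1 : G) (WithLp.sndL 2 ℂ H' K') ∘L dsum a b = b ∘L amp 1 (WithLp.sndL 2 ℂ H K) := by
    simp only [dsum, ContinuousLinearMap.comp_add, ← ContinuousLinearMap.comp_assoc, amp_comp,
      one_mul, snd_inl, snd_inr, amp_id, amp_zero, ContinuousLinearMap.id_comp,
      ContinuousLinearMap.zero_comp, zero_add]
  rw [dsum.eq_1 a' b', ContinuousLinearMap.add_comp]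
  simp only [ContinuousLinearMap.comp_assoc, h1, h2]
  rfl

variable (G H) in
/-- the Banach algebra `B(H) ⊗ C*_r(G)` -/
noncomputable def MorA : Subalgebra ℂ (L2 G H →L[ℂ] L2 G H) :=
  (Mor G H H).toSubalgebra id_mem_Mor fun _ _ hx hy => Mor_comp hx hy

lemma mem_MorA {x : L2 G H →L[ℂ] L2 G H} : x ∈ MorA G H ↔ x ∈ Mor G H H := Iff.rfl

instance [CompleteSpace H] : CompleteSpace (MorA G H) :=
  (isClosed_Mor (G := G) (H := H) (K := H)).completeSpace_coe

/-- `amp` with values in `MorA` -/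
noncomputable def ampA (g : G) : (H →L[ℂ] H) →ₗ[ℂ] MorA G H where
  toFun x := ⟨amp g x, amp_mem_Mor g x⟩
  map_add' x y := Subtype.ext (amp_add g x y)
  map_smul' c x := Subtype.ext (amp_smul g c x)

lemma coe_ampA (g : G) (x : H →L[ℂ] H) : (ampA g x : L2 G H →L[ℂ] L2 G H) = amp g x := rfl

lemma ampA_mul (g g' : G) (x y : H →L[ℂ] H) : ampA g x * ampA g' y = ampA (g * g') (x * y) :=
  Subtype.ext (amp_comp g g' x y)

lemma ampA_one : ampA (1 : G) (1 : H →L[ℂ] H) = 1 := Subtype.ext amp_id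

namespace AmpX

lemma norm_sub_proj (W : Submodule ℂ K) [W.HasOrthogonalProjection] :
    ‖ContinuousLinearMap.id ℂ K - W.starProjection‖ ≤ 1 := by
  rw [← Submodule.starProjection_orthogonal]
  exact Submodule.starProjection_norm_le _

lemma norm_amp_proj (W : Submodule ℂ K) [W.HasOrthogonalProjection] :
    ‖ContinuousLinearMap.id ℂ (L2 G K) - amp (1 : G) W.starProjection‖ ≤ 1 := by
  rw [← amp_id, ← amp_sub]
  exact (norm_amp_le _ _).trans (norm_sub_proj W)

/-- the elements asymptotically killed by a family of contractions form a closed submodule -/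
lemma exists_asym {A : Type} [NormedAddCommGroup A] [NormedSpace ℂ A]
    (T : ∀ (W : Submodule ℂ K) [FiniteDimensional ℂ W], A → A)
    (h1 : ∀ (W : Submodule ℂ K) [FiniteDimensional ℂ W] y, ‖T W y‖ ≤ ‖y‖)
    (h2 : ∀ (W : Submodule ℂ K) [FiniteDimensional ℂ W] y z, T W (y + z) = T W y + T W z)
    (h3 : ∀ (W : Submodule ℂ K) [FiniteDimensional ℂ W] (c : ℂ) y, T W (c • y) = c • T W y) :
    ∃ N : Submodule ℂ A, IsClosed (N : Set A) ∧ ∀ y, y ∈ N ↔ ∀ ε : ℝ, 0 < ε →
      ∃ V : Submodule ℂ K, FiniteDimensional ℂ V ∧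
        ∀ (W : Submodule ℂ K) [FiniteDimensional ℂ W], V ≤ W → ‖T W y‖ ≤ ε := by
  refine ⟨⟨⟨⟨{y | ∀ ε : ℝ, 0 < ε → ∃ V : Submodule ℂ K, FiniteDimensional ℂ V ∧
    ∀ (W : Submodule ℂ K) [FiniteDimensional ℂ W], V ≤ W → ‖T W y‖ ≤ ε}, ?_⟩, ?_⟩, ?_⟩, ?_,
    fun y => Iff.rfl⟩
  · intro y z hy hz ε hε
    obtain ⟨V, hV, a⟩ := hy (ε / 2) (by positivity)
    obtain ⟨V', hV', b⟩ := hz (ε / 2) (by positivity)
    refine ⟨V ⊔ V', inferInstance, fun W _ hW => ?_⟩
    rw [h2]
    linarith [norm_add_le (T W y) (T W z), a W (le_sup_left.trans hW), b W (le_sup_right.trans hW)]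
  · intro ε hε
    refine ⟨⊥, inferInstance, fun W _ _ => (h1 W 0).trans ?_⟩
    simpa using hε.le
  · intro c y hy ε hε
    obtain ⟨V, hV, a⟩ := hy (ε / (‖c‖ + 1)) (by positivity)
    refine ⟨V, hV, fun W _ hW => ?_⟩
    rw [h3, norm_smul]
    have := a W hW
    rw [le_div_iff₀ (by positivity)] at this
    nlinarith [norm_nonneg (T W y)]
  · refine isClosed_of_closure_subset fun y hy ε hε => ?_
    obtain ⟨z, hz, hyz⟩ := Metric.mem_closure_iff.1 hy (ε / 2) (by positivity)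
    obtain ⟨V, hV, a⟩ := hz (ε / 2) (by positivity)
    refine ⟨V, hV, fun W _ hW => ?_⟩
    rw [dist_eq_norm] at hyz
    have : T W y = T W (y - z) + T W z := by rw [← h2, sub_add_cancel]
    rw [this]
    linarith [norm_add_le (T W (y - z)) (T W z), a W hW, h1 W (y - z)]

end AmpX

/-- compact operators are almost absorbed by large finite dimensional subspaces -/
lemma compact_approx [CompleteSpace K] {x : H →L[ℂ] K} (hx : IsCompactOperator x) {ε : ℝ}
    (hε : 0 < ε) : ∃ V : Submodule ℂ K, FiniteDimensional ℂ V ∧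
      ∀ (W : Submodule ℂ K) [FiniteDimensional ℂ W], V ≤ W → ‖x - W.starProjection ∘L x‖ ≤ ε := by
  obtain ⟨C, hC, hx'⟩ := IsCompactOperator.image_closedBall_subset_compact
    (f := (x : H →ₗ[ℂ] K)) hx 1
  obtain ⟨t, -, ht, hcov⟩ := hC.finite_cover_balls hε
  refine ⟨Submodule.span ℂ t, FiniteDimensional.span_of_finite ℂ ht, fun W _ hW => ?_⟩
  refine ContinuousLinearMap.opNorm_le_of_unit_norm hε.le fun v hv => ?_
  have h1 := hcov (hx' ⟨v, by simp [hv], rfl⟩)
  simp only [Set.mem_iUnion, Metric.mem_ball, dist_eq_norm] at h1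
  obtain ⟨w, hw, h2⟩ := h1
  have h3 : W.starProjection w = w :=
    Submodule.starProjection_eq_self_iff.2 (hW (Submodule.subset_span hw))
  have h4 : (x - W.starProjection ∘L x) v =
      (ContinuousLinearMap.id ℂ K - W.starProjection) (x v - w) := by
    simp [h3]
  rw [h4]
  refine ((ContinuousLinearMap.le_opNorm _ _).trans ?_).trans h2.le
  exact mul_le_of_le_one_left (norm_nonneg _) (AmpX.norm_sub_proj W)

lemma Cpt_approx [CompleteSpace K] {y : L2 G H →L[ℂ] L2 G K} (hy : y ∈ Cpt G H K) {ε : ℝ}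
    (hε : 0 < ε) : ∃ V : Submodule ℂ K, FiniteDimensional ℂ V ∧
      ∀ (W : Submodule ℂ K) [FiniteDimensional ℂ W], V ≤ W →
        ‖y - amp 1 W.starProjection ∘L y‖ ≤ ε := by
  obtain ⟨N, hN, hm⟩ := AmpX.exists_asym (K := K) (A := L2 G H →L[ℂ] L2 G K)
    (fun W _ y => y - amp 1 W.starProjection ∘L y) (fun W _ y => by
      have : y - amp 1 W.starProjection ∘L y =
          (ContinuousLinearMap.id ℂ (L2 G K) - amp (1 : G) W.starProjection) ∘L y := by
        rw [ContinuousLinearMap.sub_comp, ContinuousLinearMap.id_comp]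
      simp only [this]
      exact (ContinuousLinearMap.opNorm_comp_le _ _).trans
        (mul_le_of_le_one_left (norm_nonneg _) (AmpX.norm_amp_proj W)))
    (fun W _ y z => by simp only [ContinuousLinearMap.comp_add]; abel)
    (fun W _ c y => by simp only [ContinuousLinearMap.comp_smul, smul_sub])
  refine (hm y).1 (Cpt_le hN (fun g x hx => (hm _).2 fun ε hε => ?_) hy) ε hε
  obtain ⟨V, hV, h⟩ := compact_approx hx hε
  refine ⟨V, hV, fun W _ hW => ?_⟩
  rw [amp_comp, one_mul, ← amp_sub]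
  exact (norm_amp_le _ _).trans (h W hW)

lemma compact_approx' [CompleteSpace H] [CompleteSpace K] {x : H →L[ℂ] K}
    (hx : IsCompactOperator x) {ε : ℝ} (hε : 0 < ε) :
    ∃ V : Submodule ℂ H, FiniteDimensional ℂ V ∧
      ∀ (W : Submodule ℂ H) [FiniteDimensional ℂ W], V ≤ W → ‖x - x ∘L W.starProjection‖ ≤ ε := by
  obtain ⟨V, hV, h⟩ := compact_approx hx hε
  refine ⟨V.map (ContinuousLinearMap.adjoint x : K →ₗ[ℂ] H), inferInstance, fun W _ hW => ?_⟩
  have h1 : x - x ∘L W.starProjection =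
      (x - V.starProjection ∘L x) ∘L (ContinuousLinearMap.id ℂ H - W.starProjection) := by
    refine ContinuousLinearMap.ext fun v => ?_
    have h2 : V.starProjection (x (v - W.starProjection v)) = 0 := by
      refine Submodule.eq_starProjection_of_mem_of_inner_eq_zero V.zero_mem fun w hw => ?_
      rw [sub_zero, ← ContinuousLinearMap.adjoint_inner_right]
      exact Submodule.starProjection_inner_eq_zero _ _ (hW ⟨w, hw, rfl⟩)
    change x v - x (W.starProjection v) =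
      x (v - W.starProjection v) - V.starProjection (x (v - W.starProjection v))
    rw [h2, sub_zero, map_sub]
  rw [h1]
  exact (ContinuousLinearMap.opNorm_comp_le _ _).trans
    ((mul_le_of_le_one_right (norm_nonneg _) (AmpX.norm_sub_proj W)).trans (h V le_rfl))

lemma Cpt_approx' [CompleteSpace H] [CompleteSpace K] {y : L2 G H →L[ℂ] L2 G K}
    (hy : y ∈ Cpt G H K) {ε : ℝ} (hε : 0 < ε) : ∃ V : Submodule ℂ H, FiniteDimensional ℂ V ∧
      ∀ (W : Submodule ℂ H) [FiniteDimensional ℂ W], V ≤ W →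
        ‖y - y ∘L amp 1 W.starProjection‖ ≤ ε := by
  obtain ⟨N, hN, hm⟩ := AmpX.exists_asym (K := H) (A := L2 G H →L[ℂ] L2 G K)
    (fun W _ y => y - y ∘L amp 1 W.starProjection) (fun W _ y => by
      have : y - y ∘L amp 1 W.starProjection =
          y ∘L (ContinuousLinearMap.id ℂ (L2 G H) - amp (1 : G) W.starProjection) := by
        rw [ContinuousLinearMap.comp_sub, ContinuousLinearMap.comp_id]
      simp only [this]
      exact (ContinuousLinearMap.opNorm_comp_le _ _).trans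
        (mul_le_of_le_one_right (norm_nonneg _) (AmpX.norm_amp_proj W)))
    (fun W _ y z => by simp only [ContinuousLinearMap.add_comp]; abel)
    (fun W _ c y => by simp only [ContinuousLinearMap.smul_comp, smul_sub])
  refine (hm y).1 (Cpt_le hN (fun g x hx => (hm _).2 fun ε hε => ?_) hy) ε hε
  obtain ⟨V, hV, h⟩ := compact_approx' hx hε
  refine ⟨V, hV, fun W _ hW => ?_⟩
  rw [amp_comp, mul_one, ← amp_sub]
  exact (norm_amp_le _ _).trans (h W hW)

/-- a finite dimensional subspace in coordinates -/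
lemma exists_coord (W : Submodule ℂ K) [FiniteDimensional ℂ W] :
    ∃ (n : ℕ) (j : EE n →L[ℂ] K) (j' : K →L[ℂ] EE n), j ∘L j' = W.starProjection ∧
      j' ∘L j = ContinuousLinearMap.id ℂ (EE n) := by
  let b := (stdOrthonormalBasis ℂ W).repr.toContinuousLinearEquiv
  refine ⟨Module.finrank ℂ W, W.subtypeL ∘L b.symm.toContinuousLinearMap,
    b.toContinuousLinearMap ∘L W.orthogonalProjectionOnto, ?_, ?_⟩
  · refine ContinuousLinearMap.ext fun v => ?_
    simp
  · refine ContinuousLinearMap.ext fun v => ?_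
    simp

end Vale.Agent.P089
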