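import Vale.Agent.P089.NoClose

/-! Continuing a walk (job Attach). -/

namespace Vale.Agent.P089.Geo

variable {S V : Type} [Fintype S] {F : Fam S V} {ω : Set ℕ} {G : Type} [Group G]
  {Ω : Geo F ω G} {P : ℕ → G} {s : ℕ → S × Bool} {r : ℕ → Option (G × ℕ)} {n : ℕ} {R : G × ℕ}

variable (Ω) in
theorem st_zero (P : ℕ → G) (s : ℕ → S × Bool) (r : ℕ → Option (G × ℕ)) : Ω.St P s r 0 := by
  refine ⟨⟨fun i h => by omega, fun i h => by omega, fun i h => by omega,
    fun i j k R _ _ h => by omega, fun R => ⟨fun _ => 0, fun _ _ _ _ => by simp,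
      fun i h => by omega⟩, fun i h => by omega, fun i R h => by omega⟩, fun i h => by omega,
    fun i R h => by omega⟩

/-- appending a geodesic of a new copy -/
theorem W.app (h : Ω.W P s r n) (hR : R.2 ∈ ω) (hn : R ∉ asg r n) {c e : V} (hc : F.lev c = R.2)
    (he : F.lev e = R.2) (hP : P n = R.1 * Ω.θ c) (ho : 0 < n → ¬Ω.On R (P (n - 1)) (s (n - 1)))
    (hl : ∀ k < n, ∀ R', r k = some R' → r 0 = some R' ∨
      ∃ i, i + F.ell R'.2 < n ∧ ∀ j ≤ F.ell R'.2, r (i + j) = some R') :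
    ∃ P' s' r', Ω.W P' s' r' (n + F.dist c e) ∧ (∀ i ≤ n, P' i = P i) ∧
      (∀ i < n, s' i = s i ∧ r' i = r i) ∧ (∀ i, n ≤ i → r' i = some R) ∧
      P' (n + F.dist c e) = R.1 * Ω.θ e := by
  obtain ⟨y, t, hw, y0, yd⟩ := F.exists_geo (he.trans hc.symm)
  obtain ⟨rd, hd⟩ := F.geo_rd hw (by rw [y0, yd])
  rw [y0] at hd
  have lv : ∀ i ≤ F.dist c e, F.lev (y i) = R.2 := fun i hi => by rw [F.lev_wk hw hi, y0, hc]
  generalize F.dist c e = d at *
  obtain ⟨P', p1, p2⟩ : ∃ P' : ℕ → G, (∀ i ≤ n, P' i = P i) ∧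
      ∀ i, P' (n + i) = R.1 * Ω.θ (y i) := by
    refine ⟨fun i => if i ≤ n then P i else R.1 * Ω.θ (y (i - n)), fun i hi => if_pos hi,
      fun i => ?_⟩
    rcases Nat.eq_zero_or_pos i with rfl | hi
    · exact (if_pos le_rfl).trans (y0 ▸ hP)
    · exact (if_neg (by omega)).trans (by rw [Nat.add_sub_cancel_left])
  obtain ⟨s', s1, s2⟩ : ∃ s' : ℕ → S × Bool, (∀ i < n, s' i = s i) ∧ ∀ i, s' (n + i) = t i :=
    ⟨fun i => if i < n then s i else t (i - n), fun i hi => if_pos hi,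
      fun i => (if_neg (by omega)).trans (by rw [Nat.add_sub_cancel_left])⟩
  obtain ⟨r', r1, r2⟩ : ∃ r' : ℕ → Option (G × ℕ), (∀ i < n, r' i = r i) ∧
      ∀ i, n ≤ i → r' i = some R :=
    ⟨fun i => if i < n then r i else some R, fun i hi => if_pos hi, fun i hi => if_neg (by omega)⟩
  have on : ∀ j < d, Ω.On R (P' (n + j)) (s' (n + j)) := fun j hj =>
    ⟨hR, y j, y (j + 1), lv j hj.le, s2 j ▸ hw j hj, p2 j⟩
  have r3 : ∀ i, r' i = some R → n ≤ i := fun i hi =>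
    not_lt.1 fun c => hn ⟨i, c, r1 i c ▸ hi⟩
  have r4 : ∀ i R', r' i = some R' → n ≤ i → R' = R := fun i R' h1 h2 =>
    Option.some.inj (h1.symm.trans (r2 i h2))
  refine ⟨P', s', r', ⟨fun i hi => ?_, fun i hi => ?_, fun i hi R' hr => ?_,
    fun i j k R' h1 h2 _ h3 h4 => ?_, fun R' => ?_, fun k hk R' hr => ?_,
    fun i R' _ hf => ?_⟩, p1, fun i hi => ⟨s1 i hi, r1 i hi⟩, r2, by rw [p2, yd]⟩
  · rcases lt_or_ge i n with c | c
    · rw [p1 i c.le, p1 _ c, s1 i c, h.step i c]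
    · obtain ⟨j, rfl⟩ := Nat.exists_eq_add_of_le c
      rw [add_assoc, p2, p2, s2, Ω.θ_st (lv j (by omega) ▸ hR) (hw j (by omega)), mul_assoc]
  · rcases lt_trichotomy (i + 1) n with c | c | c
    · rw [s1 _ c, s1 i (by omega)]
      exact h.red i c
    · subst c
      intro e
      have h1 := (on 0 (by omega)).rev
      rw [add_zero, e, s1 i (by omega), iv_iv, Ω.gen_iv, p1 _ le_rfl, h.step i (by omega),
        mul_inv_cancel_right] at h1
      exact ho (by omega) h1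
    · obtain ⟨j, rfl⟩ := Nat.exists_eq_add_of_le (show n ≤ i by omega)
      rw [add_assoc, s2, s2]
      exact rd j (by omega)
  · rcases lt_or_ge i n with c | c
    · rw [p1 i c.le, s1 i c]
      exact h.mem i c R' (r1 i c ▸ hr)
    · obtain rfl := r4 i R' hr c
      obtain ⟨j, rfl⟩ := Nat.exists_eq_add_of_le c
      exact on j (by omega)
  · rcases lt_or_ge k n with c | c
    · rw [r1 _ (by omega)] at h3 h4 ⊢
      exact h.itv i j k R' h1 h2 c h3 h4
    · obtain rfl := r4 k R' h4 c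
      exact r2 j ((r3 i h3).trans h1)
  · by_cases c : R' = R
    · subst c
      refine ⟨_, F.lip_dist c, fun i hi hr u v hu hs e => ?_⟩
      obtain ⟨j, rfl⟩ := Nat.exists_eq_add_of_le (r3 i hr)
      rw [p2] at e
      obtain rfl := Ω.θ_inj (lv j (by omega) ▸ hR) (hu.trans (lv j (by omega)).symm)
        (mul_left_cancel e)
      obtain rfl := F.st_fun (hw j (by omega)) (s2 j ▸ hs)
      simp only [hd j (by omega), hd (j + 1) (by omega), Nat.cast_add, Nat.cast_one]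
    · obtain ⟨f, f1, f2⟩ := h.geo R'
      refine ⟨f, f1, fun i _ hr => ?_⟩
      have hi : i < n := not_le.1 fun e => c (r4 i R' hr e)
      rw [p1 i hi.le, s1 i hi]
      exact f2 i hi (r1 i hi ▸ hr)
  · rcases lt_or_ge k n with c | c
    · rcases hl k c R' (r1 k c ▸ hr) with e | ⟨i, e1, e2⟩
      · exact Or.inl ((r1 0 (by omega)).trans e)
      · exact Or.inr (Or.inr ⟨i, by omega, fun j hj => (r1 _ (by omega)).trans (e2 j hj)⟩)
    · obtain rfl := r4 k R' hr c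
      exact Or.inr (Or.inl (r2 _ (by omega)))
  · have hi : i + 4 * F.ell R'.2 < n := not_le.1 fun e => by
      have := (hf _ le_rfl).1
      rw [r2 _ e] at this
      exact Option.some_ne_none _ this
    refine h.free i R' hi fun k hk => ?_
    have := hf k hk
    rwa [r1 _ (by omega), p1 _ (by omega), s1 _ (by omega)] at this

namespace AttachX

lemma lastp (p : ℕ → Prop) {k : ℕ} (hk : k < n) (h : p k) :
    ∃ j < n, p j ∧ ∀ i, j < i → i < n → ¬p i := by
  classical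
  obtain ⟨j, h1, h2⟩ := Finset.exists_max_image ((Finset.range n).filter p) id
    ⟨k, Finset.mem_filter.2 ⟨Finset.mem_range.2 hk, h⟩⟩
  obtain ⟨h3, h4⟩ := Finset.mem_filter.1 h1
  exact ⟨j, Finset.mem_range.1 h3, h4, fun i h5 h6 h7 =>
    (h2 i (Finset.mem_filter.2 ⟨Finset.mem_range.2 h6, h7⟩)).not_gt h5⟩

lemma lastj {k : ℕ} {R' : G × ℕ} (hk : k < n) (h : r k = some R') :
    ∃ j < n, ∃ L, r j = some L ∧ ∀ i, j < i → i < n → r i = none := by
  obtain ⟨j, h1, h2, h3⟩ := lastp (fun i => r i ≠ none) hk (h ▸ Option.some_ne_none _)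
  obtain ⟨L, h4⟩ := Option.ne_none_iff_exists'.1 h2
  exact ⟨j, h1, L, h4, fun i h5 h6 => not_not.1 (h3 i h5 h6)⟩

lemma win (h : Ω.St P s r n) {n' j : ℕ} {L : G × ℕ}
    (hq : ∀ i, n' ≤ i → i < n → Ω.On R (P i) (s i)) (hj : j < n) (hr : r j = some L)
    (hl : ∀ i, j < i → i < n → r i = none) (ne : L ≠ R) :
    ∃ w, w + 2 * F.ell L.2 = j ∧ w + F.ell L.2 < n' ∧ (∀ x, w ≤ x → x ≤ j → r x = some L) ∧
      ∀ x < n, ∀ R', r x = some R' → R' ≠ L → x < w := by
  obtain ⟨h1, h2⟩ := h.last j hj L hr hl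
  have h3 : ∀ x, j - 2 * F.ell L.2 ≤ x → x ≤ j → r x = some L := fun x a b => by
    have := h2 (j - x) (by omega)
    rwa [Nat.sub_sub_self b] at this
  refine ⟨j - 2 * F.ell L.2, by omega, not_le.1 fun c => ne ?_, h3,
    fun x hx R' e1 e2 => not_le.1 fun c => ?_⟩
  · exact piece_on (j - F.ell L.2) h.w.step h.w.red (by omega) fun i hi =>
      ⟨h.w.mem _ (by omega) L (h3 _ (by omega) (by omega)), hq _ (by omega) (by omega)⟩
  · rcases le_or_gt x j with d | d
    · exact e2 (Option.some.inj (e1.symm.trans (h3 x c d)))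
    · exact Option.some_ne_none _ (e1.symm.trans (hl x d hx))

lemma lng (h : Ω.St P s r n) {n' j : ℕ} {L : G × ℕ} (hn : n' ≤ n)
    (hq : ∀ i, n' ≤ i → i < n → Ω.On R (P i) (s i)) (hj : j < n) (hr : r j = some L)
    (hl : ∀ i, j < i → i < n → r i = none) (ne : L ≠ R) (a m : ℕ) (hm : a + m = n') :
    ∀ k < m, ∀ R', r (a + k) = some R' → r (a + 0) = some R' ∨
      ∃ i, i + F.ell R'.2 < m ∧ ∀ j ≤ F.ell R'.2, r (a + (i + j)) = some R' := by
  intro k hk R' e
  obtain ⟨w, w1, w2, w3, w4⟩ := win h hq hj hr hl ne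
  have key : ∀ i, i + F.ell R'.2 < n' → (∀ j ≤ F.ell R'.2, r (i + j) = some R') →
      r (a + 0) = some R' ∨
      ∃ i, i + F.ell R'.2 < m ∧ ∀ j ≤ F.ell R'.2, r (a + (i + j)) = some R' := fun i h1 h2 => by
    rcases le_total i a with c | c
    · exact Or.inl (h.w.itv i _ _ R' c (by omega) (by omega) (h2 0 (by omega)) e)
    · obtain ⟨i, rfl⟩ := Nat.exists_eq_add_of_le c
      exact Or.inr ⟨i, by omega, fun j hj => add_assoc a i j ▸ h2 j hj⟩
  by_cases c : R' = L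
  · subst c
    exact key w w2 fun i hi => w3 _ (by omega) (by omega)
  · rcases h.w.long (a + k) (by omega) R' e with d | d | ⟨i, d1, d2⟩
    · exact Or.inl (h.w.itv 0 _ _ R' (by omega) (by omega) (by omega) d e)
    · have := w4 (n - 1) (by omega) R' d c
      omega
    · have := w4 _ d1 R' (d2 _ le_rfl) c
      exact key i (by omega) d2

end AttachX

open AttachX

theorem St.attach (h : Ω.St P s r n) (hR : Ω.In R (P n)) (hn : 0 < n → r (n - 1) ≠ some R) :
    R ∉ asg r n ∧ ∃ n' ≤ n, ∃ c, F.lev c = R.2 ∧ P n' = R.1 * Ω.θ c ∧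
      (∀ i, n' ≤ i → i < n → Ω.On R (P i) (s i)) ∧ (0 < n' → ¬Ω.On R (P (n' - 1)) (s (n' - 1))) ∧
      ∀ e, F.lev e = R.2 → 2 * F.ell R.2 < F.dist c e → ∃ P' s' r' n'', Ω.St P' s' r' n'' ∧
        0 < n'' ∧ P' n'' = R.1 * Ω.θ e ∧ r' (n'' - 1) = some R ∧
        asg r' n'' = insert R (asg r n) := by
  classical
  have ex : ∃ m, ∀ i, m ≤ i → i < n → Ω.On R (P i) (s i) := ⟨n, fun i h1 h2 => by omega⟩
  have hq := Nat.find_spec ex
  have hle : Nat.find ex ≤ n := Nat.find_min' ex fun i h1 h2 => by omega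
  have hmin : 0 < Nat.find ex → ¬Ω.On R (P (Nat.find ex - 1)) (s (Nat.find ex - 1)) :=
    fun h0 ho => Nat.find_min ex (Nat.sub_one_lt h0.ne') fun i h1 h2 => by
      rcases h1.eq_or_lt with rfl | h3
      · exact ho
      · exact hq i (by omega) h2
  generalize Nat.find ex = n' at hq hle hmin
  obtain ⟨hω, c, hc, hP⟩ : Ω.In R (P n') := by
    rcases hle.eq_or_lt with rfl | h1
    · exact hR
    · exact (hq n' le_rfl h1).src
  have h1 : R ∉ asg r n := by
    rintro ⟨k, k1, k2⟩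
    obtain ⟨j0, a1, a2, a3⟩ := lastp (fun i => r i = some R) k1 k2
    have a4 : j0 + 1 < n := lt_of_le_of_ne a1 fun e => hn (by omega) (by rw [← e]; exact a2)
    obtain ⟨j, b1, L, b2, b3⟩ := lastj k1 k2
    have b4 : L = R → ∀ i, j0 < i → i < n → r i = none := fun e i i1 i2 => by
      refine b3 i (lt_of_le_of_lt (not_lt.1 fun d => a3 j d b1 (e ▸ b2)) i1) i2
    have a5 : j0 + 1 < n' := by
      by_cases e : L = R
      · exact not_le.1 fun d => h.ex j0 R a4 a2 (b4 e) (hq _ d a4)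
      · obtain ⟨w, -, w2, -, w4⟩ := win h hq b1 b2 b3 e
        have := w4 j0 a1 R a2 (Ne.symm e)
        omega
    obtain ⟨m, rfl⟩ := Nat.exists_eq_add_of_lt a5
    obtain ⟨-, e, he, hPe⟩ := (h.w.mem j0 a1 R a2).tgt
    rw [← h.w.step j0 a1] at hPe
    obtain ⟨P', s', r', w, p1, -, -, p2⟩ := (h.w.sub (j0 + 1) (m + 1) hle).app hω
      (fun ⟨i, i1, i2⟩ => a3 _ (by omega) (by omega) i2) hc he hP (fun _ => hmin (by omega))
      (by
        by_cases d : L = R
        · intro k hk R' hr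
          rw [b4 d _ (by omega) (by omega)] at hr
          exact absurd hr.symm (Option.some_ne_none _)
        · exact lng h hle hq b1 b2 b3 d _ _ rfl)
    exact w.noclose (by omega) (p2.trans (hPe.symm.trans (p1 0 (by omega)).symm))
  refine ⟨h1, n', hle, c, hc, hP, hq, hmin, fun e he hd => ?_⟩
  have w0 : Ω.W P s r n' := by simpa only [zero_add] using h.w.sub 0 n' (by omega)
  obtain ⟨P', s', r', w, -, p1, p2, p3⟩ := w0.app hω
    (fun ⟨i, i1, i2⟩ => h1 ⟨i, by omega, i2⟩) hc he hP hmin fun k hk R' hr => by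
      obtain ⟨j, b1, L, b2, b3⟩ := lastj (show k < n by omega) hr
      simpa only [zero_add] using lng h hle hq b1 b2 b3 (fun d => h1 ⟨j, b1, d ▸ b2⟩) 0 n'
        (zero_add _) k hk R' (by rwa [zero_add])
  generalize F.dist c e = d at *
  have tl : ∀ j, j + 1 < n' + d → ¬∀ k, j < k → k < n' + d → r' k = none := fun j hj hk =>
    Option.some_ne_none _ ((p2 (n' + d - 1) (by omega)).symm.trans (hk _ (by omega) (by omega)))
  refine ⟨P', s', r', n' + d, ⟨w, fun j hj R' hr hk => ?_, fun j R' hj _ hk => (tl j hj hk).elim⟩,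
    by omega, p3, p2 _ (by omega), Set.ext fun R' => ⟨fun ⟨i, i1, i2⟩ => ?_, ?_⟩⟩
  · have e1 : j + 1 = n' + d := le_antisymm hj (not_lt.1 fun c => tl j c hk)
    obtain rfl : R' = R := Option.some.inj (hr.symm.trans (p2 j (by omega)))
    exact ⟨by omega, fun k hk => p2 _ (by omega)⟩
  · rcases lt_or_ge i n' with c | c
    · exact Or.inr ⟨i, by omega, (p1 i c).2 ▸ i2⟩
    · exact Or.inl (Option.some.inj (i2.symm.trans (p2 i c)))
  · rintro (rfl | ⟨k, k1, k2⟩)
    · exact ⟨n', by omega, p2 _ le_rfl⟩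
    · obtain ⟨j, b1, L, b2, b3⟩ := lastj k1 k2
      obtain ⟨w, w1, w2, w3, w4⟩ := win h hq b1 b2 b3 fun d => h1 ⟨j, b1, d ▸ b2⟩
      by_cases c : R' = L
      · exact ⟨w, by omega, (p1 w (by omega)).2.trans (c ▸ w3 w le_rfl (by omega))⟩
      · have := w4 k k1 R' k2 c
        exact ⟨k, by omega, (p1 k (by omega)).2.trans k2⟩

theorem St.snoc (h : Ω.St P s r n) {a : S × Bool} (h1 : 0 < n → a ≠ iv (s (n - 1)))
    (h2 : ∀ R, 0 < n → r (n - 1) = some R → ¬Ω.On R (P n) a) :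
    (∃ P' s' r', Ω.St P' s' r' (n + 1) ∧ (∀ i ≤ n, P' i = P i) ∧ P' (n + 1) = P n * Ω.gen a ∧
      (∀ i < n, r' i = r i) ∧ r' n = none) ∨
    ∃ R : G × ℕ, 4 * F.ell R.2 ≤ n ∧ Ω.On R (P n) a ∧
      ∀ k < n, n ≤ k + 4 * F.ell R.2 → r k = none ∧ Ω.On R (P k) (s k) := by
  refine or_iff_not_imp_right.2 fun hn => ?_
  obtain ⟨P', p1, p2⟩ : ∃ P' : ℕ → G, (∀ i ≤ n, P' i = P i) ∧ P' (n + 1) = P n * Ω.gen a :=
    ⟨Function.update P (n + 1) (P n * Ω.gen a), fun i hi => Function.update_of_ne (by omega) _ _,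
      Function.update_self _ _ _⟩
  obtain ⟨s', s1, s2⟩ : ∃ s' : ℕ → S × Bool, (∀ i < n, s' i = s i) ∧ s' n = a :=
    ⟨Function.update s n a, fun i hi => Function.update_of_ne hi.ne _ _, Function.update_self _ _ _⟩
  obtain ⟨r', r1, r2⟩ : ∃ r' : ℕ → Option (G × ℕ), (∀ i < n, r' i = r i) ∧ r' n = none :=
    ⟨fun i => if i < n then r i else none, fun i hi => if_pos hi, if_neg (lt_irrefl n)⟩
  have r3 : ∀ i < n + 1, ∀ R, r' i = some R → i < n ∧ r i = some R := fun i hi R e => by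
    have : i < n := lt_of_le_of_ne (by omega) fun c =>
      Option.some_ne_none _ (e.symm.trans (c ▸ r2))
    exact ⟨this, r1 i this ▸ e⟩
  refine ⟨P', s', r', ⟨⟨fun i hi => ?_, fun i hi => ?_, fun i hi R hr => ?_,
    fun i j k R a1 a2 a3 a4 a5 => ?_, fun R => ?_, fun k hk R hr => ?_, fun i R hi hf => ?_⟩,
    fun j hj R hr hk => ?_, fun j R hj hr hk => ?_⟩, p1, p2, r1, r2⟩
  · rcases Nat.lt_succ_iff_lt_or_eq.1 hi with c | rfl
    · rw [p1 i c.le, p1 _ c, s1 i c, h.w.step i c]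
    · rw [p2, s2, p1 _ le_rfl]
  · rcases Nat.lt_succ_iff_lt_or_eq.1 hi with c | rfl
    · rw [s1 _ c, s1 i (by omega)]
      exact h.w.red i c
    · rw [s2, s1 i (by omega)]
      exact h1 (by omega)
  · obtain ⟨c, e⟩ := r3 i hi R hr
    rw [p1 i c.le, s1 i c]
    exact h.w.mem i c R e
  · obtain ⟨c, e⟩ := r3 k a3 R a5
    rw [r1 j (by omega)]
    exact h.w.itv i j k R a1 a2 c (r3 i (by omega) R a4).2 e
  · obtain ⟨f, f1, f2⟩ := h.w.geo R
    refine ⟨f, f1, fun i hi hr => ?_⟩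
    obtain ⟨c, e⟩ := r3 i hi R hr
    rw [p1 i c.le, s1 i c]
    exact f2 i c e
  · obtain ⟨c, e⟩ := r3 k hk R hr
    rcases h.w.long k c R e with d | d | ⟨i, d1, d2⟩
    · exact Or.inl ((r1 0 (by omega)).trans d)
    · obtain ⟨d1, d2⟩ := h.last (n - 1) (by omega) R d fun k _ _ => by omega
      refine Or.inr (Or.inr ⟨n - 1 - F.ell R.2, by omega, fun j hj => ?_⟩)
      rw [r1 _ (by omega), ← d2 (F.ell R.2 - j) (by omega)]
      congr 1
      omega
    · exact Or.inr (Or.inr ⟨i, by omega, fun j hj => (r1 _ (by omega)).trans (d2 j hj)⟩)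
  · rcases Nat.lt_succ_iff_lt_or_eq.1 hi with c | c
    · refine h.w.free i R c fun k hk => ?_
      have := hf k hk
      rwa [r1 _ (by omega), p1 _ (by omega), s1 _ (by omega)] at this
    · refine hn ⟨R, by omega, ?_, fun k k1 k2 => ?_⟩
      · have := (hf _ le_rfl).2
        rwa [c, s2, p1 _ le_rfl] at this
      · obtain ⟨k, rfl⟩ := Nat.exists_eq_add_of_le (show i ≤ k by omega)
        have := hf k (by omega)
        rwa [r1 _ k1, p1 _ k1.le, s1 _ k1] at this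
  · obtain ⟨c, e⟩ := r3 j hj R hr
    obtain ⟨d1, d2⟩ := h.last j c R e fun k k1 k2 => r1 k k2 ▸ hk k k1 (by omega)
    exact ⟨d1, fun k hk => (r1 _ (by omega)).trans (d2 k hk)⟩
  · obtain ⟨c, e⟩ := r3 j (by omega) R hr
    rcases Nat.lt_succ_iff_lt_or_eq.1 hj with d | rfl
    · rw [p1 _ d.le, s1 _ d]
      exact h.ex j R d e fun k k1 k2 => r1 k k2 ▸ hk k k1 (by omega)
    · rw [s2, p1 _ le_rfl]
      exact h2 R (by omega) e

end Vale.Agent.P089.Geo
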