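import Vale.Agent.P089.Attach

/-! Finite families of copies have leaves; tight sets do not exist (job Chain). -/

namespace Vale.Agent.P089.Geo

open Classical

variable {S V : Type} [Fintype S] {F : Fam S V} {ω : Set ℕ} {G : Type} [Group G]
  (Ω : Geo F ω G)

/-- the vertices of a copy that lie on another copy of the family -/
noncomputable def ovl (𝓕 : Finset (G × ℕ)) (R : G × ℕ) : Finset V :=
  (F.lv R.2).filter fun v => ∃ R' ∈ 𝓕, R' ≠ R ∧ Ω.In R' (R.1 * Ω.θ v)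

namespace ChainX

omit [Group G] in
lemma asg_zero (r : ℕ → Option (G × ℕ)) : asg r 0 = ∅ := by
  ext R
  simp [asg]

lemma ball_le {c : V} {m : ℕ} (hc : F.lev c = m) {T : Finset V} (hT : T ⊆ F.lv m)
    (h : ∀ v ∈ T, F.dist c v ≤ 2 * F.ell m) : T.card ≤ (F.D + 1) ^ (2 * F.ell m) := by
  subst hc
  exact (Finset.card_le_card fun v hv => Finset.mem_filter.2 ⟨hT hv, h v hv⟩).trans
    (F.ball_card c _)

end ChainX

open ChainX

theorem no_chain (𝓕 : Finset (G × ℕ)) (hω : ∀ R ∈ 𝓕, R.2 ∈ ω) {R₀ : G × ℕ} (h0 : R₀ ∈ 𝓕)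
    (h1 : (Ω.ovl 𝓕 R₀).Nonempty) :
    ∃ R ∈ 𝓕, R ≠ R₀ ∧ (Ω.ovl 𝓕 R).card ≤ (F.D + 1) ^ (2 * F.ell R.2) := by
  by_contra hcon
  push Not at hcon
  have key : ∀ k : ℕ, ∃ P s r n R e, Ω.St P s r n ∧ r (n - 1) = some R ∧ R₀ ∈ asg r n ∧
      asg r n ⊆ 𝓕 ∧ (asg r n).ncard = k + 1 ∧ P n = R.1 * Ω.θ e ∧ e ∈ Ω.ovl 𝓕 R := by
    intro k
    induction k with
    | zero =>
      obtain ⟨v, hv⟩ := h1
      have hl : F.lev v = R₀.2 := F.mem_lv.1 (Finset.mem_filter.1 hv).1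
      obtain ⟨q, hq, hq'⟩ := F.exists_far v
      obtain ⟨-, n', -, c, hc, e, -, -, h⟩ := (Ω.st_zero (fun _ => R₀.1 * Ω.θ q)
        (fun _ => (F.exists_rd v 0).choose_spec.choose 0) fun _ => none).attach (R := R₀)
        ⟨hω _ h0, q, hq.trans hl, rfl⟩ (fun h => absurd h (lt_irrefl 0))
      obtain rfl : q = c := Ω.θ_inj ((hq.trans hl).symm ▸ hω _ h0) (hc.trans (hq.trans hl).symm)
        (mul_left_cancel e)
      obtain ⟨P, s, r, n, a1, -, a3, a4, a5⟩ := h v hl (by rwa [F.dist_comm, ← hl])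
      rw [asg_zero] at a5
      exact ⟨P, s, r, n, R₀, v, a1, a4, by simp [a5], by simp [a5, h0], by simp [a5], a3, hv⟩
    | succ k ih =>
      obtain ⟨P, s, r, n, R, e, a1, a2, a3, a4, a5, a6, a7⟩ := ih
      obtain ⟨R', hR', hne, hin⟩ := (Finset.mem_filter.1 a7).2
      obtain ⟨b1, n', -, c, hc, -, -, -, h⟩ := a1.attach (R := R') (a6 ▸ hin) fun _ h => by
        rw [a2] at h
        exact hne (Option.some.inj h).symm
      obtain ⟨e', he', hd⟩ : ∃ e' ∈ Ω.ovl 𝓕 R', 2 * F.ell R'.2 < F.dist c e' := by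
        by_contra! h2
        exact (hcon R' hR' fun h3 => b1 (h3 ▸ a3)).not_ge
          (ball_le hc (Finset.filter_subset _ _) h2)
      obtain ⟨P', s', r', n'', c1, -, c3, c4, c5⟩ :=
        h e' (F.mem_lv.1 (Finset.mem_filter.1 he').1) hd
      refine ⟨P', s', r', n'', R', e', c1, c4, c5 ▸ Set.mem_insert_of_mem _ a3,
        c5 ▸ Set.insert_subset hR' a4, ?_, c3, he'⟩
      rw [c5, Set.ncard_insert_of_notMem b1 (𝓕.finite_toSet.subset a4), a5]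
  obtain ⟨P, s, r, n, R, e, -, -, -, a4, a5, -⟩ := key 𝓕.card
  have := Set.ncard_le_ncard a4 𝓕.finite_toSet
  rw [Set.ncard_coe_finset] at this
  omega

theorem exists_leaf (𝓕 : Finset (G × ℕ)) (hω : ∀ R ∈ 𝓕, R.2 ∈ ω) {R₀ R₁ : G × ℕ} (h0 : R₀ ∈ 𝓕)
    (h1 : R₁ ∈ 𝓕) (hne : R₁ ≠ R₀) :
    ∃ R ∈ 𝓕, R ≠ R₀ ∧ (Ω.ovl 𝓕 R).card ≤ (F.D + 1) ^ (2 * F.ell R.2) := by
  by_cases h : (Ω.ovl 𝓕 R₀).Nonempty
  · exact Ω.no_chain 𝓕 hω h0 h
  have key : ∀ R ∈ 𝓕, R ≠ R₀ → Ω.ovl 𝓕 R ⊆ Ω.ovl (𝓕.erase R₀) R := fun R hR hR' v hv => by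
    obtain ⟨a1, R', a2, a3, a4⟩ := Finset.mem_filter.1 hv
    refine Finset.mem_filter.2 ⟨a1, R', Finset.mem_erase.2 ⟨?_, a2⟩, a3, a4⟩
    rintro rfl
    obtain ⟨-, w, hw, e⟩ := a4
    exact h ⟨w, Finset.mem_filter.2 ⟨F.mem_lv.2 hw, R, hR, hR', hω R hR, v, F.mem_lv.1 a1, e.symm⟩⟩
  by_cases h' : (Ω.ovl 𝓕 R₁).Nonempty
  · obtain ⟨R, hR, -, h2⟩ := Ω.no_chain (𝓕.erase R₀) (fun R hR => hω R (Finset.mem_of_mem_erase hR))
      (Finset.mem_erase.2 ⟨hne, h1⟩) (h'.mono (key _ h1 hne))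
    obtain ⟨a1, a2⟩ := Finset.mem_erase.1 hR
    exact ⟨R, a2, a1, (Finset.card_le_card (key R a2 a1)).trans h2⟩
  · exact ⟨R₁, h1, hne, by simp [Finset.not_nonempty_iff_eq_empty.1 h']⟩

namespace ChainX

/-- states of the exploration of a finite set -/
structure Sta (B : Finset G) (𝓕 : Finset (G × ℕ)) (P : ℕ → G) (s : ℕ → S × Bool)
    (r : ℕ → Option (G × ℕ)) (n : ℕ) (a : S × Bool) : Prop where
  st : Ω.St P s r n
  sub : asg r n ⊆ 𝓕
  tail : ∀ i ≤ n, (∀ k, i ≤ k → k < n → r k = none) → P i ∈ B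
  h1 : 0 < n → a ≠ iv (s (n - 1))
  h2 : ∀ R, 0 < n → r (n - 1) = some R → ¬Ω.On R (P n) a
  h3 : P n * Ω.gen a ∈ B

variable {Ω} {B : Finset G} {𝓕 : Finset (G × ℕ)} {P : ℕ → G} {s : ℕ → S × Bool}
  {r : ℕ → Option (G × ℕ)} {n : ℕ} {a : S × Bool} {x : G × (S × Bool) → ZMod 2}

lemma Sta.tail_lt (h : Sta Ω B 𝓕 P s r n a) {t : ℕ} (ht : t ≤ n)
    (hr : ∀ k < n, n ≤ k + t → r k = none) : t < B.card := by
  have := Finset.card_le_card_of_injOn (s := Finset.Icc (n - t) n) (t := B) P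
    (fun i hi => by
      rw [Finset.coe_Icc] at hi
      have := hi.1
      exact h.tail i hi.2 fun k h1 h2 => hr k h2 (by omega))
    fun i hi j hj e => by
      rw [Finset.coe_Icc] at hi hj
      exact h.st.w.inj hi.2 hj.2 e
  rw [Nat.card_Icc] at this
  omega

lemma Sta.right (hB : Ω.Tight x B) (h : Sta Ω B 𝓕 P s r n a)
    (h𝓕 : ∀ R : G × ℕ, R.2 < B.card → ∀ p ∈ B, Ω.In R p → R ∈ 𝓕) {R : G × ℕ}
    (a1 : 4 * F.ell R.2 ≤ n) (a2 : Ω.On R (P n) a)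
    (a3 : ∀ k < n, n ≤ k + 4 * F.ell R.2 → r k = none ∧ Ω.On R (P k) (s k)) :
    ∃ P' s' r' n' a', Sta Ω B 𝓕 P' s' r' n' a' ∧ (asg r' n').ncard = (asg r n).ncard + 1 := by
  have hℓ := F.ell_gt R.2
  have hn : P n ∈ B := h.tail n le_rfl fun k h1 h2 => by omega
  have hR : R ∈ 𝓕 := h𝓕 R (by
    have := h.tail_lt a1 fun k h1 h2 => (a3 k h1 h2).1
    omega) _ hn a2.src
  obtain ⟨b1, n', b2, c, hc, b3, b4, b5, b6⟩ := h.st.attach a2.src fun h0 h1 => by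
    rw [(a3 (n - 1) (by omega) (by omega)).1] at h1
    exact absurd h1 (by simp)
  have c1 : n' + 4 * F.ell R.2 ≤ n := by
    by_contra h1
    exact b5 (by omega) (a3 _ (by omega) (by omega)).2
  have c2 := h.st.w.run (R := R) n' (n - n') (by omega) fun i hi =>
    ⟨b4 _ (by omega) (by omega), fun h1 => b1 ⟨_, by omega, h1⟩⟩
  obtain ⟨y, hy, hy0, hy'⟩ := lift (Ω := Ω) (P := P) (s := s) n' (n - n')
    (fun i hi => h.st.w.step _ (by omega)) (fun i hi => b4 _ (by omega) (by omega)) hc b3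
  have c3 := F.rd_geo hy (h.st.w.sub n' (n - n') (by omega)).red (by rw [hy0, hc]; omega)
  obtain ⟨c4, c5⟩ := hy' _ le_rfl
  rw [Nat.add_sub_of_le b2] at c5
  rw [hy0] at c3
  obtain ⟨e, he, hd⟩ : ∃ e ∈ (F.lv R.2).filter fun v => R.1 * Ω.θ v ∈ B ∧
      ∃ a, a ∉ F.out v ∧ R.1 * Ω.θ v * Ω.gen a ∈ B ∧ Ω.opn x (R.1 * Ω.θ v) a,
      2 * F.ell R.2 < F.dist c e := by
    by_contra! h2
    have d1 := (hB.ex R a2.1).trans
      (Nat.mul_le_mul_left _ (ball_le hc (Finset.filter_subset _ _) h2))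
    have d2 := F.growth c ((F.lv R.2).filter fun v => R.1 * Ω.θ v ∈ B)
      (hc ▸ Finset.filter_subset _ _) (u := y (n - n'))
      (Finset.mem_filter.2 ⟨F.mem_lv.2 c4, c5 ▸ hn⟩) (by rw [hc]; omega) (by rw [hc]; omega)
      fun v hv hd => by
        obtain ⟨v1, v2⟩ := Finset.mem_filter.1 hv
        refine (hB.deg _ v2).trans (Finset.card_le_card fun b hb => ?_)
        obtain ⟨-, f1, f2⟩ := Finset.mem_filter.1 hb
        have f3 : b ∈ F.out v := by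
          by_contra f3
          exact (h2 v (Finset.mem_filter.2 ⟨v1, v2, b, f3, f2, f1⟩)).not_gt (hc ▸ hd)
        obtain ⟨v', f4⟩ := F.mem_out.1 f3
        have f5 := F.mem_lv.1 v1
        refine Finset.mem_filter.2 ⟨Finset.mem_univ _, v', Finset.mem_filter.2
          ⟨F.mem_lv.2 ((F.lev_st f4).trans f5), ?_⟩, f4⟩
        rwa [Ω.θ_st (f5 ▸ a2.1) f4, ← mul_assoc]
    have d3 := F.big R.2
    rw [hc] at d2
    have d4 : 0 < (F.D + 1) ^ 2 * (F.D + 1) ^ (2 * F.ell R.2) := by positivity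
    have d5 : (F.D + 1) ^ (2 * F.ell R.2 + 3) =
        (F.D + 1) * ((F.D + 1) ^ 2 * (F.D + 1) ^ (2 * F.ell R.2)) := by ring
    rw [mul_assoc] at d1
    nlinarith
  obtain ⟨e1, e2, a', e3, e4, -⟩ := Finset.mem_filter.1 he
  have e5 := F.mem_lv.1 e1
  obtain ⟨P', s', r', n'', f1, f2, f3, f4, f5⟩ := b6 e e5 hd
  refine ⟨P', s', r', n'', a', ⟨f1, f5 ▸ Set.insert_subset hR h.sub, fun i hi hk => ?_,
    fun _ h1 => e3 ?_, fun R' _ h1 h2 => e3 ?_, f3 ▸ e4⟩, ?_⟩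
  · obtain rfl : i = n'' := by
      by_contra h1
      rw [hk _ (by omega) (by omega)] at f4
      exact absurd f4 (by simp)
    exact f3 ▸ e2
  · have := (f1.w.mem _ (by omega) R f4).rev
    rw [← f1.w.step _ (by omega), Nat.sub_add_cancel f2, f3, ← h1] at this
    exact (on_iff a2.1 e5).1 this
  · rw [f4] at h1
    rw [← Option.some.inj h1, f3] at h2
    exact (on_iff a2.1 e5).1 h2
  · rw [f5, Set.ncard_insert_of_notMem b1 (𝓕.finite_toSet.subset h.sub)]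

lemma Sta.next (hB : Ω.Tight x B) (h : Sta Ω B 𝓕 P s r n a)
    (h𝓕 : ∀ R : G × ℕ, R.2 < B.card → ∀ p ∈ B, Ω.In R p → R ∈ 𝓕) :
    ∃ P' s' r' n' a', Sta Ω B 𝓕 P' s' r' n' a' ∧ (asg r' n').ncard = (asg r n).ncard + 1 := by
  by_contra hcon
  have key : ∀ t : ℕ, ∃ P' s' r' n' a', Sta Ω B 𝓕 P' s' r' n' a' ∧ asg r' n' = asg r n ∧ t ≤ n' ∧
      ∀ k < n', n' ≤ k + t → r' k = none := by
    intro t
    induction t with
    | zero => exact ⟨P, s, r, n, a, h, rfl, Nat.zero_le _, fun k h1 h2 => by omega⟩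
    | succ t ih =>
      obtain ⟨P, s, r', n', a, h, h1, h2, h3⟩ := ih
      rcases h.st.snoc h.h1 h.h2 with ⟨P', s', r'', a1, a2, a3, a4, a5⟩ | ⟨R, a1, a2, a3⟩
      · have b1 : asg r'' (n' + 1) = asg r' n' := by
          ext R
          constructor
          · rintro ⟨i, hi, e⟩
            rcases Nat.lt_succ_iff_lt_or_eq.1 hi with hi | rfl
            · exact ⟨i, hi, a4 i hi ▸ e⟩
            · rw [a5] at e
              exact absurd e (by simp)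
          · rintro ⟨i, hi, e⟩
            exact ⟨i, by omega, (a4 i hi).trans e⟩
        have b2 : P' (n' + 1) ∈ B := a3 ▸ h.h3
        obtain ⟨a', b3, b4⟩ := Finset.exists_mem_ne
          (lt_of_lt_of_le (by norm_num) (hB.deg _ b2)) (iv (s' n'))
        refine ⟨P', s', r'', n' + 1, a', ⟨a1, b1 ▸ h.sub, fun i hi hk => ?_, fun _ => b4,
          fun R _ e => ?_, (Finset.mem_filter.1 b3).2.2⟩, b1.trans h1, by omega, fun k c1 c2 => ?_⟩
        · rcases Nat.le_succ_iff.1 hi with hi | rfl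
          · rw [a2 i hi]
            exact h.tail i hi fun k c1 c2 => a4 k c2 ▸ hk k c1 (by omega)
          · exact b2
        · rw [Nat.add_sub_cancel, a5] at e
          exact absurd e (by simp)
        · rcases Nat.lt_succ_iff_lt_or_eq.1 c1 with c1 | rfl
          · rw [a4 k c1]
            exact h3 k c1 (by omega)
          · exact a5
      · exact absurd (h1 ▸ h.right hB h𝓕 a1 a2 a3) hcon
  obtain ⟨P, s, r', n', a, h, -, h2, h3⟩ := key B.card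
  exact (h.tail_lt h2 h3).false

end ChainX

theorem not_tight (x : G × (S × Bool) → ZMod 2) (B : Finset G) : ¬Ω.Tight x B := by
  intro hB
  let 𝓕 : Finset (G × ℕ) := (B ×ˢ (Finset.range B.card).biUnion F.lv).image
    fun p => (p.1 * (Ω.θ p.2)⁻¹, F.lev p.2)
  have h𝓕 : ∀ R : G × ℕ, R.2 < B.card → ∀ p ∈ B, Ω.In R p → R ∈ 𝓕 := by
    rintro R hR _ hp ⟨-, v, hv, rfl⟩
    exact Finset.mem_image.2 ⟨(_, v), Finset.mem_product.2 ⟨hp, Finset.mem_biUnion.2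
      ⟨R.2, Finset.mem_range.2 hR, F.mem_lv.2 hv⟩⟩, by simp [hv]⟩
  have key : ∀ k : ℕ, ∃ P s r n a, Sta Ω B 𝓕 P s r n a ∧ (asg r n).ncard = k := by
    intro k
    induction k with
    | zero =>
      obtain ⟨g, hg⟩ := hB.ne
      obtain ⟨a, ha⟩ := Finset.card_pos.1 (lt_of_lt_of_le (by norm_num) (hB.deg g hg))
      exact ⟨fun _ => g, fun _ => a, fun _ => none, 0, a, ⟨Ω.st_zero _ _ _, by simp [asg_zero],
        fun _ _ _ => hg, fun h => absurd h (lt_irrefl 0), fun _ h => absurd h (lt_irrefl 0),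
        (Finset.mem_filter.1 ha).2.2⟩, by simp [asg_zero]⟩
    | succ k ih =>
      obtain ⟨P, s, r, n, a, h, rfl⟩ := ih
      exact h.next hB h𝓕
  obtain ⟨P, s, r, n, a, h, hk⟩ := key (𝓕.card + 1)
  have := Set.ncard_le_ncard h.sub 𝓕.finite_toSet
  rw [Set.ncard_coe_finset] at this
  omega

end Vale.Agent.P089.Geo
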