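import Vale.Agent.P089.Good

/-! The alternating sum of the indices over a cube vanishes (job Clif). -/

namespace Vale.Agent.P089

variable {A A' : Type} [NormedRing A] [NormedAlgebra ℂ A] [NormedRing A'] [NormedAlgebra ℂ A']

/-- matrix units -/
structure MatD (ι : Type) (D : TrD A) (g : Grd A) (D' : TrD A') (g' : Grd A') where
  k : ι → ι → A →ₗ[ℂ] A'
  mul : ∀ i j l x y, k i j x * k j l y = k i l (x * y)
  orth : ∀ i j j' l x y, j ≠ j' → k i j x * k j' l y = 0
  good : ∀ i j x, D.Good g x → D'.Good g' (k i j x)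
  idx : ∀ i P r, D.Idx g P r → D'.Idx g' (k i i P) r

namespace ClifX

variable {N : ℕ}

def fl (J : Fin N → Bool) (j : Fin N) : Fin N → Bool := Function.update J j (!J j)

def sg (b : Bool) : ℂ := if b then -1 else 1

noncomputable def ep (J : Fin N → Bool) (j : Fin N) : ℂ :=
  ∏ i ∈ Finset.univ.filter (· < j), sg (J i)

noncomputable def par (J : Fin N → Bool) : ℂ := ∏ i, sg (J i)

lemma sg_not (b : Bool) : sg (!b) = -sg b := by cases b <;> simp [sg]

lemma sg_sq (b : Bool) : sg b * sg b = 1 := by cases b <;> simp [sg]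

lemma fl_self (J : Fin N → Bool) (j : Fin N) : fl J j j = !J j := by simp [fl]

lemma fl_ne (J : Fin N → Bool) {j i : Fin N} (h : i ≠ j) : fl J j i = J i := by simp [fl, h]

lemma fl_fl (J : Fin N → Bool) (j : Fin N) : fl (fl J j) j = J := by simp [fl]

lemma fl_comm (J : Fin N → Bool) {j i : Fin N} (h : i ≠ j) : fl (fl J j) i = fl (fl J i) j := by
  unfold fl
  rw [Function.update_of_ne h, Function.update_of_ne h.symm, Function.update_comm h]

lemma prod_fl (J : Fin N → Bool) {j : Fin N} {s : Finset (Fin N)} (h : j ∈ s) :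
    ∏ i ∈ s, sg (fl J j i) = -∏ i ∈ s, sg (J i) := by
  rw [← Finset.mul_prod_erase s _ h, ← Finset.mul_prod_erase s _ h, fl_self, sg_not, neg_mul,
    Finset.prod_congr rfl fun i hi => by rw [fl_ne J (Finset.ne_of_mem_erase hi)]]

lemma ep_fl (J : Fin N → Bool) {j i : Fin N} (h : ¬ j < i) : ep (fl J j) i = ep J i :=
  Finset.prod_congr rfl fun l hl => by
    rw [fl_ne J]
    rintro rfl
    exact h (Finset.mem_filter.1 hl).2

lemma ep_fl' (J : Fin N → Bool) {j i : Fin N} (h : j < i) : ep (fl J j) i = -ep J i :=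
  prod_fl J (Finset.mem_filter.2 ⟨Finset.mem_univ _, h⟩)

lemma ep_sq (J : Fin N → Bool) (j : Fin N) : ep J j * ep J j = 1 := by
  rw [ep, ← Finset.prod_mul_distrib]
  exact Finset.prod_eq_one fun i _ => sg_sq _

lemma par_fl (J : Fin N → Bool) (j : Fin N) : par (fl J j) = -par J :=
  prod_fl J (Finset.mem_univ _)

lemma par_or (J : Fin N → Bool) : par J = 1 ∨ par J = -1 := by
  refine mul_self_eq_one_iff.1 ?_
  rw [par, ← Finset.prod_mul_distrib]
  exact Finset.prod_eq_one fun i _ => sg_sq _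

lemma sum_par (hN : 0 < N) : ∑ J : Fin N → Bool, par J = 0 := by
  have h : ∑ J : Fin N → Bool, par (fl J ⟨0, hN⟩) = ∑ J, par J :=
    Equiv.sum_comp (Function.Involutive.toPerm (fun J => fl J ⟨0, hN⟩) fun J => fl_fl J _) par
  simp only [par_fl, Finset.sum_neg_distrib] at h
  linear_combination (-1 / 2 : ℂ) * h

lemma anti {X : Fin N → Fin N → A'} (h : ∀ i j, i < j → X i j = -X j i) :
    ∑ i, ∑ j, X i j = ∑ i, X i i := by
  have h1 : ∀ i j, X i j + X j i = if i = j then X i i + X i i else 0 := fun i j => by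
    rcases lt_trichotomy i j with l | l | l
    · rw [if_neg l.ne, h i j l, neg_add_cancel]
    · rw [if_pos l, l]
    · rw [if_neg l.ne', h j i l, add_neg_cancel]
  have h2 : ∑ i, ∑ j, X i j + ∑ i, ∑ j, X i j = ∑ i, X i i + ∑ i, X i i := by
    nth_rewrite 2 [Finset.sum_comm]
    rw [← Finset.sum_add_distrib, ← Finset.sum_add_distrib]
    refine Finset.sum_congr rfl fun i _ => ?_
    rw [← Finset.sum_add_distrib, Finset.sum_congr rfl fun j _ => h1 i j, Finset.sum_ite_eq,
      if_pos (Finset.mem_univ _)]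
  rw [← two_smul ℂ, ← two_smul ℂ] at h2
  exact smul_right_injective A' (two_ne_zero : (2 : ℂ) ≠ 0) h2

variable {D : TrD A} {g : Grd A} {D' : TrD A'} {g' : Grd A'}
  (M : MatD (Fin N → Bool) D g D' g') (P : (Fin N → Bool) → A) (m : Fin N → Bool → A)

noncomputable def w (J : Fin N → Bool) (j : Fin N) : A' :=
  ep J j • M.k (fl J j) J (m j (J j) * P J)

noncomputable def W (T : Finset (Fin N → Bool)) : A' := ∑ J ∈ T, ∑ j, w M P m J j

noncomputable def E (T : Finset (Fin N → Bool)) : A' := ∑ J ∈ T, M.k J J (P J)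

variable {P m} (hPP : ∀ J, P J * P J = P J)
  (h1 : ∀ j J, m j (J j) * P J = P (Function.update J j (!J j)) * m j (J j))
include hPP h1

omit [NormedAlgebra ℂ A] in
lemma P_m (J : Fin N → Bool) (j : Fin N) : P (fl J j) * (m j (J j) * P J) = m j (J j) * P J := by
  rw [← mul_assoc, fl, ← h1, mul_assoc, hPP]

omit h1 in
lemma W_E (T : Finset (Fin N → Bool)) : W M P m T * E M P T = W M P m T := by
  rw [W, Finset.sum_mul]
  refine Finset.sum_congr rfl fun J hJ => ?_
  rw [Finset.sum_mul]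
  refine Finset.sum_congr rfl fun j _ => ?_
  rw [E, Finset.mul_sum, Finset.sum_eq_single_of_mem J hJ fun J' _ h => by
    rw [w, smul_mul_assoc, M.orth _ _ _ _ _ _ h.symm, smul_zero]]
  rw [w, smul_mul_assoc, M.mul, mul_assoc, hPP]

lemma E_W {T T' : Finset (Fin N → Bool)} (hT : ∀ J ∈ T, ∀ j, fl J j ∈ T') :
    E M P T' * W M P m T = W M P m T := by
  rw [W, Finset.mul_sum]
  refine Finset.sum_congr rfl fun J hJ => ?_
  rw [Finset.mul_sum]
  refine Finset.sum_congr rfl fun j _ => ?_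
  rw [E, Finset.sum_mul, Finset.sum_eq_single_of_mem _ (hT J hJ j) fun J' _ h => by
    rw [w, mul_smul_comm, M.orth _ _ _ _ _ _ h, smul_zero]]
  rw [w, mul_smul_comm, M.mul, P_m hPP h1]

lemma W_W (h2 : ∀ J, (∑ j, m j (!J j) * m j (J j)) * P J = P J)
    (h3 : ∀ j j' b b', j ≠ j' → m j b * m j' b' = m j' b' * m j b)
    {T T' : Finset (Fin N → Bool)} (hT : ∀ J ∈ T, ∀ j, fl J j ∈ T') :
    W M P m T' * W M P m T = E M P T := by
  nth_rewrite 2 [W]
  rw [Finset.mul_sum]
  refine Finset.sum_congr rfl fun J hJ => ?_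
  have e : ∀ j, W M P m T' * w M P m J j = ∑ i, (ep (fl J j) i * ep J j) •
      M.k (fl (fl J j) i) J (m i (fl J j i) * m j (J j) * P J) := fun j => by
    rw [W, Finset.sum_mul, Finset.sum_eq_single_of_mem _ (hT J hJ j) fun J' _ h => by
      rw [Finset.sum_mul]
      exact Finset.sum_eq_zero fun i _ => by
        rw [w, w, smul_mul_smul_comm, M.orth _ _ _ _ _ _ h, smul_zero]]
    rw [Finset.sum_mul]
    refine Finset.sum_congr rfl fun i _ => ?_
    rw [w, w, smul_mul_smul_comm, M.mul, mul_assoc, P_m hPP h1, mul_assoc]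
  rw [Finset.mul_sum, Finset.sum_congr rfl fun j _ => e j, anti fun i j l => ?_]
  · simp only [fl_fl, fl_self, ep_fl J (lt_irrefl _), ep_sq, one_smul]
    rw [← map_sum, ← Finset.sum_mul, h2]
  · rw [ep_fl' J l, ep_fl J (not_lt.2 l.le), fl_comm J l.ne, fl_ne J l.ne, fl_ne J l.ne',
      h3 _ _ _ _ l.ne, ← neg_smul, neg_mul, mul_comm (ep J j)]

end ClifX

open ClifX in
theorem clif [CompleteSpace A'] {N : ℕ} {D : TrD A} {g : Grd A} {D' : TrD A'} {g' : Grd A'}
    (M : MatD (Fin N → Bool) D g D' g') (P : (Fin N → Bool) → A) (m : Fin N → Bool → A)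
    (r : (Fin N → Bool) → ℂ) (hP : ∀ J, D.Good g (P J)) (hPP : ∀ J, P J * P J = P J)
    (hm : ∀ j b, D.Good g (m j b))
    (h1 : ∀ j J, m j (J j) * P J = P (Function.update J j (!J j)) * m j (J j))
    (h2 : ∀ J, (∑ j, m j (!J j) * m j (J j)) * P J = P J)
    (h3 : ∀ j j' b b', j ≠ j' → m j b * m j' b' = m j' b' * m j b)
    (hr : ∀ J, D.Idx g (P J) (r J)) (hN : 0 < N) {r' : ℂ}
    (hr' : ∀ J, J ≠ (fun _ => false) → r J = r') : r (fun _ => false) = r' := by
  obtain ⟨T, hT⟩ : ∃ T : Finset (Fin N → Bool), T = Finset.univ.filter fun J => par J = 1 :=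
    ⟨_, rfl⟩
  obtain ⟨T', hT'⟩ : ∃ T : Finset (Fin N → Bool), T = Finset.univ.filter fun J => ¬par J = 1 :=
    ⟨_, rfl⟩
  have n1 : (-1 : ℂ) ≠ 1 := by norm_num
  have t1 : ∀ J ∈ T, ∀ j, fl J j ∈ T' := fun J hJ j => by
    simp only [hT, hT', Finset.mem_filter, Finset.mem_univ, true_and] at hJ ⊢
    rwa [par_fl, hJ]
  have t0 : ∀ J ∈ T', par J = -1 := fun J hJ => by
    simp only [hT', Finset.mem_filter, Finset.mem_univ, true_and] at hJ
    exact (par_or J).resolve_left hJ
  have t2 : ∀ J ∈ T', ∀ j, fl J j ∈ T := fun J hJ j => by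
    simp only [hT, Finset.mem_filter, Finset.mem_univ, true_and]
    rw [par_fl, t0 J hJ, neg_neg]
  have gW : ∀ T, D'.Good g' (W M P m T) := fun T => TrD.Good.sum _ fun J _ =>
    TrD.Good.sum _ fun j _ => (M.good _ _ _ ((hm _ _).mul (hP _))).smul _
  have iE : ∀ T, D'.Idx g' (E M P T) (∑ J ∈ T, r J) := fun T =>
    TrD.Idx.sum T (fun J _ => M.good _ _ _ (hP J)) (fun J _ => by rw [M.mul, hPP])
      (fun J _ J' _ h => M.orth _ _ _ _ _ _ h) fun J _ => M.idx _ _ _ (hr J)
  have e1 := W_W M hPP h1 h2 h3 t1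
  have e2 := W_W M hPP h1 h2 h3 t2
  have e3 := W_E M (m := m) hPP T
  have i1 := TrD.Idx.iso (gW T) (gW T') e1 e2 e3 (E_W M hPP h1 t2) (iE T)
  have i2 := TrD.Idx.unique (e2 ▸ (gW T).mul (gW T'))
    (by rw [← e2, mul_assoc, ← mul_assoc (W M P m T'), e1, ← mul_assoc, e3]) i1 (iE T')
  have s1 : ∑ J, par J * r J = 0 := by
    rw [← Finset.sum_filter_add_sum_filter_not _ fun J => par J = 1, ← hT, ← hT',
      Finset.sum_congr rfl fun J hJ => by
        rw [show par J = 1 by simpa [hT] using hJ, one_mul],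
      Finset.sum_congr rfl fun J (hJ : J ∈ T') => by rw [t0 J hJ, neg_one_mul],
      Finset.sum_neg_distrib, i2, add_neg_cancel]
  have s2 : ∑ J, par J * (r J - r') = 0 := by
    simp only [mul_sub, Finset.sum_sub_distrib]
    rw [s1, ← Finset.sum_mul, sum_par hN, zero_mul, sub_zero]
  rw [Finset.sum_eq_single (fun _ => false) (fun J _ h => by rw [hr' J h, sub_self, mul_zero])
    (fun h => absurd (Finset.mem_univ _) h)] at s2
  simpa [par, sg, sub_eq_zero] using s2

end Vale.Agent.P089
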