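import Mathlib

/-! A random linear code with large distance and large dual distance (job Code). -/

namespace Vale.Agent.P089

namespace CodeX

open Classical Finset

theorem count {I : Type} [Fintype I] [DecidableEq I] (S : Finset (I → ZMod 2)) (J : Finset I)
    (h : ∀ x ∈ S, ∀ y ∈ S, (∀ i, i ∉ J → x i = y i) → ∀ i ∈ J, x i = y i) :
    S.card * 2 ^ J.card ≤ Fintype.card (I → ZMod 2) := by
  have h1 : (S ×ˢ (univ : Finset (J → ZMod 2))).card = S.card * 2 ^ J.card := by
    simp
  rw [← h1, ← card_univ]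
  refine card_le_card_of_injOn (fun p i => if h : i ∈ J then p.2 ⟨i, h⟩ else p.1 i)
    (fun _ _ => mem_univ _) fun p hp q hq e => ?_
  have h2 : ∀ i, i ∉ J → p.1 i = q.1 i := fun i hi => by
    simpa only [dif_neg hi] using congrFun e i
  refine Prod.ext (funext fun i => ?_) (funext fun i => ?_)
  · by_cases hi : i ∈ J
    · exact h _ (mem_product.1 hp).1 _ (mem_product.1 hq).1 h2 i hi
    · exact h2 i hi
  · simpa only [dif_pos i.2] using congrFun e i.1

variable {V A : Type} [Fintype V] [Fintype A]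

/-- decoding of a sparse vector -/
noncomputable def dec {s : ℕ} (w : Fin s → Option V × (A → ZMod 2)) (p : V × A) : ZMod 2 :=
  if h : ∃ j, (w j).1 = some p.1 then (w h.choose).2 p.2 else 0

omit [Fintype V] [Fintype A] in
theorem dec_surj {s : ℕ} (T : Finset V) (hT : T.card ≤ s) (z : V × A → ZMod 2)
    (hz : ∀ p : V × A, p.1 ∉ T → z p = 0) : ∃ w : Fin s → Option V × (A → ZMod 2), dec w = z := by
  refine ⟨fun j => (T.toList[j.1]?, fun a => (T.toList[j.1]?).elim 0 fun v => z (v, a)),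
    funext fun p => ?_⟩
  unfold dec
  split_ifs with h
  · have h1 := h.choose_spec
    simp only at h1 ⊢
    rw [h1]
    rfl
  · refine (hz p fun h1 => h ?_).symm
    obtain ⟨i, hi⟩ := List.mem_iff_getElem?.1 (mem_toList.2 h1)
    have h2 : i < T.toList.length := (List.getElem?_eq_some_iff.1 hi).1
    rw [length_toList] at h2
    exact ⟨⟨i, by omega⟩, hi⟩

theorem exists_mat (pat : V × A → ZMod 2) (hA : 8 ≤ Fintype.card A) (hV : 1 ≤ Fintype.card V)
    {s : ℕ} (hs : 2 * ((Fintype.card V + 1) * 2 ^ Fintype.card A) ^ s < 2 ^ Fintype.card V) :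
    ∃ M : V × (V × A) → ZMod 2,
      (∀ (ε : ZMod 2) (y : V → ZMod 2) (T : Finset V), y ≠ 0 → Fintype.card V ≤ 2 * T.card →
        ¬ ∀ v ∈ T, ∀ a, ε * pat (v, a) + ∑ i, y i * M (i, (v, a)) = 0) ∧
      ∀ w : Fin s → Option V × (A → ZMod 2), dec w ≠ 0 →
        ¬ ∀ i, ∑ p, M (i, p) * dec w p = 0 := by
  set n := Fintype.card V with hn
  set N := Fintype.card (V × (V × A) → ZMod 2) with hN
  set B1 : ZMod 2 × (V → ZMod 2) × Finset V → Finset (V × (V × A) → ZMod 2) := fun b =>
    univ.filter fun M => b.2.1 ≠ 0 ∧ n ≤ 2 * b.2.2.card ∧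
      ∀ v ∈ b.2.2, ∀ a, b.1 * pat (v, a) + ∑ i, b.2.1 i * M (i, (v, a)) = 0 with hB1
  set B2 : (Fin s → Option V × (A → ZMod 2)) → Finset (V × (V × A) → ZMod 2) := fun w =>
    univ.filter fun M => dec w ≠ 0 ∧ ∀ i, ∑ p, M (i, p) * dec w p = 0 with hB2
  have c1 : ∀ b, (B1 b).card * 2 ^ (4 * n) ≤ N := by
    intro b
    rcases (B1 b).eq_empty_or_nonempty with h | ⟨M0, h⟩
    · simp [h]
    obtain ⟨h1, h2, -⟩ := (mem_filter.1 h).2
    obtain ⟨i0, h3⟩ := Function.ne_iff.1 h1
    refine le_trans (Nat.mul_le_mul_left _ (Nat.pow_le_pow_right (by norm_num) ?_))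
      (count (B1 b) ({i0} ×ˢ (b.2.2 ×ˢ univ)) fun x hx y hy e q hq => ?_)
    · rw [card_product, card_product, card_singleton, card_univ]
      nlinarith
    · obtain ⟨i, v, a⟩ := q
      simp only [mem_product, mem_singleton, mem_univ, and_true] at hq
      obtain ⟨rfl, hv⟩ := hq
      have h4 := (mem_filter.1 hx).2.2.2 v hv a
      have h5 := (mem_filter.1 hy).2.2.2 v hv a
      rw [← add_sum_erase _ _ (mem_univ i)] at h4 h5
      rw [sum_congr rfl fun j hj => by
        rw [e (j, (v, a)) fun h6 => ne_of_mem_erase hj (mem_singleton.1 (mem_product.1 h6).1)]]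
        at h4
      exact mul_left_cancel₀ h3 (add_right_cancel (add_left_cancel (h4.trans h5.symm)))
  have c2 : ∀ w, (B2 w).card * 2 ^ n ≤ N := by
    intro w
    rcases (B2 w).eq_empty_or_nonempty with h | ⟨M0, h⟩
    · simp [h]
    obtain ⟨p0, h3⟩ := Function.ne_iff.1 (mem_filter.1 h).2.1
    refine le_trans (le_of_eq ?_) (count (B2 w) (univ ×ˢ {p0}) fun x hx y hy e q hq => ?_)
    · rw [card_product, card_singleton, card_univ, mul_one]
    · obtain ⟨i, p⟩ := q
      simp only [mem_product, mem_singleton, mem_univ, true_and] at hq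
      subst hq
      have h4 := (mem_filter.1 hx).2.2 i
      have h5 := (mem_filter.1 hy).2.2 i
      rw [← add_sum_erase _ _ (mem_univ p)] at h4 h5
      rw [sum_congr rfl fun j hj => by
        rw [e (i, j) fun h6 => ne_of_mem_erase hj (mem_singleton.1 (mem_product.1 h6).2)]]
        at h4
      exact mul_right_cancel₀ h3 (add_right_cancel (h4.trans h5.symm))
  have hN0 : 0 < N := Fintype.card_pos
  have d1 : 2 * (univ.biUnion B1).card ≤ N := by
    have h1 : (univ.biUnion B1).card * 2 ^ (4 * n) ≤ 2 * (2 ^ n * 2 ^ n) * N := by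
      refine (Nat.mul_le_mul_right _ card_biUnion_le).trans ?_
      rw [sum_mul]
      refine (sum_le_card_nsmul _ _ _ fun b _ => c1 b).trans (le_of_eq ?_)
      simp [hn]
    have h2 : 2 * (2 * (2 ^ n * 2 ^ n)) ≤ 2 ^ (4 * n) := by
      calc _ = 2 ^ (2 * n + 2) := by ring
        _ ≤ _ := Nat.pow_le_pow_right (by norm_num) (by omega)
    refine Nat.le_of_mul_le_mul_right (c := 2 ^ (4 * n)) ?_ (by positivity)
    nlinarith [Nat.mul_le_mul_right N h2]
  have d2 : 2 * (univ.biUnion B2).card < N := by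
    have h1 : (univ.biUnion B2).card * 2 ^ n ≤ ((n + 1) * 2 ^ Fintype.card A) ^ s * N := by
      refine (Nat.mul_le_mul_right _ card_biUnion_le).trans ?_
      rw [sum_mul]
      refine (sum_le_card_nsmul _ _ _ fun b _ => c2 b).trans (le_of_eq ?_)
      simp [hn]
    refine Nat.lt_of_mul_lt_mul_right (a := 2 ^ n) ?_
    nlinarith [Nat.mul_lt_mul_of_pos_right hs hN0]
  have h1 : (univ.biUnion B1 ∪ univ.biUnion B2).card < (univ : Finset (V × (V × A) → ZMod 2)).card := by
    have := card_union_le (univ.biUnion B1) (univ.biUnion B2)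
    rw [card_univ, ← hN]
    omega
  obtain ⟨M, -, hM⟩ := exists_mem_notMem_of_card_lt_card h1
  refine ⟨M, fun ε y T h2 h3 h4 => hM (mem_union_left _ (mem_biUnion.2 ⟨(ε, y, T), mem_univ _,
    mem_filter.2 ⟨mem_univ _, h2, h3, h4⟩⟩)), fun w h2 h3 => hM (mem_union_right _
      (mem_biUnion.2 ⟨w, mem_univ _, mem_filter.2 ⟨mem_univ _, h2, h3⟩⟩))⟩

end CodeX

theorem exists_code {V A : Type} [Fintype V] [Fintype A] (pat : V × A → ZMod 2)
    (hpat : ∀ v, ∃ a, pat (v, a) ≠ 0) (hA : 8 ≤ Fintype.card A) (hV : 1 ≤ Fintype.card V) {s : ℕ}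
    (hs : 2 * ((Fintype.card V + 1) * 2 ^ Fintype.card A) ^ s < 2 ^ Fintype.card V) :
    ∃ C : Submodule (ZMod 2) (V × A → ZMod 2), pat ∈ C ∧
      Nat.card C = 2 ^ (Fintype.card V + 1) ∧
      (∀ c ∈ C, ∀ T : Finset V, Fintype.card V ≤ 2 * T.card → (∀ v ∈ T, ∀ a, c (v, a) = 0) →
        c = 0) ∧
      ∀ T : Finset V, T.card ≤ s → ∀ f : V × A → ZMod 2, ∃ c ∈ C, ∀ v ∈ T, ∀ a,
        c (v, a) = f (v, a) := by
  classical
  obtain ⟨M, h1, h2⟩ := CodeX.exists_mat pat hA hV hs
  let φ : (ZMod 2 × (V → ZMod 2)) →ₗ[ZMod 2] (V × A → ZMod 2) :=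
    { toFun := fun b p => b.1 * pat p + ∑ i, b.2 i * M (i, p)
      map_add' := fun b b' => funext fun p => by
        simp only [Prod.fst_add, Prod.snd_add, Pi.add_apply, add_mul, Finset.sum_add_distrib]
        ring
      map_smul' := fun r b => funext fun p => by
        simp only [Prod.smul_fst, Prod.smul_snd, Pi.smul_apply, smul_eq_mul, RingHom.id_apply,
          mul_add, Finset.mul_sum, mul_assoc] }
  have hφ : ∀ b p, φ b p = b.1 * pat p + ∑ i, b.2 i * M (i, p) := fun _ _ => rfl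
  have key : ∀ b, ∀ T : Finset V, Fintype.card V ≤ 2 * T.card →
      (∀ v ∈ T, ∀ a, φ b (v, a) = 0) → b = 0 := by
    intro b T hT h
    have h3 : b.2 = 0 := by_contra fun h3 => h1 b.1 b.2 T h3 hT h
    obtain ⟨v, hv⟩ := Finset.card_pos.1 (show 0 < T.card by omega)
    obtain ⟨a, ha⟩ := hpat v
    have h4 := h v hv a
    rw [hφ, h3] at h4
    simp only [Pi.zero_apply, zero_mul, Finset.sum_const_zero, add_zero] at h4
    exact Prod.ext ((mul_eq_zero.1 h4).resolve_right ha) h3
  have hinj : Function.Injective φ := (injective_iff_map_eq_zero φ).2 fun b hb =>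
    key b Finset.univ (by rw [Finset.card_univ]; omega) fun v _ a => by rw [hb]; rfl
  refine ⟨LinearMap.range φ, ⟨(1, 0), funext fun p => by simp [hφ]⟩, ?_, ?_, fun T hT f => ?_⟩
  · rw [← Nat.card_congr (LinearEquiv.ofInjective φ hinj).toEquiv]
    simp [pow_succ, mul_comm]
  · rintro _ ⟨b, rfl⟩ T hT h
    rw [key b T hT h, map_zero]
  · let K : Submodule (ZMod 2) (V × A → ZMod 2) := Submodule.pi {p | p.1 ∈ T} fun _ => ⊥
    have hK : ∀ g, g ∈ K ↔ ∀ p : V × A, p.1 ∈ T → g p = 0 := fun g => Iff.rfl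
    have htop : LinearMap.range φ ⊔ K = ⊤ := by
      by_contra h3
      obtain ⟨l, hl, h4⟩ := Submodule.exists_le_ker_of_lt_top _ (lt_top_iff_ne_top.2 h3)
      have h5 : ∀ g, l g = ∑ p, g p * l (fun j => if p = j then 1 else 0) := fun g =>
        LinearMap.pi_apply_eq_sum_univ l g
      obtain ⟨w, hw⟩ := CodeX.dec_surj T hT (fun p => l fun j => if p = j then 1 else 0)
        fun p hp => h4 (Submodule.mem_sup_right ((hK _).2 fun q hq =>
          if_neg fun e : p = q => hp (e ▸ hq)))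
      refine h2 w (fun h6 => hl (LinearMap.ext fun g => ?_)) fun i => ?_
      · rw [h5]
        refine Finset.sum_eq_zero fun p _ => ?_
        have := congrFun (hw.symm.trans h6) p
        simp only [Pi.zero_apply] at this
        rw [this, mul_zero]
      · rw [hw]
        refine (h5 fun p => M (i, p)).symm.trans (h4 (Submodule.mem_sup_left
          ⟨(0, Pi.single i 1), funext fun p => ?_⟩))
        simp [hφ, Pi.single_apply]
    obtain ⟨c, hc, k, hk, e⟩ := Submodule.mem_sup.1 (htop ▸ Submodule.mem_top (x := f))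
    refine ⟨c, hc, fun v hv a => ?_⟩
    rw [← e, Pi.add_apply, (hK k).1 hk (v, a) hv, add_zero]

end Vale.Agent.P089
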