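import Vale.Agent.P089.Tr

/-! Countably many traces (job Count). -/

namespace Vale.Agent.P089

open Filter Topology TopologicalSpace

namespace CountX

lemma tr_pow {A : Type} [Ring A] {t : A → ℂ} (h1 : ∀ x y, t (x + y) = t x + t y)
    (h2 : ∀ x y, t (x * y) = t (y * x)) {e f : A} (he : e * e = e) (hf : f * f = f) (m : ℕ) :
    t ((e - f) ^ (2 * m + 1)) = t e - t f := by
  obtain ⟨d, hd⟩ : ∃ d, d = e - f := ⟨_, rfl⟩
  obtain ⟨s, hs⟩ : ∃ s, s = 1 - e - f := ⟨_, rfl⟩
  have a1 : d * d + s * s = 1 := by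
    rw [hd, hs]
    simp only [mul_sub, sub_mul, he, hf, mul_one, one_mul]
    abel
  have a2 : s * d = -(d * s) := by
    rw [hd, hs]
    simp only [mul_sub, sub_mul, he, hf, mul_one, one_mul]
    abel
  have a3 : ∀ m, s * d ^ (2 * m + 1) = -(d ^ (2 * m + 1) * s) := fun m => by
    induction m with
    | zero => simpa using a2
    | succ m ih =>
      rw [show 2 * (m + 1) + 1 = 2 * m + 1 + 1 + 1 by ring, pow_succ, pow_succ, ← mul_assoc,
        ← mul_assoc, ih]
      simp only [neg_mul, mul_assoc]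
      rw [← mul_assoc s, a2, neg_mul, mul_assoc, a2]
      simp
  have a0 : t 0 = 0 := by
    have := h1 0 0
    rw [add_zero] at this
    linear_combination -this
  have a4 : ∀ m, t (d ^ (2 * m + 1) * (s * s)) = 0 := fun m => by
    have b1 := h1 (d ^ (2 * m + 1) * s * s) (s * d ^ (2 * m + 1) * s)
    rw [← add_mul, a3, add_neg_cancel, zero_mul, a0, ← a3, mul_assoc s, h2 s] at b1
    rw [← mul_assoc]
    linear_combination -b1 / 2
  rw [← hd]
  induction m with
  | zero =>
    have := h1 d f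
    rw [hd, sub_add_cancel, ← hd] at this
    rw [mul_zero, zero_add, pow_one, this]
    ring
  | succ m ih =>
    rw [← ih, ← mul_one (d ^ (2 * m + 1)), ← a1, mul_add (d ^ _), h1, a4, add_zero, ← mul_assoc, ← pow_succ,
      ← pow_succ]
    rfl

lemma sep_Mor (G : Type) [Group G] [Countable G] (n : ℕ) :
    IsSeparable (Mor G (EE n) (EE n) : Set (L2 G (EE n) →L[ℂ] L2 G (EE n))) := by
  refine IsSeparable.closure (IsSeparable.span ?_)
  have : {y | ∃ (g : G) (x : EE n →L[ℂ] EE n), y = amp g x} =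
      ⋃ g : G, Set.range (amp g : (EE n →L[ℂ] EE n) → _) := by
    ext y
    simp [eq_comm]
  rw [this]
  refine IsSeparable.iUnion fun g => isSeparable_range ?_
  refine (LipschitzWith.of_dist_le_mul (K := 1) fun x y => ?_).continuous
  rw [dist_eq_norm, dist_eq_norm, ← amp_sub, NNReal.coe_one, one_mul]
  exact norm_amp_le _ _

end CountX

open CountX

theorem Tr_eq_of_near {G : Type} [Group G] {n : ℕ} {e f : L2 G (EE n) →L[ℂ] L2 G (EE n)}
    (he : e ∈ Mor G (EE n) (EE n)) (hf : f ∈ Mor G (EE n) (EE n)) (hee : e ∘L e = e)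
    (hff : f ∘L f = f) (h : ‖e - f‖ < 1) : Tr e = Tr f := by
  have h1 : ∀ m : ℕ, Tr ((e - f) ^ (2 * m + 1)) = Tr e - Tr f :=
    tr_pow (A := MorA G (EE n)) (t := fun x => Tr x.1)
      (fun x y => Tr_add (Mor_le_Fin0_left x.2) (Mor_le_Fin0_left y.2))
      (fun x y => Tr_comm (Mor_le_Fin0_left y.2) x.2) (e := ⟨e, he⟩) (f := ⟨f, hf⟩)
      (Subtype.ext hee) (Subtype.ext hff)
  have h2 : Tendsto (fun m : ℕ => Tr ((e - f) ^ (2 * m + 1))) atTop (𝓝 (Tr 0)) :=
    (continuous_Tr.tendsto _).comp ((tendsto_pow_atTop_nhds_zero_of_norm_lt_one h).comp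
      (tendsto_atTop_mono (fun m => by simp only [id]; omega) tendsto_id))
  have h3 : Tr (0 : L2 G (EE n) →L[ℂ] L2 G (EE n)) = 0 := by
    simpa using Tr_smul 0 (0 : L2 G (EE n) →L[ℂ] L2 G (EE n))
  simp only [h1, h3, tendsto_const_nhds_iff] at h2
  exact sub_eq_zero.1 h2

theorem countable_traces (G : Type) [Group G] [Countable G] :
    {r : ℂ | ∃ a : Idem G, r = Tr a.e}.Countable := by
  choose c hc hc' using sep_Mor G
  refine (Set.countable_iUnion fun n => (hc n).biUnion fun d _ => Set.Subsingleton.countable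
    (s := {r | ∃ e ∈ Mor G (EE n) (EE n), e ∘L e = e ∧ ‖e - d‖ < 1 / 2 ∧ r = Tr e}) ?_).mono ?_
  · rintro _ ⟨e, he, a1, a2, rfl⟩ _ ⟨f, hf, b1, b2, rfl⟩
    refine Tr_eq_of_near he hf a1 b1 ?_
    rw [norm_sub_rev] at b2
    linarith [norm_sub_le_norm_sub_add_norm_sub e d f]
  · rintro _ ⟨a, rfl⟩
    obtain ⟨d, hd, h⟩ := Metric.mem_closure_iff.1 (hc' a.n a.mem) (1 / 2) (by norm_num)
    simp only [Set.mem_iUnion]
    exact ⟨a.n, d, hd, a.e, a.mem, a.idem, by rwa [dist_eq_norm] at h, rfl⟩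

/-- differences of traces of idempotents over finitely presented groups -/
def TS : Set ℂ := {r | ∃ (k : ℕ) (rel : Finset (FreeGroup (Fin k)))
  (a b : Idem (PresentedGroup (rel : Set (FreeGroup (Fin k))))), r = Tr a.e - Tr b.e}

theorem TS_countable : TS.Countable := by
  have h : ∀ (k : ℕ) (rel : Finset (FreeGroup (Fin k))),
      Countable (PresentedGroup (rel : Set (FreeGroup (Fin k)))) := fun k rel =>
    (PresentedGroup.mk_surjective _).countable
  refine (Set.countable_iUnion fun k : ℕ => Set.countable_iUnion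
    fun rel : Finset (FreeGroup (Fin k)) =>
      (countable_traces (PresentedGroup (rel : Set (FreeGroup (Fin k))))).image2
        (countable_traces (PresentedGroup (rel : Set (FreeGroup (Fin k))))) (· - ·)).mono ?_
  rintro _ ⟨k, rel, a, b, rfl⟩
  simp only [Set.mem_iUnion]
  exact ⟨k, rel, _, ⟨a, rfl⟩, _, ⟨b, rfl⟩, rfl⟩

end Vale.Agent.P089
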