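import Vale.Agent.P089.Defs

/-! An equivariant coloured partition of unity (job Gap). -/

namespace Vale.Agent.P089

open scoped ZeroAtInfty Pointwise

variable {G : Type} [Group G] {Z : Type} [TopologicalSpace Z] [MulAction G Z]
  [ContinuousConstSMul G Z]

lemma trl_apply (g : G) (f : C₀(Z, ℂ)) (z : Z) : trl g f z = f (g⁻¹ • z) := rfl

theorem finite_supp [ProperlyDiscontinuousSMul G Z] (c : Cutoff G Z) :
    {g : G | c.c * trl g c.c ≠ 0}.Finite := by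
  refine (finite_disjoint_inter_image (Γ := G) c.cpt c.cpt).subset fun g hg => ?_
  obtain ⟨z, hz⟩ := DFunLike.ne_iff.1 hg
  have hz' : c.c z * c.c (g⁻¹ • z) ≠ 0 := hz
  exact ⟨z, ⟨g⁻¹ • z, subset_tsupport _ (right_ne_zero_of_mul hz'), smul_inv_smul g z⟩,
    subset_tsupport _ (left_ne_zero_of_mul hz')⟩

/-- the group elements that move the support of the cutoff function to meet itself -/
noncomputable def SS [ProperlyDiscontinuousSMul G Z] (c : Cutoff G Z) : Finset G :=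
  (finite_supp c).toFinset

lemma mem_SS [ProperlyDiscontinuousSMul G Z] {c : Cutoff G Z} {g : G} :
    g ∈ SS c ↔ ∃ z, c.c z ≠ 0 ∧ c.c (g⁻¹ • z) ≠ 0 := by
  rw [SS, Set.Finite.mem_toFinset, Set.mem_ofPred_eq, DFunLike.ne_iff]
  exact exists_congr fun z => mul_ne_zero_iff

lemma sum_SS [ProperlyDiscontinuousSMul G Z] (c : Cutoff G Z) {z : Z} (hz : c.c z ≠ 0) :
    ∑ g ∈ SS c, c.c (g⁻¹ • z) ^ 2 = 1 := by
  rw [← c.sum z, finsum_eq_sum_of_support_subset]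
  exact fun g hg => Finset.mem_coe.2 (mem_SS.2 ⟨z, hz, fun h => hg (by simp [h])⟩)

/-- a partition of unity indexed by finite subsets, coloured by the cardinality -/
structure Gap [DecidableEq G] (c : Cutoff G Z) (S : Finset G) (ρ : Finset G → C₀(Z, ℂ)) :
    Prop where
  orth : ∀ σ σ' : Finset G, σ.card = σ'.card → σ ≠ σ' → ρ σ * ρ σ' = 0
  sum : ∀ z, c.c z ≠ 0 → ∑ σ ∈ S.powerset, ρ σ z ^ 2 = 1
  eqv : ∀ (g : G) (σ : Finset G) (z : Z), c.c z ≠ 0 → c.c (g⁻¹ • z) ≠ 0 →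
    ρ (g⁻¹ • σ) (g⁻¹ • z) = ρ σ z
  zero : ∀ σ : Finset G, ¬(σ.Nonempty ∧ σ ⊆ S) → ρ σ = 0

namespace GapX

open scoped NNReal

variable [DecidableEq G] [ProperlyDiscontinuousSMul G Z] (c : Cutoff G Z)

noncomputable def gap (σ : Finset G) (z : Z) : ℝ≥0 :=
  if h : σ.Nonempty ∧ σ ⊆ SS c then
    σ.inf' h.1 (fun k => ‖c.c (k⁻¹ • z)‖₊) - (SS c \ σ).sup fun k => ‖c.c (k⁻¹ • z)‖₊
  else 0

noncomputable def NN (z : Z) : ℝ := ∑ σ ∈ (SS c).powerset, (gap c σ z : ℝ) ^ 2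

variable {c}

lemma gap_cont (σ : Finset G) : Continuous (gap c σ) := by
  have : ∀ k : G, Continuous fun z : Z => ‖c.c (k⁻¹ • z)‖₊ := fun k =>
    (map_continuous (trl k c.c)).nnnorm
  unfold gap
  split_ifs with h
  · exact (Continuous.finset_inf'_apply h.1 fun k _ => this k).sub
      (Continuous.finset_sup_apply fun k _ => this k)
  · exact continuous_const

lemma gap_ne {σ : Finset G} {z : Z} (h : gap c σ z ≠ 0) : (σ.Nonempty ∧ σ ⊆ SS c) ∧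
    (∀ k ∈ σ, c.c (k⁻¹ • z) ≠ 0) ∧
      ∀ k ∈ σ, ∀ k' ∈ SS c \ σ, ‖c.c (k'⁻¹ • z)‖₊ < ‖c.c (k⁻¹ • z)‖₊ := by
  unfold gap at h
  split_ifs at h with h0
  · have h1 := tsub_pos_iff_lt.1 (pos_iff_ne_zero.2 h)
    refine ⟨h0, fun k hk => nnnorm_pos.1 ?_, fun k hk k' hk' => ?_⟩
    · exact (zero_le.trans_lt h1).trans_le (Finset.inf'_le _ hk)
    · exact ((Finset.le_sup (f := fun k => ‖c.c (k⁻¹ • z)‖₊) hk').trans_lt h1).trans_le
        (Finset.inf'_le _ hk)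
  · exact absurd rfl h

lemma gap_le (g : G) (σ : Finset G) {z : Z} (h1 : c.c z ≠ 0) (h2 : c.c (g⁻¹ • z) ≠ 0) :
    gap c σ z ≤ gap c (g⁻¹ • σ) (g⁻¹ • z) := by
  by_cases h : gap c σ z = 0
  · rw [h]; exact zero_le
  obtain ⟨h0, h3, -⟩ := gap_ne h
  have e : ∀ k : G, (g⁻¹ • k)⁻¹ • g⁻¹ • z = k⁻¹ • z := fun k => by simp [smul_smul]
  have h0' : (g⁻¹ • σ).Nonempty ∧ g⁻¹ • σ ⊆ SS c := ⟨h0.1.smul_finset, fun k hk => by
    obtain ⟨k, hk', rfl⟩ := Finset.mem_smul_finset.1 hk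
    exact mem_SS.2 ⟨_, h2, by rw [e]; exact h3 k hk'⟩⟩
  unfold gap
  rw [dif_pos h0, dif_pos h0']
  refine tsub_le_tsub (Finset.le_inf' _ _ fun k hk => ?_) (Finset.sup_le fun k hk => ?_)
  · obtain ⟨k, hk', rfl⟩ := Finset.mem_smul_finset.1 hk
    rw [e]
    exact Finset.inf'_le _ hk'
  · obtain ⟨k, rfl⟩ : ∃ k', k = g⁻¹ • k' := ⟨g • k, (inv_smul_smul g k).symm⟩
    rw [e]
    by_cases hz : c.c (k⁻¹ • z) = 0
    · simp [hz]
    · exact Finset.le_sup (f := fun k => ‖c.c (k⁻¹ • z)‖₊) (Finset.mem_sdiff.2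
        ⟨mem_SS.2 ⟨z, h1, hz⟩, fun hh => (Finset.mem_sdiff.1 hk).2 (Finset.smul_mem_smul_finset hh)⟩)

lemma gap_eq (g : G) (σ : Finset G) {z : Z} (h1 : c.c z ≠ 0) (h2 : c.c (g⁻¹ • z) ≠ 0) :
    gap c (g⁻¹ • σ) (g⁻¹ • z) = gap c σ z := by
  refine le_antisymm ?_ (gap_le g σ h1 h2)
  have := gap_le g⁻¹ (g⁻¹ • σ) h2 (by simpa using h1)
  simpa using this

lemma NN_eq (g : G) {z : Z} (h1 : c.c z ≠ 0) (h2 : c.c (g⁻¹ • z) ≠ 0) :
    NN c (g⁻¹ • z) = NN c z := by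
  have e : ∀ z, NN c z = ∑ᶠ σ, (gap c σ z : ℝ) ^ 2 := fun z =>
    (finsum_eq_sum_of_support_subset _ fun σ hσ => Finset.mem_coe.2 (Finset.mem_powerset.2
      (gap_ne (z := z) fun h => hσ (by simp [h])).1.2)).symm
  rw [e, e, ← finsum_comp_equiv (MulAction.toPerm g⁻¹)]
  exact finsum_congr fun σ => by rw [MulAction.toPerm_apply, gap_eq g σ h1 h2]

lemma NN_cont : Continuous (NN c) :=
  continuous_finsetSum _ fun σ _ => (NNReal.continuous_coe.comp (gap_cont σ)).pow 2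

lemma NN_pos {z : Z} (hz : z ∈ tsupport c.c) : 0 < NN c z := by
  have h1 : ∑ g ∈ SS c, c.c (g⁻¹ • z) ^ 2 = 1 :=
    closure_minimal (t := {z | ∑ g ∈ SS c, c.c (g⁻¹ • z) ^ 2 = 1}) (fun _ h => sum_SS c h)
      (isClosed_eq (continuous_finsetSum _ fun g _ => (map_continuous (trl g c.c)).pow 2)
        continuous_const) hz
  obtain ⟨k, hk, hk'⟩ := Finset.exists_ne_zero_of_sum_ne_zero (h1 ▸ one_ne_zero)
  classical
  have h0 : ((SS c).filter fun k => c.c (k⁻¹ • z) ≠ 0).Nonempty ∧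
      ((SS c).filter fun k => c.c (k⁻¹ • z) ≠ 0) ⊆ SS c :=
    ⟨⟨k, Finset.mem_filter.2 ⟨hk, fun h => hk' (by simp [h])⟩⟩, Finset.filter_subset _ _⟩
  refine Finset.sum_pos' (fun _ _ => sq_nonneg _) ⟨_, Finset.mem_powerset.2 h0.2, pow_pos ?_ 2⟩
  rw [NNReal.coe_pos, gap, dif_pos h0, tsub_pos_iff_lt, Finset.lt_inf'_iff]
  intro l hl
  refine lt_of_le_of_lt (Finset.sup_le fun j hj => ?_) (nnnorm_pos.2 (Finset.mem_filter.1 hl).2)
  obtain ⟨j1, j2⟩ := Finset.mem_sdiff.1 hj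
  simpa [j1] using j2

lemma gap_cpt (σ : Finset G) : HasCompactSupport (gap c σ) := by
  by_cases h : σ.Nonempty
  · obtain ⟨k, hk⟩ := h
    exact (c.cpt.comp_homeomorph (Homeomorph.smul k⁻¹)).mono fun z hz => (gap_ne hz).2.1 k hk
  · have : gap c σ = 0 := funext fun z => dif_neg fun h' => h h'.1
    rw [this]
    exact HasCompactSupport.zero

end GapX

open GapX in
theorem exists_gap [DecidableEq G] [T2Space Z] [ProperlyDiscontinuousSMul G Z] (c : Cutoff G Z) :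
    ∃ ρ, Gap c (SS c) ρ := by
  obtain ⟨ε, h0, hε⟩ := IsCompact.exists_forall_le' c.cpt (NN_cont (c := c)).continuousOn
    fun z hz => NN_pos hz
  have hp : ∀ z, 0 < max (NN c z) ε := fun z => h0.trans_le (le_max_right _ _)
  refine ⟨fun σ => ⟨⟨fun z => ((gap c σ z / √(max (NN c z) ε) : ℝ) : ℂ),
    Complex.continuous_ofReal.comp ((NNReal.continuous_coe.comp (gap_cont σ)).div
      (NN_cont.max continuous_const).sqrt fun z => (Real.sqrt_pos.2 (hp z)).ne')⟩,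
    HasCompactSupport.is_zero_at_infty ((gap_cpt (c := c) σ).mono fun z hz h => hz (by simp [h]))⟩,
    fun σ σ' h1 h2 => ?_, fun z hz => ?_, fun g σ z h1 h2 => ?_, fun σ h => ?_⟩
  · ext z
    change ((gap c σ z / _ : ℝ) : ℂ) * ((gap c σ' z / _ : ℝ) : ℂ) = 0
    by_cases a1 : gap c σ z = 0
    · simp [a1]
    by_cases a2 : gap c σ' z = 0
    · simp [a2]
    obtain ⟨b1, -, b2⟩ := gap_ne a1
    obtain ⟨b3, -, b4⟩ := gap_ne a2
    obtain ⟨k, k1, k2⟩ := Finset.not_subset.1 fun h => h2 (Finset.eq_of_subset_of_card_le h h1.ge)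
    obtain ⟨l, l1, l2⟩ :=
      Finset.not_subset.1 fun h => h2 (Finset.eq_of_subset_of_card_le h h1.le).symm
    exact absurd (b2 k k1 l (Finset.mem_sdiff.2 ⟨b3.2 l1, l2⟩))
      (b4 l l1 k (Finset.mem_sdiff.2 ⟨b1.2 k1, k2⟩)).not_gt
  · change ∑ σ ∈ (SS c).powerset, ((gap c σ z / √(max (NN c z) ε) : ℝ) : ℂ) ^ 2 = 1
    have h1 := hε z (subset_tsupport _ hz)
    norm_cast
    simp only [div_pow, Real.sq_sqrt (hp z).le]
    rw [← Finset.sum_div, max_eq_left h1]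
    exact div_self (h0.trans_le h1).ne'
  · change ((gap c _ _ / √(max (NN c _) ε) : ℝ) : ℂ) = ((gap c σ z / √(max (NN c z) ε) : ℝ) : ℂ)
    rw [gap_eq g σ h1 h2, NN_eq g h1 h2]
  · ext z
    change ((gap c σ z / _ : ℝ) : ℂ) = 0
    simp [gap, h]

end Vale.Agent.P089
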