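import Mathlib

/-! A finitely presented model and local conjugators (job Tw). -/

namespace Vale.Agent.P089

open scoped Pointwise

/-- multiplicative on a finite set -/
def MulOn {G Λ : Type} [Group G] [Group Λ] (S : Finset G) (φ : G → Λ) : Prop :=
  ∀ g ∈ S, ∀ h ∈ S, g * h ∈ S → φ g * φ h = φ (g * h)

theorem exists_model {G : Type} [Group G] (T : Finset G) :
    ∃ (k : ℕ) (rel : Finset (FreeGroup (Fin k)))
      (s : G → PresentedGroup (rel : Set (FreeGroup (Fin k))))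
      (q : PresentedGroup (rel : Set (FreeGroup (Fin k))) →* G),
      MulOn T s ∧ ∀ g ∈ T, q (s g) = g := by
  classical
  let e := T.equivFin
  let rel : Finset (FreeGroup (Fin T.card)) :=
    (Finset.univ.filter fun p : Fin T.card × Fin T.card × Fin T.card =>
      (e.symm p.1 : G) * e.symm p.2.1 = e.symm p.2.2).image
      fun p => FreeGroup.of p.1 * FreeGroup.of p.2.1 * (FreeGroup.of p.2.2)⁻¹
  have hq : ∀ r ∈ (rel : Set (FreeGroup (Fin T.card))),
      FreeGroup.lift (fun i => (e.symm i : G)) r = 1 := by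
    intro r hr
    obtain ⟨p, hp, rfl⟩ := Finset.mem_image.1 hr
    simp only [map_mul, map_inv, FreeGroup.lift_apply_of]
    rw [(Finset.mem_filter.1 hp).2, mul_inv_cancel]
  refine ⟨T.card, rel, fun g => if h : g ∈ T then PresentedGroup.of (e ⟨g, h⟩) else 1,
    PresentedGroup.toGroup hq, fun g hg h hh hgh => ?_, fun g hg => ?_⟩
  · simp only [dif_pos hg, dif_pos hh, dif_pos hgh]
    have := PresentedGroup.one_of_mem (rels := (rel : Set (FreeGroup (Fin T.card))))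
      (x := FreeGroup.of (e ⟨g, hg⟩) * FreeGroup.of (e ⟨h, hh⟩) * (FreeGroup.of (e ⟨_, hgh⟩))⁻¹)
      (Finset.mem_image.2 ⟨(e ⟨g, hg⟩, e ⟨h, hh⟩, e ⟨_, hgh⟩), by simp, rfl⟩)
    rw [map_mul, map_mul, map_inv, mul_inv_eq_one] at this
    exact this
  · simp [dif_pos hg]

namespace TwX

variable {G : Type} [Group G] [DecidableEq G] (S : Finset G)

lemma exists_r : ∃ (b : Finset G → Finset G) (r : Finset G → G → G),
    (∀ (g : G) σ, b (g • σ) = b σ) ∧ (∀ (g : G) σ v, r (g • σ) (g * v) = g * r σ v) ∧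
    ∀ σ ⊆ S, b σ ⊆ S ∧ ∀ v, r σ v • b σ = σ := by
  let b : Finset G → Finset G := fun σ =>
    Classical.epsilon fun τ => τ ⊆ S ∧ ∃ h : G, h • τ = σ
  have hb : ∀ (g : G) σ, b (g • σ) = b σ := fun g σ => by
    have : (fun τ : Finset G => τ ⊆ S ∧ ∃ h : G, h • τ = g • σ) =
        fun τ => τ ⊆ S ∧ ∃ h : G, h • τ = σ := by
      funext τ
      refine propext (and_congr_right fun _ => ⟨fun ⟨h, e⟩ => ⟨g⁻¹ * h, ?_⟩,
        fun ⟨h, e⟩ => ⟨g * h, ?_⟩⟩)
      · rw [mul_smul, e, inv_smul_smul]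
      · rw [mul_smul, e]
    simp only [b, this]
  refine ⟨b, fun σ v => v * Classical.epsilon fun h : G => h • b (v⁻¹ • σ) = v⁻¹ • σ, hb,
    fun g σ v => ?_, fun σ hσ => ?_⟩
  · simp only [mul_inv_rev, mul_smul, inv_smul_smul, mul_assoc]
  · obtain ⟨h1, h, h2⟩ : b σ ⊆ S ∧ ∃ h : G, h • b σ = σ :=
      Classical.epsilon_spec (p := fun τ => τ ⊆ S ∧ ∃ h : G, h • τ = σ) ⟨σ, hσ, 1, one_smul _ _⟩
    refine ⟨h1, fun v => ?_⟩
    have := Classical.epsilon_spec (p := fun h : G => h • b σ = v⁻¹ • σ)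
      ⟨v⁻¹ * h, by rw [mul_smul, h2]⟩
    simp only [hb]
    rw [mul_smul, this, smul_inv_smul]

lemma exists_Y : ∃ Y : Finset G → G → G → G,
    (∀ (g : G) σ a c, Y (g • σ) (g * a) c = g * Y σ a c) ∧ ∀ σ : Finset G, σ.Nonempty → σ ⊆ S →
      ∀ a c, Y σ a c ∈ S * S⁻¹ ∧ Y σ (Y σ a c * c) ((Y σ a c)⁻¹ * a) = Y σ a c := by
  obtain ⟨b, r, h1, h2, h3⟩ := exists_r S
  refine ⟨fun σ a c => r σ a * (r (b σ) c)⁻¹, fun g σ a c => by simp only [h1, h2, mul_assoc],
    fun σ hn hσ a c => ?_⟩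
  obtain ⟨b1, b2⟩ := h3 σ hσ
  have bb : b (b σ) = b σ := by
    nth_rewrite 2 [← b2 1]
    rw [h1]
  have b3 := (h3 _ b1).2 c
  rw [bb] at b3
  obtain ⟨y, hy⟩ : ∃ y, y = r σ a * (r (b σ) c)⁻¹ := ⟨_, rfl⟩
  have y1 : y • b σ = σ := by rw [hy, mul_smul, inv_smul_eq_iff.2 b3.symm, b2]
  simp only [← hy]
  refine ⟨?_, ?_⟩
  · obtain ⟨x, hx⟩ := hn
    rw [← y1] at hx
    obtain ⟨z, hz, rfl⟩ := Finset.mem_smul_finset.1 hx
    rw [y1] at hx
    exact Finset.mem_mul.2 ⟨_, hσ hx, z⁻¹, Finset.inv_mem_inv (b1 hz), by simp⟩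
  · have e1 := h2 y (b σ) c
    have e2 := h2 y⁻¹ σ a
    rw [y1] at e1
    rw [inv_smul_eq_iff.2 y1.symm] at e2
    rw [e1, e2, hy]
    group

end TwX

theorem exists_tw {G : Type} [Group G] [DecidableEq G] (S : Finset G) :
    ∃ (k : ℕ) (rel : Finset (FreeGroup (Fin k)))
      (s : G → PresentedGroup (rel : Set (FreeGroup (Fin k))))
      (q : PresentedGroup (rel : Set (FreeGroup (Fin k))) →* G) (Λ : Type) (_ : Group Λ)
      (α : PresentedGroup (rel : Set (FreeGroup (Fin k))) →* Λ) (β : G →* Λ) (t : Finset G → Λ),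
      Function.Injective α ∧ Function.Injective β ∧ MulOn S s ∧ (∀ g ∈ S, q (s g) = g) ∧
      ∀ g ∈ S, ∀ σ : Finset G, σ.Nonempty → σ ⊆ S → g⁻¹ • σ ⊆ S →
        t σ * β g = α (s g) * t (g⁻¹ • σ) := by
  classical
  obtain ⟨k, rel, s, q, h1, h2⟩ := exists_model (S ∪ S * S⁻¹)
  obtain ⟨Y, y1, y2⟩ := TwX.exists_Y S
  have hq : ∀ σ : Finset G, σ.Nonempty → σ ⊆ S → ∀ a c, q (s (Y σ a c)) = Y σ a c :=
    fun σ hn hσ a c => h2 _ (Finset.mem_union_right _ (y2 σ hn hσ a c).1)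
  let t : ∀ σ : Finset G, σ.Nonempty ∧ σ ⊆ S →
      Equiv.Perm (PresentedGroup (rel : Set (FreeGroup (Fin k))) × G) := fun σ h =>
    { toFun := fun p => (s (Y σ p.2 (q p.1)) * p.1, (Y σ p.2 (q p.1))⁻¹ * p.2)
      invFun := fun p => ((s (Y σ (q p.1) p.2))⁻¹ * p.1, Y σ (q p.1) p.2 * p.2)
      left_inv := fun p => by
        simp only [map_mul, hq σ h.1 h.2, (y2 σ h.1 h.2 _ _).2, inv_mul_cancel_left,
          mul_inv_cancel_left]
      right_inv := fun p => by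
        simp only [map_mul, map_inv, hq σ h.1 h.2, (y2 σ h.1 h.2 _ _).2, inv_mul_cancel_left,
          mul_inv_cancel_left] }
  refine ⟨k, rel, s, q, Equiv.Perm (PresentedGroup (rel : Set (FreeGroup (Fin k))) × G),
    inferInstance,
    (MulAction.toPermHom (PresentedGroup (rel : Set (FreeGroup (Fin k))) × G) _).comp
      (MonoidHom.inl _ G),
    (MulAction.toPermHom (PresentedGroup (rel : Set (FreeGroup (Fin k))) × G) _).comp
      (MonoidHom.inr _ G),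
    fun σ => if h : σ.Nonempty ∧ σ ⊆ S then t σ h else 1, ?_, ?_, ?_, ?_, ?_⟩
  · exact MulAction.toPerm_injective.comp fun _ _ h => congrArg Prod.fst h
  · exact MulAction.toPerm_injective.comp fun _ _ h => congrArg Prod.snd h
  · exact fun g hg h hh hgh => h1 g (Finset.mem_union_left _ hg) h (Finset.mem_union_left _ hh)
      (Finset.mem_union_left _ hgh)
  · exact fun g hg => h2 g (Finset.mem_union_left _ hg)
  · intro g hg σ hn hσ hσ'
    have hn' : (g⁻¹ • σ).Nonempty := hn.smul_finset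
    simp only [dif_pos (And.intro hn hσ), dif_pos (And.intro hn' hσ')]
    refine Equiv.ext fun p => ?_
    have e := y1 g (g⁻¹ • σ) p.2 (q p.1)
    rw [smul_inv_smul] at e
    have e2 := h1 g (Finset.mem_union_left _ hg) _
      (Finset.mem_union_right _ (y2 _ hn' hσ' p.2 (q p.1)).1)
      (e ▸ Finset.mem_union_right _ (y2 _ hn hσ _ _).1)
    change (s (Y σ (g * p.2) (q (1 * p.1))) * (1 * p.1), (Y σ (g * p.2) (q (1 * p.1)))⁻¹ * (g * p.2))
      = (s g * (s (Y (g⁻¹ • σ) p.2 (q p.1)) * p.1), 1 * ((Y (g⁻¹ • σ) p.2 (q p.1))⁻¹ * p.2))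
    rw [one_mul, one_mul, e, ← e2, mul_assoc, mul_inv_rev, mul_assoc, inv_mul_cancel_left]

end Vale.Agent.P089
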