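import Vale.Agent.P089.Tr
import Vale.Agent.P089.Gap
import Vale.Agent.P089.Tw

/-! The twisted cutoff projections of a cycle (job Cyc). -/

namespace Vale.Agent.P089

open scoped ZeroAtInfty Pointwise

variable {G : Type} [Group G] {Z : Type} [TopologicalSpace Z] [MulAction G Z]
  [ContinuousConstSMul G Z] [ProperlyDiscontinuousSMul G Z] {H : Type}
  [NormedAddCommGroup H] [InnerProductSpace ℂ H] [CompleteSpace H] {Λ : Type} [Group Λ]
  (x : Cycle G H Z) (c : Cutoff G Z)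

variable (Λ) in
/-- grading and operator of a cycle -/
noncomputable def gr : Grd (MorA Λ H) := grd Λ x.F x.γ x.γ_sq x.γ_F

/-- the cutoff projection twisted by `φ` -/
noncomputable def PP (φ : G → Λ) : MorA Λ H :=
  ∑ g ∈ SS c, ampA (φ g) (x.π (c.c * trl g c.c) * (x.U g : H →L[ℂ] H))

theorem PP_congr {φ φ' : G → Λ} (h : ∀ g ∈ SS c, φ g = φ' g) : PP x c φ = PP x c φ' :=
  Finset.sum_congr rfl fun g hg => by rw [h g hg]

namespace CycX

lemma reidx {α M : Type} [AddCommMonoid M] (e : α ≃ α) (s t : Finset α) (f : α → M)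
    (h1 : ∀ a ∈ s, f (e a) ≠ 0 → e a ∈ t) (h2 : ∀ a, e a ∈ t → f (e a) ≠ 0 → a ∈ s) :
    ∑ a ∈ s, f (e a) = ∑ b ∈ t, f b := by
  refine Finset.sum_bij_ne_zero (fun a _ _ => e a) h1 (fun a _ _ b _ _ h => e.injective h)
    (fun b hb h => ?_) fun _ _ _ => rfl
  obtain ⟨a, rfl⟩ := e.surjective b
  exact ⟨a, h2 a hb h, h, rfl⟩

omit [MulAction G Z] [ContinuousConstSMul G Z] [ProperlyDiscontinuousSMul G Z] in
lemma sum_app {ι : Type} (s : Finset ι) (f : ι → C₀(Z, ℂ)) (z : Z) :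
    (∑ i ∈ s, f i) z = ∑ i ∈ s, f i z := by
  classical
  induction s using Finset.induction_on with
  | empty => simp
  | insert a s ha ih =>
    rw [Finset.sum_insert ha, Finset.sum_insert ha, ZeroAtInftyContinuousMap.add_apply, ih]

omit [MulAction G Z] [ContinuousConstSMul G Z] [ProperlyDiscontinuousSMul G Z] in
lemma ex_ne {f : C₀(Z, ℂ)} (h : f ≠ 0) : ∃ z, f z ≠ 0 := by
  by_contra h'
  exact h (ZeroAtInftyContinuousMap.ext fun z => not_not.1 fun hz => h' ⟨z, hz⟩)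

/-- the basic terms -/
noncomputable def tm (t : Λ) (g : G) : C₀(Z, ℂ) →+ MorA Λ H where
  toFun f := ampA t (x.π f * (x.U g : H →L[ℂ] H))
  map_zero' := by rw [map_zero, zero_mul, map_zero]
  map_add' f f' := by rw [map_add, add_mul, map_add]

omit [ProperlyDiscontinuousSMul G Z] in
lemma tm_apply (t : Λ) (g : G) (f : C₀(Z, ℂ)) :
    ampA t (x.π f * (x.U g : H →L[ℂ] H)) = tm x t g f := rfl

omit [ProperlyDiscontinuousSMul G Z] in
lemma tm_mul (t t' : Λ) (g g' : G) (f f' : C₀(Z, ℂ)) :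
    tm x t g f * tm x t' g' f' = tm x (t * t') (g * g') (f * trl g f') := by
  refine (ampA_mul _ _ _ _).trans (congrArg (ampA (t * t')) ?_)
  rw [mul_assoc, ← mul_assoc (x.U g : H →L[ℂ] H), x.cov, map_mul, map_mul, Submonoid.coe_mul]
  simp only [mul_assoc]

omit [ProperlyDiscontinuousSMul G Z] in
lemma pi_tm (t t' : Λ) (g : G) (f f' : C₀(Z, ℂ)) :
    ampA t (x.π f) * tm x t' g f' = tm x (t * t') g (f * f') := by
  refine (ampA_mul _ _ _ _).trans (congrArg (ampA (t * t')) ?_)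
  rw [map_mul, mul_assoc]

omit [ProperlyDiscontinuousSMul G Z] in
lemma tm_pi (t t' : Λ) (g : G) (f f' : C₀(Z, ℂ)) :
    tm x t g f * ampA t' (x.π f') = tm x (t * t') g (f * trl g f') := by
  refine (ampA_mul _ _ _ _).trans (congrArg (ampA (t * t')) ?_)
  rw [mul_assoc, x.cov, map_mul, mul_assoc]

omit [ProperlyDiscontinuousSMul G Z] in
lemma pi_pi (t t' : Λ) (f f' : C₀(Z, ℂ)) :
    ampA t (x.π f) * ampA t' (x.π f') = ampA (t * t') (x.π (f * f')) := by
  rw [ampA_mul, map_mul x.π]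

omit [ProperlyDiscontinuousSMul G Z] in
lemma ne_of_tm {t : Λ} {g : G} {f : C₀(Z, ℂ)} (h : tm x t g f ≠ 0) : ∃ z, f z ≠ 0 :=
  ex_ne fun h' => h (by rw [h', map_zero])

lemma PP_eq (φ : G → Λ) : PP x c φ = ∑ g ∈ SS c, tm x (φ g) g (c.c * trl g c.c) := rfl

omit [CompleteSpace H] in
lemma cm_left {a : H →L[ℂ] H} (ha : IsCompactOperator a) (b : H →L[ℂ] H) :
    IsCompactOperator (b * a : H →L[ℂ] H) := ha.clm_comp b

omit [CompleteSpace H] in
lemma cm_right {a : H →L[ℂ] H} (ha : IsCompactOperator a) (b : H →L[ℂ] H) :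
    IsCompactOperator (a * b : H →L[ℂ] H) := ha.comp_clm b

omit [CompleteSpace H] in
lemma cm_neg {a : H →L[ℂ] H} (ha : IsCompactOperator a) :
    IsCompactOperator (-a : H →L[ℂ] H) := ha.neg

omit [CompleteSpace H] in
lemma cm_sub {a b : H →L[ℂ] H} (ha : IsCompactOperator a) (hb : IsCompactOperator b) :
    IsCompactOperator (a - b : H →L[ℂ] H) := ha.sub hb

end CycX

theorem proj_eq : proj x c = (PP x c id).1 := by
  have h : proj x c = ∑ g ∈ SS c, amp g (x.π (c.c * trl g c.c) * (x.U g : H →L[ℂ] H)) := by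
    refine finsum_eq_sum_of_support_subset _ fun g hg => ?_
    by_contra h
    have h0 : c.c * trl g c.c = 0 := by
      simpa [SS] using h
    apply hg
    simp only [h0, map_zero, zero_mul]
    exact amp_zero g
  rw [h]
  exact (map_sum (MorA G H).val
    (fun g => ampA g (x.π (c.c * trl g c.c) * (x.U g : H →L[ℂ] H))) (SS c)).symm

theorem projP_eq : projP x c = (PP x c id * (gr G x).pp).1 := by
  rw [projP, proj_eq, amp_smul, amp_add]
  exact congrArg (fun y => (PP x c id).1 * ((1 / 2 : ℂ) • (y + amp 1 x.γ))) amp_id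

theorem projM_eq : projM x c = (PP x c id * (gr G x).pm).1 := by
  rw [projM, proj_eq, amp_smul, amp_sub]
  exact congrArg (fun y => (PP x c id).1 * ((1 / 2 : ℂ) • (y - amp 1 x.γ))) amp_id

theorem projT_eq : projM x c * amp 1 x.F * projP x c =
    (PP x c id * (gr G x).pm * (gr G x).F * (PP x c id * (gr G x).pp)).1 := by
  rw [projP_eq, projM_eq]
  rfl

theorem good_pi (t : Λ) (f : C₀(Z, ℂ)) : (trD Λ H).Good (gr Λ x) (ampA t (x.π f)) := by
  refine good_ampA t (x.γ_π f) ?_ (x.F_sq f)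
  have := CycX.cm_neg (x.F_π f)
  rwa [neg_sub] at this

theorem good_piU (t : Λ) (f : C₀(Z, ℂ)) (g : G) :
    (trD Λ H).Good (gr Λ x) (ampA t (x.π f * (x.U g : H →L[ℂ] H))) := by
  refine good_ampA t ?_ ?_ ?_
  · rw [← mul_assoc, x.γ_π, mul_assoc, x.γ_U, mul_assoc]
  · have h := CycX.cm_sub (CycX.cm_right (CycX.cm_neg (x.F_π f)) (x.U g))
      (CycX.cm_right (x.F_U g f) (x.U g))
    have hU : star (x.U g : H →L[ℂ] H) * (x.U g : H →L[ℂ] H) = 1 := (x.U g).2.1
    have e : -(x.π f * x.F - x.F * x.π f) * (x.U g : H →L[ℂ] H) -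
        x.π f * ((x.U g : H →L[ℂ] H) * x.F * star (x.U g : H →L[ℂ] H) - x.F) *
          (x.U g : H →L[ℂ] H) =
        x.F * (x.π f * (x.U g : H →L[ℂ] H)) - x.π f * (x.U g : H →L[ℂ] H) * x.F := by
      simp only [neg_sub, sub_mul, mul_sub, mul_assoc, hU, mul_one]
      abel
    rwa [e] at h
  · have h := CycX.cm_left (x.F_sq (trl g⁻¹ f)) (x.U g)
    have e : trl g (trl g⁻¹ f) = f := ZeroAtInftyContinuousMap.ext fun z => by
      simp only [trl_apply, inv_inv, smul_inv_smul]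
    rwa [← mul_assoc, x.cov, e] at h

theorem PP_good (φ : G → Λ) : (trD Λ H).Good (gr Λ x) (PP x c φ) :=
  TrD.Good.sum _ fun g _ => good_piU x _ _ g

theorem PP_idem {φ : G → Λ} (hφ : MulOn (SS c) φ) : PP x c φ * PP x c φ = PP x c φ := by
  have key : ∀ g h : G, c.c * trl g c.c * trl g (c.c * trl h c.c) =
      c.c * trl g c.c * (trl g c.c * trl (g * h) c.c) := fun g h =>
    ZeroAtInftyContinuousMap.ext fun z => by
      simp only [ZeroAtInftyContinuousMap.mul_apply, trl_apply, mul_inv_rev, mul_smul]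
  have nz : ∀ (t : Λ) (g h : G),
      CycX.tm x t (g * h) (c.c * trl g c.c * (trl g c.c * trl (g * h) c.c)) ≠ 0 →
      h ∈ SS c ∧ g * h ∈ SS c := fun t g h hne => by
    obtain ⟨z, hz⟩ := CycX.ne_of_tm x hne
    simp only [ZeroAtInftyContinuousMap.mul_apply, trl_apply, mul_ne_zero_iff] at hz
    refine ⟨mem_SS.2 ⟨g⁻¹ • z, hz.1.2, ?_⟩, mem_SS.2 ⟨z, hz.1.1, hz.2.2⟩⟩
    rw [← mul_smul, ← mul_inv_rev]
    exact hz.2.2
  rw [CycX.PP_eq, Finset.sum_mul_sum]
  have h1 : ∀ g ∈ SS c, ∑ h ∈ SS c, CycX.tm x (φ g) g (c.c * trl g c.c) *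
      CycX.tm x (φ h) h (c.c * trl h c.c) =
      ∑ k ∈ SS c, CycX.tm x (φ k) k (c.c * trl g c.c * (trl g c.c * trl k c.c)) := by
    intro g hg
    rw [← CycX.reidx (Equiv.mulLeft g) (SS c) (SS c)
      (fun k => CycX.tm x (φ k) k (c.c * trl g c.c * (trl g c.c * trl k c.c)))
      (fun h _ hne => (nz _ g h hne).2) fun h _ hne => (nz _ g h hne).1]
    refine Finset.sum_congr rfl fun h hh => ?_
    rw [CycX.tm_mul, key]
    by_cases hgh : g * h ∈ SS c
    · rw [hφ g hg h hh hgh]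
      rfl
    · exact (not_not.1 fun hne => hgh (nz _ g h hne).2).trans
        (not_not.1 fun hne => hgh (nz _ g h hne).2).symm
  rw [Finset.sum_congr rfl h1, Finset.sum_comm]
  refine Finset.sum_congr rfl fun k _ => ?_
  rw [← map_sum]
  congr 1
  refine ZeroAtInftyContinuousMap.ext fun z => ?_
  rw [CycX.sum_app]
  simp only [ZeroAtInftyContinuousMap.mul_apply, trl_apply]
  by_cases hz : c.c z = 0
  · simp [hz]
  · calc _ = ∑ g ∈ SS c, c.c z * c.c (k⁻¹ • z) * c.c (g⁻¹ • z) ^ 2 :=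
          Finset.sum_congr rfl fun g _ => by ring
      _ = _ := by rw [← Finset.mul_sum, sum_SS c hz, mul_one]

/-- the local intertwiner of colour `j` -/
noncomputable def mm (ρ : Finset G → C₀(Z, ℂ)) (j : ℕ) (t : Finset G → Λ) : MorA Λ H :=
  ∑ σ ∈ (SS c).powersetCard j, ampA (t σ) (x.π (ρ σ))

theorem mm_good (ρ : Finset G → C₀(Z, ℂ)) (j : ℕ) (t : Finset G → Λ) :
    (trD Λ H).Good (gr Λ x) (mm x c ρ j t) :=
  TrD.Good.sum _ fun _ _ => good_pi x _ _

theorem mm_comm (ρ : Finset G → C₀(Z, ℂ)) (j j' : ℕ) {t t' : Finset G → Λ}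
    (h : ∀ σ σ', t σ * t' σ' = t' σ' * t σ) :
    mm x c ρ j t * mm x c ρ j' t' = mm x c ρ j' t' * mm x c ρ j t := by
  rw [mm, mm, Finset.sum_mul_sum, Finset.sum_mul_sum, Finset.sum_comm]
  refine Finset.sum_congr rfl fun σ' _ => Finset.sum_congr rfl fun σ _ => ?_
  rw [CycX.pi_pi, CycX.pi_pi, h, mul_comm (ρ σ)]

variable [DecidableEq G] {ρ : Finset G → C₀(Z, ℂ)}

theorem mm_intertwine (hρ : Gap c (SS c) ρ) (j : ℕ) {t : Finset G → Λ} {φ φ' : G → Λ}
    (ht : ∀ g ∈ SS c, ∀ σ : Finset G, σ.Nonempty → σ ⊆ SS c → g⁻¹ • σ ⊆ SS c →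
      t σ * φ g = φ' g * t (g⁻¹ • σ)) :
    mm x c ρ j t * PP x c φ = PP x c φ' * mm x c ρ j t := by
  rw [CycX.PP_eq, CycX.PP_eq, mm, Finset.sum_mul_sum, Finset.sum_mul_sum, Finset.sum_comm]
  refine Finset.sum_congr rfl fun g hg => ?_
  have key : ∀ σ : Finset G, c.c * trl g c.c * trl g (ρ (g⁻¹ • σ)) = ρ σ * (c.c * trl g c.c) :=
    fun σ => ZeroAtInftyContinuousMap.ext fun z => by
      simp only [ZeroAtInftyContinuousMap.mul_apply, trl_apply]
      by_cases h1 : c.c z = 0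
      · simp [h1]
      by_cases h2 : c.c (g⁻¹ • z) = 0
      · simp [h2]
      rw [hρ.eqv g σ z h1 h2, mul_comm]
  have nz : ∀ (u : Λ) (σ : Finset G), CycX.tm x u g (c.c * trl g c.c * trl g (ρ (g⁻¹ • σ))) ≠ 0 →
      (σ.Nonempty ∧ σ ⊆ SS c) ∧ g⁻¹ • σ ⊆ SS c := fun u σ hne => by
    constructor
    · by_contra h
      exact hne (by rw [key, hρ.zero σ h, zero_mul, map_zero])
    · by_contra h
      have h0 : trl g (0 : C₀(Z, ℂ)) = 0 := rfl
      exact hne (by rw [hρ.zero _ fun h' => h h'.2, h0, mul_zero, map_zero])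
  simp only [CycX.pi_tm, CycX.tm_pi]
  rw [← CycX.reidx (MulAction.toPerm g⁻¹) ((SS c).powersetCard j) ((SS c).powersetCard j)
    (fun σ => CycX.tm x (φ' g * t σ) g (c.c * trl g c.c * trl g (ρ σ)))
    (fun σ hσ hne => Finset.mem_powersetCard.2 ⟨(nz _ σ hne).2,
      (Finset.card_smul_finset g⁻¹ σ).trans (Finset.mem_powersetCard.1 hσ).2⟩)
    fun σ hσ hne => Finset.mem_powersetCard.2 ⟨(nz _ σ hne).1.2,
      (Finset.card_smul_finset g⁻¹ σ).symm.trans (Finset.mem_powersetCard.1 hσ).2⟩]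
  refine Finset.sum_congr rfl fun σ _ => ?_
  rw [← key]
  by_cases h : (σ.Nonempty ∧ σ ⊆ SS c) ∧ g⁻¹ • σ ⊆ SS c
  · rw [ht g hg σ h.1.1 h.1.2 h.2]
    rfl
  · exact (not_not.1 fun hne => h (nz _ σ hne)).trans (not_not.1 fun hne => h (nz _ σ hne)).symm

theorem mm_sum (hρ : Gap c (SS c) ρ) {t t' : Fin ((SS c).card + 1) → Finset G → Λ}
    (h : ∀ j σ, t' j σ * t j σ = 1) (φ : G → Λ) :
    (∑ j : Fin ((SS c).card + 1), mm x c ρ j (t' j) * mm x c ρ j (t j)) * PP x c φ =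
      PP x c φ := by
  have h1 : ∀ j : Fin ((SS c).card + 1), mm x c ρ j (t' j) * mm x c ρ j (t j) =
      ∑ σ ∈ (SS c).powersetCard j, ampA (1 : Λ) (x.π (ρ σ * ρ σ)) := fun j => by
    rw [mm, mm, Finset.sum_mul_sum]
    refine Finset.sum_congr rfl fun σ hσ => ?_
    rw [Finset.sum_eq_single_of_mem σ hσ fun σ' hσ' hne => by
      rw [CycX.pi_pi, hρ.orth σ σ' ((Finset.mem_powersetCard.1 hσ).2.trans
        (Finset.mem_powersetCard.1 hσ').2.symm) hne.symm, map_zero, map_zero], CycX.pi_pi, h]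
  rw [Finset.sum_congr rfl fun j _ => h1 j, Fin.sum_univ_eq_sum_range
    (fun j => ∑ σ ∈ (SS c).powersetCard j, ampA (1 : Λ) (x.π (ρ σ * ρ σ))),
    ← Finset.sum_powerset, ← map_sum, ← map_sum, CycX.PP_eq, Finset.mul_sum]
  refine Finset.sum_congr rfl fun g _ => ?_
  rw [CycX.pi_tm, one_mul]
  congr 1
  refine ZeroAtInftyContinuousMap.ext fun z => ?_
  simp only [ZeroAtInftyContinuousMap.mul_apply, CycX.sum_app]
  by_cases hz : c.c z = 0
  · simp [hz]
  · simp only [← sq]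
    rw [hρ.sum z hz, one_mul]

end Vale.Agent.P089
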