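import Mathlib

/-! Cutoff functions and equivariant Kasparov cycles. -/

namespace Vale.Agent.P089

open scoped ZeroAtInfty ComplexOrder

variable {G : Type} [Group G] {H : Type} [NormedAddCommGroup H] [InnerProductSpace ℂ H]
  {Z : Type} [TopologicalSpace Z] [MulAction G Z] [ContinuousConstSMul G Z]

/-- the translate `z ↦ f (g⁻¹ • z)` -/
noncomputable def trl (g : G) (f : C₀(Z, ℂ)) : C₀(Z, ℂ) :=
  f.comp (Homeomorph.smul g⁻¹).toCocompactMap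

variable (G Z) in
/-- a cutoff function -/
structure Cutoff where
  c : C₀(Z, ℂ)
  cpt : HasCompactSupport c
  nonneg : ∀ z, 0 ≤ c z
  sum : ∀ z, ∑ᶠ g : G, c (g⁻¹ • z) ^ 2 = 1

variable (G Z H) in
/-- an even equivariant Kasparov cycle for `(C₀(Z), ℂ)` -/
structure Cycle [CompleteSpace H] where
  γ : H →L[ℂ] H
  π : C₀(Z, ℂ) →⋆ₙₐ[ℂ] (H →L[ℂ] H)
  U : G →* unitary (H →L[ℂ] H)
  F : H →L[ℂ] H
  γ_sa : star γ = γ
  γ_sq : γ * γ = 1
  γ_π : ∀ f, γ * π f = π f * γ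
  γ_U : ∀ g, γ * (U g : H →L[ℂ] H) = (U g : H →L[ℂ] H) * γ
  γ_F : γ * F = -(F * γ)
  cov : ∀ g f, (U g : H →L[ℂ] H) * π f = π (trl g f) * (U g : H →L[ℂ] H)
  F_sa : ∀ f, IsCompactOperator (π f * (F - star F) : H →L[ℂ] H)
  F_sq : ∀ f, IsCompactOperator (π f * (F * F - 1) : H →L[ℂ] H)
  F_π : ∀ f, IsCompactOperator (π f * F - F * π f : H →L[ℂ] H)
  F_U : ∀ g f, IsCompactOperator
    (π f * ((U g : H →L[ℂ] H) * F * star (U g : H →L[ℂ] H) - F) : H →L[ℂ] H)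

end Vale.Agent.P089
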