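import Vale.Agent.P089.Cyc0

/-! The assembly map in degree zero: definitions (see notes/P089.md). -/

namespace Vale.Agent.P089

open scoped ZeroAtInfty ComplexOrder

/-- the Hilbert space `ℓ²(G, H)` -/
abbrev L2 (G H : Type) [NormedAddCommGroup H] : Type := lp (fun _ : G => H) 2

/-- the Hilbert space `ℂ ^ n` -/
abbrev EE (n : ℕ) : Type := EuclideanSpace ℂ (Fin n)

/-- the Hilbert direct sum -/
abbrev DS (H K : Type) : Type := WithLp 2 (H × K)

section
variable {G : Type} [Group G] {H K H' K' : Type}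
  [NormedAddCommGroup H] [InnerProductSpace ℂ H] [NormedAddCommGroup K] [InnerProductSpace ℂ K]
  [NormedAddCommGroup H'] [InnerProductSpace ℂ H'] [NormedAddCommGroup K'] [InnerProductSpace ℂ K']

omit [InnerProductSpace ℂ H] in
lemma amp_hasSum (g : G) (ξ : L2 G H) :
    HasSum (fun h => ‖ξ (g⁻¹ * h)‖ ^ (2 : ENNReal).toReal) (‖ξ‖ ^ (2 : ENNReal).toReal) :=
  (Equiv.mulLeft g⁻¹).hasSum_iff.2 (lp.hasSum_norm (by norm_num) ξ)

lemma amp_le (g : G) (x : H →L[ℂ] K) (ξ : L2 G H) (h : G) :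
    ‖x (ξ (g⁻¹ * h))‖ ^ (2 : ENNReal).toReal ≤
      ‖x‖ ^ (2 : ENNReal).toReal * ‖ξ (g⁻¹ * h)‖ ^ (2 : ENNReal).toReal := by
  rw [← Real.mul_rpow (norm_nonneg _) (norm_nonneg _)]
  exact Real.rpow_le_rpow (norm_nonneg _) (x.le_opNorm _) (by norm_num)

lemma amp_mem (g : G) (x : H →L[ℂ] K) (ξ : L2 G H) : Memℓp (fun h => x (ξ (g⁻¹ * h))) 2 :=
  memℓp_gen (Summable.of_nonneg_of_le (fun _ => by positivity) (amp_le g x ξ)
    ((amp_hasSum g ξ).summable.mul_left _))

/-- the operator `x ⊗ λ g`, which sends `ξ` to `h ↦ x (ξ (g⁻¹ * h))` -/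
noncomputable def amp (g : G) (x : H →L[ℂ] K) : L2 G H →L[ℂ] L2 G K :=
  LinearMap.mkContinuous
    { toFun := fun ξ => ⟨fun h => x (ξ (g⁻¹ * h)), amp_mem g x ξ⟩
      map_add' := fun ξ η => lp.ext (funext fun h => map_add x _ _)
      map_smul' := fun c ξ => lp.ext (funext fun h => map_smul x _ _) } ‖x‖ fun ξ =>
    lp.norm_le_of_tsum_le (by norm_num) (by positivity) (by
      rw [Real.mul_rpow (norm_nonneg _) (norm_nonneg _)]
      exact hasSum_le (amp_le g x ξ) ((amp_mem g x ξ).summable (by norm_num)).hasSum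
        ((amp_hasSum g ξ).mul_left _))

variable (G H K) in
/-- `B(H, K) ⊗ C*_r(G)`: the norm closure of the span of the operators `x ⊗ λ g` -/
noncomputable def Mor : Submodule ℂ (L2 G H →L[ℂ] L2 G K) :=
  (Submodule.span ℂ {y | ∃ (g : G) (x : H →L[ℂ] K), y = amp g x}).topologicalClosure

variable (G H K) in
/-- `K(H, K) ⊗ C*_r(G)`: the same with compact `x` -/
noncomputable def Cpt : Submodule ℂ (L2 G H →L[ℂ] L2 G K) :=
  (Submodule.span ℂ
    {y | ∃ (g : G) (x : H →L[ℂ] K), IsCompactOperator x ∧ y = amp g x}).topologicalClosure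

variable (H K) in
/-- first inclusion -/
noncomputable def inl : H →L[ℂ] DS H K :=
  (WithLp.prodContinuousLinearEquiv 2 ℂ H K).symm.toContinuousLinearMap ∘L
    ContinuousLinearMap.inl ℂ H K

variable (H K) in
/-- second inclusion -/
noncomputable def inr : K →L[ℂ] DS H K :=
  (WithLp.prodContinuousLinearEquiv 2 ℂ H K).symm.toContinuousLinearMap ∘L
    ContinuousLinearMap.inr ℂ H K

/-- the block diagonal operator -/
noncomputable def dsum (a : L2 G H →L[ℂ] L2 G H') (b : L2 G K →L[ℂ] L2 G K') :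
    L2 G (DS H K) →L[ℂ] L2 G (DS H' K') :=
  amp 1 (inl H' K') ∘L a ∘L amp 1 (WithLp.fstL 2 ℂ H K) +
    amp 1 (inr H' K') ∘L b ∘L amp 1 (WithLp.sndL 2 ℂ H K)

variable (G) in
/-- an idempotent matrix over `C*_r(G)` -/
structure Idem where
  n : ℕ
  e : L2 G (EE n) →L[ℂ] L2 G (EE n)
  mem : e ∈ Mor G (EE n) (EE n)
  idem : e ∘L e = e

variable (G) in
/-- `K₀(C*_r(G))`: generators `[a]`, relations `[c] = [a] + [b]` when `c` is equivalent to
`a ⊕ b` -/
def K0 : Type :=
  FreeAbelianGroup (Idem G) ⧸ AddSubgroup.closure {z : FreeAbelianGroup (Idem G) |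
    ∃ a b c : Idem G, (∃ u ∈ Mor G (DS (EE a.n) (EE b.n)) (EE c.n),
      ∃ v ∈ Mor G (EE c.n) (DS (EE a.n) (EE b.n)), v ∘L u = dsum a.e b.e ∧ u ∘L v = c.e) ∧
      z = FreeAbelianGroup.of c - FreeAbelianGroup.of a - FreeAbelianGroup.of b}

noncomputable instance : AddCommGroup (K0 G) := QuotientAddGroup.Quotient.addCommGroup _

/-- the class of an idempotent -/
noncomputable def cls (a : Idem G) : K0 G := QuotientAddGroup.mk (FreeAbelianGroup.of a)

variable {Z : Type} [TopologicalSpace Z] [MulAction G Z] [ContinuousConstSMul G Z]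

variable [CompleteSpace H] (x : Cycle G H Z) (c : Cutoff G Z)

/-- the cutoff projection acting on the descended module -/
noncomputable def proj : L2 G H →L[ℂ] L2 G H :=
  ∑ᶠ g : G, amp g (x.π (c.c * trl g c.c) * (x.U g : H →L[ℂ] H))

/-- its even part -/
noncomputable def projP : L2 G H →L[ℂ] L2 G H := proj x c * amp 1 ((1 / 2 : ℂ) • (1 + x.γ))

/-- its odd part -/
noncomputable def projM : L2 G H →L[ℂ] L2 G H := proj x c * amp 1 ((1 / 2 : ℂ) • (1 - x.γ))

/-- `k` is the index of the compressed operator from the even part to the odd part -/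
def IsIndex (k : K0 G) : Prop :=
  ∃ a b : Idem G, k = cls a - cls b ∧
    ∃ S ∈ Mor G (DS H (EE b.n)) (DS H (EE a.n)), ∃ R ∈ Mor G (DS H (EE a.n)) (DS H (EE b.n)),
      R ∘L S = dsum (projP x c) b.e ∧ S ∘L R = dsum (projM x c) a.e ∧
      S - dsum (projM x c * amp 1 x.F * projP x c) 0 ∈ Cpt G (DS H (EE b.n)) (DS H (EE a.n))

end

end Vale.Agent.P089
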