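import Vale.Agent.P089.Fam

/-! Distances in the graphs of the family (job Dist). -/

namespace Vale.Agent.P089

open Classical

variable {S V : Type}

lemma Rd.mono {s : ℕ → S × Bool} {n k : ℕ} (h : Rd s n) (hk : k ≤ n) : Rd s k :=
  fun i hi => h i (by omega)

lemma Rd.shift {s : ℕ → S × Bool} {n : ℕ} (h : Rd s n) (a k : ℕ) (hk : a + k ≤ n) :
    Rd (fun i => s (a + i)) k := fun i hi => h (a + i) (by omega)

namespace Gp

variable (Γ : Gp S V) {y : ℕ → V} {s : ℕ → S × Bool} {n : ℕ}

section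
variable {Γ}

lemma Wk.mono (h : Γ.Wk y s n) {k : ℕ} (hk : k ≤ n) : Γ.Wk y s k := fun i hi => h i (by omega)

lemma Wk.shift (h : Γ.Wk y s n) (a k : ℕ) (hk : a + k ≤ n) :
    Γ.Wk (fun i => y (a + i)) (fun i => s (a + i)) k := fun i hi => h (a + i) (by omega)

lemma Wk.rev (h : Γ.Wk y s n) : Γ.Wk (fun i => y (n - i)) (fun i => iv (s (n - 1 - i))) n := by
  intro i hi
  have := Γ.st_rev (h (n - 1 - i) (by omega))
  rwa [show n - 1 - i + 1 = n - i by omega, show y (n - 1 - i) = y (n - (i + 1)) by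
    congr 1; omega] at this

lemma Wk.app {y' : ℕ → V} {s' : ℕ → S × Bool} {n' : ℕ} (h : Γ.Wk y s n) (h' : Γ.Wk y' s' n')
    (e : y n = y' 0) : Γ.Wk (fun i => if i ≤ n then y i else y' (i - n))
      (fun i => if i < n then s i else s' (i - n)) (n + n') := by
  intro i hi
  rcases lt_trichotomy i n with h1 | rfl | h1
  · simpa [h1, h1.le, Nat.succ_le_of_lt h1] using h i h1
  · simpa [e] using h' 0 (by omega)
  · have := h' (i - n) (by omega)
    rw [show i - n + 1 = i + 1 - n by omega] at this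
    simpa [h1.not_ge, h1.not_gt, show ¬i + 1 ≤ n by omega] using this

lemma Wk.snoc (h : Γ.Wk y s n) {a : S × Bool} {v : V} (e : Γ.st (y n) a v) :
    Γ.Wk (fun i => if i ≤ n then y i else v) (fun i => if i < n then s i else a) (n + 1) := by
  intro i hi
  by_cases h1 : i < n
  · simpa [h1, h1.le, Nat.succ_le_of_lt h1] using h i h1
  · obtain rfl : i = n := by omega
    simpa using e

end

lemma dist_le (h : Γ.Wk y s n) : Γ.dist (y 0) (y n) ≤ n := Nat.sInf_le ⟨y, s, h, rfl, rfl⟩

lemma dist_self (v : V) : Γ.dist v v = 0 := by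
  rcases Set.eq_empty_or_nonempty {n | ∃ y s, Γ.Wk y s n ∧ y 0 = v ∧ y n = v} with h | h
  · rw [dist, h, Nat.sInf_empty]
  · obtain ⟨n, y, s, -⟩ := h
    exact Nat.le_zero.mp (Γ.dist_le (y := fun _ => v) (s := s) fun i hi => absurd hi (by omega))

lemma dist_comm (u v : V) : Γ.dist u v = Γ.dist v u := by
  unfold dist
  congr 1
  ext n
  constructor <;> rintro ⟨y, s, h, rfl, rfl⟩ <;> exact ⟨_, _, h.rev, by simp, by simp⟩

lemma dist_step (c : V) {u v : V} {a : S × Bool} (h : Γ.st u a v) :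
    Γ.dist c v ≤ Γ.dist c u + 1 := by
  rcases Set.eq_empty_or_nonempty {n | ∃ y s, Γ.Wk y s n ∧ y 0 = c ∧ y n = u} with h1 | h1
  · rcases Set.eq_empty_or_nonempty {n | ∃ y s, Γ.Wk y s n ∧ y 0 = c ∧ y n = v} with h2 | h2
    · rw [dist, h2, Nat.sInf_empty]
      omega
    · obtain ⟨n, y, s, k1, k2, k3⟩ := h2
      refine absurd h1 (Set.Nonempty.ne_empty ⟨n + 1, _, _, k1.snoc (k3 ▸ Γ.st_rev h), ?_, ?_⟩)
      · simpa using k2
      · simp
  · obtain ⟨y, s, k1, k2, k3⟩ := Nat.sInf_mem h1
    have := Γ.dist_le (k1.snoc (k3 ▸ h))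
    simp only [Nat.zero_le, if_true, k2, Nat.not_succ_le_self, if_false] at this
    exact this

lemma lip_dist (c : V) : Γ.Lip fun v => (Γ.dist c v : ℤ) := by
  intro u a v h
  have := Γ.dist_step c h
  have := Γ.dist_step c (Γ.st_rev h)
  rw [abs_le]
  constructor <;> simp only <;> omega

lemma dist_wk (c : V) (h : Γ.Wk y s n) {i : ℕ} (k : ℕ) (hk : i + k ≤ n) :
    Γ.dist c (y (i + k)) ≤ Γ.dist c (y i) + k := by
  induction k with
  | zero => simp
  | succ k ih =>
    have := Γ.dist_step c (h (i + k) (by omega))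
    have := ih (by omega)
    rw [← add_assoc]
    omega

/-- a geodesic is reduced and moves away from its start -/
lemma geo_rd (h : Γ.Wk y s n) (hd : Γ.dist (y 0) (y n) = n) :
    Rd s n ∧ ∀ i ≤ n, Γ.dist (y 0) (y i) = i := by
  have h1 : ∀ i ≤ n, Γ.dist (y 0) (y i) = i := by
    intro i hi
    have a1 := Γ.dist_le (h.mono hi)
    have a2 := Γ.dist_wk (y 0) h (i := i) (n - i) (by omega)
    rw [show i + (n - i) = n by omega] at a2
    omega
  refine ⟨fun i hi e => ?_, h1⟩
  have a1 := Γ.st_fun (e ▸ h (i + 1) hi) (Γ.st_rev (h i (by omega)))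
  have a2 := h1 (i + 1 + 1) (by omega)
  rw [a1, h1 i (by omega)] at a2
  omega

/-- reduced walks shorter than the girth are injective -/
lemma wk_inj {g : ℕ} (hg : ∀ i ≤ n, Γ.Girth (y i) g) (h : Γ.Wk y s n) (hr : Rd s n) (hn : n < g)
    {i j : ℕ} (hi : i ≤ n) (hj : j ≤ n) (e : y i = y j) : i = j := by
  wlog hij : i < j generalizing i j
  · exact (lt_or_eq_of_le (not_lt.mp hij)).elim (fun h1 => (this hj hi e.symm h1).symm) Eq.symm
  have := hg i hi _ _ (j - i) (by omega) (h.shift i (j - i) (by omega))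
    (hr.shift i (j - i) (by omega)) rfl (by simp only [Nat.add_sub_cancel' hij.le, e])
  omega

/-- two short reduced walks with the same ends have the same length -/
lemma rd_eq {g : ℕ} (n : ℕ) : ∀ {n' : ℕ} {y y' : ℕ → V} {s s' : ℕ → S × Bool},
    Γ.Girth (y n) g → Γ.Wk y s n → Γ.Wk y' s' n' → Rd s n → Rd s' n' → y 0 = y' 0 →
    y n = y' n' → n + n' < g → n = n' := by
  induction n with
  | zero =>
    intro n' y y' s s' hg _ h' _ r' e0 e1 hn
    by_contra hc
    have := hg y' s' n' (by omega) h' r' e0.symm e1.symm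
    omega
  | succ n ih =>
    intro n' y y' s s' hg h h' r r' e0 e1 hn
    cases n' with
    | zero =>
      have := hg y s (n + 1) (by omega) h r (e0.trans e1.symm) rfl
      omega
    | succ n' =>
      by_cases hs : s 0 = s' 0
      · rw [ih (n' := n') (y := fun i => y (1 + i)) (y' := fun i => y' (1 + i))
          (by simpa [add_comm] using hg) (h.shift 1 n (by omega)) (h'.shift 1 n' (by omega))
          (r.shift 1 n (by omega)) (r'.shift 1 n' (by omega))
          (Γ.st_fun (h 0 (by omega)) (hs ▸ e0 ▸ h' 0 (by omega))) (by simpa [add_comm] using e1)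
          (by omega)]
      · have := hg _ _ _ (by omega) (h'.rev.app h (by simp [e0])) (fun i hi => ?_) (by simp [e1])
          (by simp)
        · omega
        · rcases lt_trichotomy i n' with h1 | rfl | h1
          · have := r' (n' - 1 - i) (by omega)
            simp only [show i + 1 < n' + 1 by omega, show i < n' + 1 by omega, if_true, iv_iv,
              show n' + 1 - 1 - (i + 1) = n' - 1 - i by omega,
              show n' + 1 - 1 - i = n' - 1 - i + 1 by omega]
            exact this.symm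
          · simpa using hs
          · have := r (i - (n' + 1)) (by omega)
            simpa [show ¬i + 1 < n' + 1 by omega, show ¬i < n' + 1 by omega,
              show i - n' = i - (n' + 1) + 1 by omega] using this

end Gp

namespace Fam

variable [Fintype S] (F : Fam S V) {y : ℕ → V} {s : ℕ → S × Bool} {n : ℕ}

lemma lev_wk (h : F.Wk y s n) {i : ℕ} (hi : i ≤ n) : F.lev (y i) = F.lev (y 0) := by
  induction i with
  | zero => rfl
  | succ i ih => rw [F.lev_st (h i hi), ih (by omega)]

lemma exists_out (v : V) (b : S × Bool) : ∃ a v', a ≠ b ∧ F.st v a v' := by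
  obtain ⟨a, ha, hb⟩ := Finset.exists_mem_ne (s := F.out v) (by have := (F.deg v).1; omega) b
  obtain ⟨v', h⟩ := F.mem_out.mp ha
  exact ⟨a, v', hb, h⟩

/-- levels are connected -/
theorem exists_geo {u v : V} (h : F.lev v = F.lev u) :
    ∃ y s, F.Wk y s (F.dist u v) ∧ y 0 = u ∧ y (F.dist u v) = v := by
  have key : ∀ w, F.lev w = F.lev u → (F.lv (F.lev u)).card < 2 * ((F.lv (F.lev u)).filter
      fun z => ∃ n y s, F.Wk y s n ∧ y 0 = w ∧ y n = z).card := by
    intro w hw
    by_contra hc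
    have h1 := F.expand _ _ (Finset.filter_subset _ _) (not_lt.mp hc)
    rw [show F.bd _ = ∅ from Finset.filter_eq_empty_iff.mpr ?_, Finset.card_empty, Nat.le_zero,
      Finset.card_eq_zero, Finset.filter_eq_empty_iff] at h1
    · obtain ⟨a, -, -⟩ := Finset.exists_mem_ne (s := F.out w)
        (by have := (F.deg w).1; omega) (Finset.card_pos.mp
          (show 0 < (F.out w).card by have := (F.deg w).1; omega)).choose
      exact h1 (F.mem_lv.mpr hw) ⟨0, fun _ => w, fun _ => a, fun i hi => absurd hi (by omega),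
        rfl, rfl⟩
    · rintro ⟨z, a⟩ hp ⟨z', k1, k2⟩
      obtain ⟨b1, n, y, s, b2, b3, b4⟩ := Finset.mem_filter.mp (Finset.mem_product.mp hp).1
      exact k2 (Finset.mem_filter.mpr ⟨F.mem_lv.mpr ((F.lev_st k1).trans (F.mem_lv.mp b1)),
        n + 1, _, _, b2.snoc (b4 ▸ k1), by simpa using b3, by simp⟩)
  have h1 := key u rfl
  have h2 := key v h
  obtain ⟨z, hz⟩ := Finset.inter_nonempty_of_card_lt_card_add_card (Finset.filter_subset _ _)
    (Finset.filter_subset _ _) (show (F.lv (F.lev u)).card < ((F.lv (F.lev u)).filter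
      fun z => ∃ n y s, F.Wk y s n ∧ y 0 = u ∧ y n = z).card + ((F.lv (F.lev u)).filter
      fun z => ∃ n y s, F.Wk y s n ∧ y 0 = v ∧ y n = z).card by omega)
  obtain ⟨n, y, s, a1, a2, a3⟩ := (Finset.mem_filter.mp (Finset.mem_inter.mp hz).1).2
  obtain ⟨n', y', s', b1, b2, b3⟩ := (Finset.mem_filter.mp (Finset.mem_inter.mp hz).2).2
  refine Nat.sInf_mem (s := {n | ∃ y s, F.Wk y s n ∧ y 0 = u ∧ y n = v})
    ⟨n + n', _, _, a1.app b1.rev (by simp [a3, b3]), by simpa using a2, ?_⟩
  rcases Nat.eq_zero_or_pos n' with rfl | h0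
  · simp [a3, ← b3, b2]
  · simp [show ¬n + n' ≤ n by omega, b2]

/-- short reduced walks are geodesic -/
theorem rd_geo (h : F.Wk y s n) (hr : Rd s n)
    (hn : n ≤ 50 * F.ell (F.lev (y 0)) + 2 * F.t (F.lev (y 0))) : F.dist (y 0) (y n) = n := by
  obtain ⟨y', s', a1, a2, a3⟩ := F.exists_geo (F.lev_wk h le_rfl)
  have a4 := F.dist_le h
  refine (F.rd_eq n (F.girth _) h a1 hr (F.geo_rd a1 (by rw [a2, a3])).1 a2.symm a3.symm ?_).symm
  rw [F.lev_wk h le_rfl]
  omega

theorem ball_card (c : V) (ρ : ℕ) :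
    ((F.lv (F.lev c)).filter fun v => F.dist c v ≤ ρ).card ≤ (F.D + 1) ^ ρ := by
  induction ρ with
  | zero =>
    refine Finset.card_le_one.mpr fun a ha b hb => ?_
    have key : ∀ a ∈ (F.lv (F.lev c)).filter fun v => F.dist c v ≤ 0, a = c := by
      intro a ha
      obtain ⟨h1, h2⟩ := Finset.mem_filter.mp ha
      obtain ⟨y, s, -, a2, a3⟩ := F.exists_geo (F.mem_lv.mp h1)
      rw [← a3, Nat.le_zero.mp h2, a2]
    rw [key a ha, key b hb]
  | succ ρ ih =>
    let nb : V → S × Bool → V := fun v a => if h : ∃ v', F.st v a v' then h.choose else v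
    have h1 : ((F.lv (F.lev c)).filter fun v => F.dist c v ≤ ρ + 1) ⊆
        ((F.lv (F.lev c)).filter fun v => F.dist c v ≤ ρ).biUnion
          fun v => insert v ((F.out v).image (nb v)) := by
      intro v hv
      obtain ⟨h1, h2⟩ := Finset.mem_filter.mp hv
      rw [Finset.mem_biUnion]
      by_cases h3 : F.dist c v ≤ ρ
      · exact ⟨v, Finset.mem_filter.mpr ⟨h1, h3⟩, by simp⟩
      obtain ⟨y, s, a1, a2, a3⟩ := F.exists_geo (F.mem_lv.mp h1)
      rw [show F.dist c v = ρ + 1 by omega] at a1 a3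
      have a4 := a3 ▸ a1 ρ (by omega)
      refine ⟨y ρ, Finset.mem_filter.mpr ⟨F.mem_lv.mpr (a2 ▸ F.lev_wk a1 (by omega)),
        a2 ▸ F.dist_le (a1.mono (by omega))⟩, Finset.mem_insert_of_mem (Finset.mem_image.mpr
          ⟨s ρ, F.mem_out.mpr ⟨v, a4⟩, ?_⟩)⟩
      have a5 : ∃ v', F.st (y ρ) (s ρ) v' := ⟨v, a4⟩
      simp only [nb, dif_pos a5]
      exact F.st_fun a5.choose_spec a4
    refine (Finset.card_le_card h1).trans ((Finset.card_biUnion_le_card_mul _ _ (F.D + 1)
      fun v _ => (Finset.card_insert_le _ _).trans (Nat.succ_le_succ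
        (Finset.card_image_le.trans (F.deg v).2))).trans ?_)
    rw [pow_succ]
    exact Nat.mul_le_mul_right _ ih

theorem exists_far (c : V) : ∃ v, F.lev v = F.lev c ∧ 2 * F.ell (F.lev c) < F.dist c v := by
  obtain ⟨v, h1, h2⟩ := Finset.exists_mem_notMem_of_card_lt_card
    ((F.ball_card c (2 * F.ell (F.lev c))).trans_lt (F.wide _))
  exact ⟨v, F.mem_lv.mp h1, not_le.mp fun h => h2 (Finset.mem_filter.mpr ⟨h1, h⟩)⟩

omit [Fintype S] in
lemma rd_snoc (hr : Rd s n) {a : S × Bool} (ha : a ≠ iv (s (n - 1))) :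
    Rd (fun i => if i < n then s i else a) (n + 1) := by
  intro i hi
  by_cases h1 : i + 1 < n
  · simpa [h1, show i < n by omega] using hr i h1
  · simpa [h1, show i < n by omega, show n - 1 = i by omega] using ha

theorem exists_rd (v : V) (n : ℕ) : ∃ y s, F.Wk y s n ∧ Rd s n ∧ y 0 = v := by
  induction n with
  | zero =>
    obtain ⟨a, -⟩ := Finset.card_pos.mp (show 0 < (F.out v).card by have := (F.deg v).1; omega)
    exact ⟨fun _ => v, fun _ => a, fun i hi => absurd hi (by omega),
      fun i hi => absurd hi (by omega), rfl⟩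
  | succ n ih =>
    obtain ⟨y, s, h1, h2, h3⟩ := ih
    obtain ⟨a, v', k1, k2⟩ := F.exists_out (y n) (iv (s (n - 1)))
    exact ⟨_, _, h1.snoc k2, rd_snoc h2 k1, by simpa using h3⟩

/-- all letters but one lead away from the centre -/
lemma outward (c : V) {v : V} (hv : F.lev v = F.lev c)
    (hd : F.dist c v < 50 * F.ell (F.lev c) + 2 * F.t (F.lev c)) :
    ∃ b, ∀ a v', a ≠ b → F.st v a v' → F.dist c v' = F.dist c v + 1 := by
  obtain ⟨y, s, a1, a2, a3⟩ := F.exists_geo hv
  refine ⟨iv (s (F.dist c v - 1)), fun a v' h1 h2 => ?_⟩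
  have := F.rd_geo (a1.snoc (a3.symm ▸ h2)) (rd_snoc (F.geo_rd a1 (by rw [a2, a3])).1 h1)
    (by simp only [Nat.zero_le, if_true, a2]; omega)
  simpa [a2] using this

theorem growth (c : V) (T : Finset V) (hT : T ⊆ F.lv (F.lev c)) {u : V} (hu : u ∈ T)
    (h1 : 2 * F.ell (F.lev c) < F.dist c u) (h2 : F.dist c u ≤ 6 * F.ell (F.lev c))
    (h : ∀ v ∈ T, 2 * F.ell (F.lev c) < F.dist c v →
      4 ≤ (Finset.univ.filter fun a => ∃ v' ∈ T, F.st v a v').card) :
    2 ^ F.t (F.lev c) ≤ T.card := by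
  have hl := F.ell_gt (F.lev c)
  have key : ∀ k ≤ F.t (F.lev c), 2 ^ k ≤ (T.filter fun v => F.dist c v = F.dist c u + k).card := by
    intro k
    induction k with
    | zero => exact fun _ => Finset.card_pos.mpr ⟨u, by simpa using hu⟩
    | succ k ih =>
      intro hk
      rw [pow_succ]
      refine (Nat.mul_le_mul_right _ (ih (by omega))).trans ?_
      have := Finset.card_mul_le_card_mul (s := T.filter fun v => F.dist c v = F.dist c u + k)
        (t := T.filter fun v => F.dist c v = F.dist c u + (k + 1)) (m := 2) (n := 1)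
        (fun v v' => ∃ a, F.st v a v') (fun v hv => ?_) fun v' hv' => ?_
      · omega
      · obtain ⟨a1, a2⟩ := Finset.mem_filter.mp hv
        obtain ⟨b, hb⟩ := F.outward c (F.mem_lv.mp (hT a1)) (by omega)
        have a3 := h v a1 (by omega)
        have a4 := Finset.pred_card_le_card_erase
          (s := Finset.univ.filter fun a => ∃ v' ∈ T, F.st v a v') (a := b)
        obtain ⟨a, ha, a', ha', hne⟩ := Finset.one_lt_card.mp (lt_of_lt_of_le (by omega) a4)
        obtain ⟨b1, -, w, b2, b3⟩ := by simpa only [Finset.mem_erase, Finset.mem_filter] using ha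
        obtain ⟨c1, -, w', c2, c3⟩ := by simpa only [Finset.mem_erase, Finset.mem_filter] using ha'
        have d1 := hb a w b1 b3
        have d2 := hb a' w' c1 c3
        refine Finset.one_lt_card.mpr ⟨w, ?_, w', ?_, ?_⟩
        · exact (Finset.mem_bipartiteAbove _).mpr ⟨Finset.mem_filter.mpr ⟨b2, by omega⟩, a, b3⟩
        · exact (Finset.mem_bipartiteAbove _).mpr ⟨Finset.mem_filter.mpr ⟨c2, by omega⟩, a', c3⟩
        · rintro rfl
          obtain ⟨b', hb'⟩ := F.outward c (F.mem_lv.mp (hT b2)) (by omega)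
          have e1 : iv a = b' := by_contra fun e => by have := hb' _ _ e (F.st_rev b3); omega
          have e2 : iv a' = b' := by_contra fun e => by have := hb' _ _ e (F.st_rev c3); omega
          exact hne (by rw [← iv_iv a, e1, ← e2, iv_iv])
      · obtain ⟨a1, a2⟩ := Finset.mem_filter.mp hv'
        obtain ⟨b', hb'⟩ := F.outward c (F.mem_lv.mp (hT a1)) (by omega)
        refine Finset.card_le_one.mpr fun w hw w' hw' => ?_
        obtain ⟨b1, a, b2⟩ := (Finset.mem_bipartiteBelow _).mp hw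
        obtain ⟨c1, a', c2⟩ := (Finset.mem_bipartiteBelow _).mp hw'
        have d1 := (Finset.mem_filter.mp b1).2
        have d2 := (Finset.mem_filter.mp c1).2
        have e1 : iv a = b' := by_contra fun e => by have := hb' _ _ e (F.st_rev b2); omega
        have e2 : iv a' = b' := by_contra fun e => by have := hb' _ _ e (F.st_rev c2); omega
        exact F.st_fun (e1 ▸ F.st_rev b2) (e2 ▸ F.st_rev c2)
  exact (key _ le_rfl).trans (Finset.card_le_card (Finset.filter_subset _ _))

end Fam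

end Vale.Agent.P089
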