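import Mathlib

/-! Haar measure on a closed group of configurations (job Haar). -/

namespace Vale.Agent.P089

open MeasureTheory

theorem exists_haar {I : Type} [Countable I] (X : AddSubgroup (I → ZMod 2))
    (hc : IsClosed (X : Set (I → ZMod 2))) :
    ∃ μ : Measure X, IsProbabilityMeasure μ ∧ μ.IsAddLeftInvariant := by
  have : CompactSpace X := isCompact_iff_compactSpace.1 hc.isCompact
  have : BorelSpace X := Subtype.borelSpace _
  refine ⟨Measure.addHaarMeasure ⊤, ⟨?_⟩, inferInstance⟩
  exact Measure.addHaarMeasure_self (K₀ := ⊤)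

theorem measurable_fin {I Y : Type} (X : AddSubgroup (I → ZMod 2)) [MeasurableSpace Y]
    (T : Finset I) (φ : X → Y) (h : ∀ x x' : X, (∀ p ∈ T, x.1 p = x'.1 p) → φ x = φ x') :
    Measurable φ := by
  classical
  let r : X → T → ZMod 2 := fun x p => x.1 p
  have hr : Measurable r := measurable_pi_lambda _ fun p =>
    (measurable_pi_apply p.1).comp measurable_subtype_coe
  have e : φ = (fun σ => φ (Function.invFun r σ)) ∘ r := funext fun x =>
    h _ _ fun p hp => (congrFun (Function.invFun_eq ⟨x, rfl⟩ : r _ = r x) ⟨p, hp⟩).symm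
  rw [e]
  exact (measurable_of_finite _).comp hr

theorem meas_fiber {I Y : Type} (X : AddSubgroup (I → ZMod 2)) (μ : Measure X)
    [IsProbabilityMeasure μ] [μ.IsAddLeftInvariant] [AddCommGroup Y] (φ : X →+ Y) (T : Finset I)
    (h : ∀ x x' : X, (∀ p ∈ T, x.1 p = x'.1 p) → φ x = φ x') {c : Y} (hc : c ∈ φ.range) :
    μ.real {x | φ x = c} = 1 / Nat.card φ.range := by
  classical
  let _ : MeasurableSpace Y := ⊤
  have hm : ∀ c, MeasurableSet {x | φ x = c} := fun c =>
    measurable_fin X T φ h (show MeasurableSet {c} from trivial)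
  have hf : Finite φ.range := by
    let r : X → T → ZMod 2 := fun x p => x.1 p
    refine Finite.of_surjective (fun σ => φ.rangeRestrict (Function.invFun r σ)) ?_
    rintro ⟨_, x, rfl⟩
    exact ⟨r x, Subtype.ext (h _ _ fun p hp =>
      congrFun (Function.invFun_eq ⟨x, rfl⟩ : r _ = r x) ⟨p, hp⟩)⟩
  have := Fintype.ofFinite φ.range
  have hadd : ∀ a : X, Measurable fun x : X => a + x := fun a =>
    Measurable.subtype_mk (measurable_pi_lambda _ fun p => (measurable_from_top (f := (a.1 p + ·))).comp
      ((measurable_pi_apply p).comp measurable_subtype_coe))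
  have : MeasurableAdd X := ⟨hadd, fun a => by simpa only [add_comm] using hadd a⟩
  have h1 : ∀ d : φ.range, μ.real {x | φ x = d} = μ.real {x | φ x = c} := by
    rintro ⟨_, x, rfl⟩
    obtain ⟨x', rfl⟩ := hc
    rw [measureReal_def, measureReal_def, ← measure_preimage_add μ (x' - x) {y | φ y = φ x'}]
    congr 2
    ext y
    simp only [Set.mem_ofPred_eq, Set.mem_preimage, map_add, map_sub]
    constructor <;> intro h
    · rw [h, sub_add_cancel]
    · rwa [sub_add_eq_add_sub, sub_eq_iff_eq_add, add_right_inj] at h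
  have h2 := measureReal_iUnion_fintype (μ := μ) (f := fun d : φ.range => {x | φ x = d})
    (fun d d' hd => Set.disjoint_left.2 fun x a b => hd (Subtype.ext (a.symm.trans b)))
    fun d => hm d
  rw [Set.iUnion_eq_univ_iff.2 fun x => ⟨φ.rangeRestrict x, rfl⟩, probReal_univ] at h2
  simp only [h1, Finset.sum_const, Finset.card_univ, nsmul_eq_mul] at h2
  rw [Nat.card_eq_fintype_card, eq_div_iff (Nat.cast_ne_zero.2 Fintype.card_ne_zero), mul_comm, ← h2]

end Vale.Agent.P089
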