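import Vale.Agent.P089.Net

/-! Geometric convergence of the powers of the averaging operator (job Iter). -/

namespace Vale.Agent.P089

open Classical Filter Topology

/-- the square of the norm -/
noncomputable def nsq {G : Type} (f : G →₀ ℂ) : ℝ := f.sum fun _ c => ‖c‖ ^ 2

/-- `M` is the averaging operator of the network -/
def Net.IsAvg {G A : Type} [Fintype A] {C : ℕ} (N : Net G A C) (M : Module.End ℂ (G →₀ ℂ)) :
    Prop :=
  ∀ f g, M f g = f g - (1 / (2 * (Fintype.card A + 1)) : ℂ) *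
    ((∑ a, if N.op g a then f g - f (N.nb g a) else 0) + if N.df g then f g else 0)

namespace IterX

variable {G A : Type} [Fintype A] {C : ℕ} {N : Net G A C} {M : Module.End ℂ (G →₀ ℂ)}

lemma op_iff (g : G) (a : A) : N.op (N.nb g a) (N.iv a) ↔ N.op g a :=
  ⟨fun h => by simpa only [N.nb_iv, N.iv_iv] using N.op_rev _ _ h, N.op_rev g a⟩

lemma dart {R : Type} [AddCommMonoid R] (h : G → R) (U : Finset G)
    (hU : ∀ g a, N.op g a → h (N.nb g a) ≠ 0 → (g ∈ U ↔ N.nb g a ∈ U)) :
    ∑ g ∈ U, ∑ a, (if N.op g a then h (N.nb g a) else 0) =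
      ∑ g ∈ U, ∑ a, (if N.op g a then h g else 0) := by
  rw [← Finset.sum_product', ← Finset.sum_product', ← Finset.sum_filter_ne_zero,
    ← Finset.sum_filter_ne_zero (f := fun p : G × A => if N.op p.1 p.2 then h p.1 else 0)]
  have hi : Function.Involutive fun p : G × A => (N.nb p.1 p.2, N.iv p.2) :=
    fun p => by simp only [N.nb_iv, N.iv_iv]
  refine Finset.sum_equiv hi.toPerm (fun p => ?_) fun p _ => ?_
  · simp only [Function.Involutive.coe_toPerm, op_iff, Finset.mem_filter, Finset.mem_product,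
      Finset.mem_univ, and_true]
    refine and_congr_left fun c => ?_
    rw [ite_ne_right_iff] at c
    exact hU _ _ c.1 c.2
  · simp only [Function.Involutive.coe_toPerm, op_iff]

variable (N) in
/-- the Laplacian -/
noncomputable def lap (u : G → ℝ) (g : G) : ℝ :=
  (∑ a, if N.op g a then u g - u (N.nb g a) else 0) + if N.df g then u g else 0

lemma lap_sq (u : G → ℝ) (g : G) : lap N u g ^ 2 ≤ 2 * (Fintype.card A + 1) * N.en u g := by
  have h := sq_sum_le_card_mul_sum_sq (s := Finset.univ) (f := fun o : Option A =>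
    o.elim (if N.df g then u g else 0) fun a => if N.op g a then u g - u (N.nb g a) else 0)
  simp only [Fintype.sum_option, Option.elim, Finset.card_univ, Fintype.card_option, ite_pow,
    zero_pow two_ne_zero] at h
  push_cast at h
  unfold lap Net.en
  have e : ∑ a, (if N.op g a then (u g - u (N.nb g a)) ^ 2 else 0) =
      2 * ∑ a, if N.op g a then (u g - u (N.nb g a)) ^ 2 / 2 else 0 := by
    rw [Finset.mul_sum]
    refine Finset.sum_congr rfl fun a _ => ?_
    split_ifs <;> ring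
  have h0 : 0 ≤ if N.df g then u g ^ 2 else 0 := by positivity
  have h1 : (0 : ℝ) ≤ Fintype.card A + 1 := by positivity
  rw [e, add_comm] at h
  nlinarith [mul_nonneg h0 h1]

lemma lap_mul {u : G → ℝ} {U : Finset G} (hU : N.Cov u U) :
    ∑ g ∈ U, u g * lap N u g = ∑ g ∈ U, N.en u g := by
  have h := dart (N := N) (fun g => u g ^ 2 / 2) U fun g a _ h =>
    have h' : u (N.nb g a) ≠ 0 := fun e => h (by simp [e])
    iff_of_true (hU.2 g a h') (hU.1 _ h')
  rw [← sub_eq_zero, ← Finset.sum_sub_distrib] at h ⊢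
  rw [← neg_eq_zero, ← Finset.sum_neg_distrib]
  refine (Finset.sum_congr rfl fun g _ => ?_).trans h
  unfold lap Net.en
  rw [mul_add, Finset.mul_sum, show u g * (if N.df g then u g else 0) =
    if N.df g then u g ^ 2 else 0 by split_ifs <;> ring, add_sub_add_right_eq_sub,
    ← Finset.sum_sub_distrib, ← Finset.sum_sub_distrib, ← Finset.sum_neg_distrib]
  refine Finset.sum_congr rfl fun a _ => ?_
  split_ifs <;> ring

lemma real {u : G → ℝ} {U : Finset G} (hU : N.Cov u U) {k : ℝ}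
    (hk : k * (2 * (Fintype.card A + 1)) = 1) :
    ∑ g ∈ U, (u g - k * lap N u g) ^ 2 ≤ ∑ g ∈ U, u g ^ 2 - k * ∑ g ∈ U, N.en u g ∧
      ∑ g ∈ U, (k * lap N u g) ^ 2 ≤ k * ∑ g ∈ U, N.en u g := by
  have h2 : ∑ g ∈ U, (k * lap N u g) ^ 2 ≤ k * ∑ g ∈ U, N.en u g := by
    rw [Finset.mul_sum]
    refine Finset.sum_le_sum fun g _ => ?_
    have := mul_le_mul_of_nonneg_left (lap_sq (N := N) u g) (sq_nonneg k)
    rw [mul_pow]
    refine this.trans_eq ?_
    linear_combination k * N.en u g * hk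
  refine ⟨?_, h2⟩
  have e : ∑ g ∈ U, (u g - k * lap N u g) ^ 2 = ∑ g ∈ U, u g ^ 2 -
      2 * k * ∑ g ∈ U, u g * lap N u g + ∑ g ∈ U, (k * lap N u g) ^ 2 := by
    rw [Finset.mul_sum, ← Finset.sum_sub_distrib, ← Finset.sum_add_distrib]
    exact Finset.sum_congr rfl fun g _ => by ring
  rw [e, lap_mul hU]
  linarith

lemma nsq_eq {f : G →₀ ℂ} {U : Finset G} (h : ∀ g, f g ≠ 0 → g ∈ U) :
    nsq f = ∑ g ∈ U, (f g).re ^ 2 + ∑ g ∈ U, (f g).im ^ 2 := by
  unfold nsq
  rw [Finsupp.sum_of_support_subset _ (fun g hg => h g (Finsupp.mem_support_iff.1 hg)) _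
    fun _ _ => by simp, ← Finset.sum_add_distrib]
  exact Finset.sum_congr rfl fun g _ => by rw [Complex.sq_norm, Complex.normSq_apply, sq, sq]

lemma nsq_nonneg (f : G →₀ ℂ) : 0 ≤ nsq f := Finset.sum_nonneg fun _ _ => by positivity

lemma le_nsq (f : G →₀ ℂ) (e : G) : ‖f e‖ ^ 2 ≤ nsq f := by
  by_cases h : e ∈ f.support
  · exact Finset.single_le_sum (f := fun g => ‖f g‖ ^ 2) (fun _ _ => by positivity) h
  · rw [Finsupp.notMem_support_iff.1 h, norm_zero, zero_pow two_ne_zero]
    exact nsq_nonneg f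

lemma step (hM : N.IsAvg M) (f : G →₀ ℂ) : nsq (M f) ≤ nsq f ∧ nsq (M f - f) ≤ nsq f ∧
    ((∀ b ∈ N.blk, ∑ g ∈ b, f g = 0) → nsq (M f) ≤ (1 - 1 / (2 * (Fintype.card A + 1)) /
      (4 * C + 16 * C ^ 2 * Fintype.card A + 1)) * nsq f) := by
  obtain ⟨U, u1, u2⟩ : ∃ U : Finset G, (∀ g, f g ≠ 0 → g ∈ U) ∧ ∀ g a, f (N.nb g a) ≠ 0 → g ∈ U :=
    ⟨f.support ∪ (f.support ×ˢ Finset.univ).image fun p => N.nb p.1 p.2,
      fun g h => Finset.mem_union_left _ (Finsupp.mem_support_iff.2 h),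
      fun g a h => Finset.mem_union_right _ (Finset.mem_image.2 ⟨(N.nb g a, N.iv a),
        Finset.mem_product.2 ⟨Finsupp.mem_support_iff.2 h, Finset.mem_univ _⟩, N.nb_iv g a⟩)⟩
  have u3 : ∀ g, M f g ≠ 0 → g ∈ U := fun g h => by
    by_contra c
    have h1 : f g = 0 := by_contra fun e => c (u1 g e)
    have h2 : ∀ a, f (N.nb g a) = 0 := fun a => by_contra fun e => c (u2 g a e)
    exact h (by simp [hM f g, h1, h2])
  have u4 : ∀ g, (M f - f) g ≠ 0 → g ∈ U := fun g h => by
    by_contra c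
    have h1 : f g = 0 := by_contra fun e => c (u1 g e)
    have h2 : M f g = 0 := by_contra fun e => c (u3 g e)
    exact h (by simp [h1, h2])
  obtain ⟨k, hk⟩ : ∃ k : ℝ, k = 1 / (2 * (Fintype.card A + 1)) := ⟨_, rfl⟩
  have k0 : 0 < k := by rw [hk]; positivity
  have k1 : k * (2 * (Fintype.card A + 1)) = 1 := by rw [hk]; field_simp
  have k2 : (1 / (2 * (Fintype.card A + 1)) : ℂ) = k := by rw [hk]; push_cast; rfl
  have c1 : N.Cov (fun g => (f g).re) U :=
    ⟨fun g h => u1 g fun e => h (by simp [e]), fun g a h => u2 g a fun e => h (by simp [e])⟩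
  have c2 : N.Cov (fun g => (f g).im) U :=
    ⟨fun g h => u1 g fun e => h (by simp [e]), fun g a h => u2 g a fun e => h (by simp [e])⟩
  have e1 : ∀ g, (M f g).re = (f g).re - k * lap N (fun g => (f g).re) g := fun g => by
    simp only [hM f g, k2, lap, Complex.sub_re, Complex.re_ofReal_mul, Complex.add_re,
      Complex.re_sum, apply_ite Complex.re, Complex.zero_re]
  have e2 : ∀ g, (M f g).im = (f g).im - k * lap N (fun g => (f g).im) g := fun g => by
    simp only [hM f g, k2, lap, Complex.sub_im, Complex.im_ofReal_mul, Complex.add_im,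
      Complex.im_sum, apply_ite Complex.im, Complex.zero_im]
  obtain ⟨a1, a2⟩ := real c1 k1
  obtain ⟨b1, b2⟩ := real c2 k1
  have p : ∀ u : G → ℝ, 0 ≤ ∑ g ∈ U, u g ^ 2 := fun u => Finset.sum_nonneg fun _ _ => sq_nonneg _
  have a3 := (p _).trans a1
  have a4 := (p _).trans a2
  have b3 := (p _).trans b1
  have b4 := (p _).trans b2
  rw [nsq_eq u1, nsq_eq u3, nsq_eq u4, ← hk]
  simp only [Finsupp.sub_apply, Complex.sub_re, Complex.sub_im, e1, e2, sub_sub_cancel_left,
    neg_sq]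
  refine ⟨by linarith, by linarith, fun hz => ?_⟩
  have d1 := N.cheeger _ U c1 fun b hb => by rw [← Complex.re_sum, hz b hb, Complex.zero_re]
  have d2 := N.cheeger _ U c2 fun b hb => by rw [← Complex.im_sum, hz b hb, Complex.zero_im]
  have d0 : (0 : ℝ) ≤ 4 * C + 16 * C ^ 2 * Fintype.card A := by positivity
  generalize (4 * C + 16 * C ^ 2 * Fintype.card A : ℝ) = D at *
  have d3 := mul_le_mul_of_nonneg_left (add_le_add d1 d2) k0.le
  have d4 : k / (D + 1) * (∑ g ∈ U, (f g).re ^ 2 + ∑ g ∈ U, (f g).im ^ 2) ≤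
      k * ∑ g ∈ U, N.en (fun g => (f g).re) g + k * ∑ g ∈ U, N.en (fun g => (f g).im) g := by
    rw [div_mul_eq_mul_div, div_le_iff₀ (by positivity)]
    linarith
  linarith

lemma blk_sum (hM : N.IsAvg M) (f : G →₀ ℂ) {b : Finset G} (hb : b ∈ N.blk) :
    ∑ g ∈ b, M f g = ∑ g ∈ b, f g := by
  have h := dart (N := N) f b fun g a h _ => ⟨fun hg => N.blk_op b hb g hg a h,
    fun hg => N.nb_iv g a ▸ N.blk_op b hb _ hg _ (N.op_rev g a h)⟩
  simp only [hM f]
  rw [Finset.sum_sub_distrib, ← Finset.mul_sum, sub_eq_self]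
  refine mul_eq_zero_of_right _ ?_
  rw [← sub_eq_zero, ← neg_eq_zero, neg_sub, ← Finset.sum_sub_distrib] at h
  refine (Finset.sum_congr rfl fun g hg => ?_).trans h
  rw [if_neg (N.blk_df b hb g hg), add_zero, ← Finset.sum_sub_distrib]
  refine Finset.sum_congr rfl fun a _ => ?_
  split_ifs <;> simp

end IterX

open IterX

theorem Net.iter (A : Type) [Fintype A] (C : ℕ) : ∃ q : ℝ, 0 ≤ q ∧ q < 1 ∧
    ∀ (G : Type) (N : Net G A C) (M : Module.End ℂ (G →₀ ℂ)), N.IsAvg M →
      (∀ j f, nsq ((M ^ (j + 1) - M ^ j) f) ≤ (q ^ j) ^ 2 * nsq f) ∧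
      (∀ j e, ‖(M ^ j) (Finsupp.single e 1) e‖ ≤ 1) ∧
      (∀ b ∈ N.blk, ∀ e ∈ b,
        Tendsto (fun j => (M ^ j) (Finsupp.single e 1) e) atTop (𝓝 (1 / (b.card : ℂ)))) ∧
      ∀ e, (∀ b ∈ N.blk, e ∉ b) →
        Tendsto (fun j => (M ^ j) (Finsupp.single e 1) e) atTop (𝓝 0) := by
  obtain ⟨r, hr⟩ : ∃ r : ℝ, r = 1 / (2 * (Fintype.card A + 1)) /
    (4 * C + 16 * C ^ 2 * Fintype.card A + 1) := ⟨_, rfl⟩
  have r0 : 0 < r := by rw [hr]; positivity
  have r1 : r ≤ 1 := by
    have h1 : (0 : ℝ) ≤ Fintype.card A := by positivity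
    have h2 : (0 : ℝ) ≤ 4 * C + 16 * C ^ 2 * Fintype.card A := by positivity
    rw [hr, div_div, div_le_one (by positivity)]
    nlinarith
  have q1 : √(1 - r) < 1 := by
    rw [Real.sqrt_lt' one_pos]
    linarith
  refine ⟨√(1 - r), Real.sqrt_nonneg _, q1, fun G N M hM => ?_⟩
  have it : ∀ (j : ℕ) (f : G →₀ ℂ), (∀ b ∈ N.blk, ∑ g ∈ b, f g = 0) →
      nsq ((M ^ j) f) ≤ (√(1 - r) ^ j) ^ 2 * nsq f := by
    intro j
    induction j with
    | zero => exact fun f _ => by simp
    | succ j ih =>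
      intro f hf
      rw [pow_succ, Module.End.mul_apply, pow_succ _ j, mul_pow, Real.sq_sqrt (by linarith),
        mul_assoc]
      exact (ih _ fun b hb => (blk_sum hM f hb).trans (hf b hb)).trans
        (mul_le_mul_of_nonneg_left (hr ▸ (step hM f).2.2 hf) (sq_nonneg _))
  have lim : ∀ (f : G →₀ ℂ) (e : G), (∀ b ∈ N.blk, ∑ g ∈ b, f g = 0) →
      Tendsto (fun j => (M ^ j) f e) atTop (𝓝 0) := fun f e hf => by
    have h := (tendsto_pow_atTop_nhds_zero_of_lt_one (Real.sqrt_nonneg _) q1).mul_const √(nsq f)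
    rw [zero_mul] at h
    refine squeeze_zero_norm (fun j => ?_) h
    rw [← pow_le_pow_iff_left₀ (norm_nonneg _) (by positivity) two_ne_zero, mul_pow,
      Real.sq_sqrt (nsq_nonneg f)]
    exact (le_nsq _ e).trans (it j f hf)
  refine ⟨fun j f => ?_, fun j e => ?_, fun b hb e he => ?_, fun e he => lim _ e fun b hb =>
    Finset.sum_eq_zero fun g hg => Finsupp.single_eq_of_ne fun c => he b hb (c ▸ hg)⟩
  · rw [LinearMap.sub_apply, pow_succ, Module.End.mul_apply, ← map_sub]
    refine (it j _ fun b hb => ?_).trans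
      (mul_le_mul_of_nonneg_left (step hM f).2.1 (sq_nonneg _))
    simp only [Finsupp.sub_apply, Finset.sum_sub_distrib, blk_sum hM f hb, sub_self]
  · have h : ∀ j : ℕ, nsq ((M ^ j) (Finsupp.single e 1)) ≤ 1 := fun j => by
      induction j with
      | zero => simp [nsq]
      | succ j ih =>
        rw [pow_succ', Module.End.mul_apply]
        exact (step hM _).1.trans ih
    rw [← sq_le_one_iff₀ (norm_nonneg _)]
    exact (le_nsq _ e).trans (h j)
  · obtain ⟨v, hv⟩ : ∃ v : G →₀ ℂ, ∀ g, v g = if g ∈ b then 1 / (b.card : ℂ) else 0 :=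
      ⟨Finsupp.onFinset b (fun g => if g ∈ b then 1 / (b.card : ℂ) else 0)
        fun g h => (ite_ne_right_iff.1 h).1, fun _ => rfl⟩
    have h1 : M v = v := Finsupp.ext fun g => by
      rw [hM, sub_eq_self]
      refine mul_eq_zero_of_right _ ?_
      rw [Finset.sum_eq_zero fun a _ => ite_eq_right_iff.2 fun h => ?_, zero_add, ite_eq_right_iff]
      · exact fun h => (hv g).trans (if_neg fun c => N.blk_df b hb g c h)
      · rw [hv, hv, sub_eq_zero]
        exact if_congr ⟨fun hg => N.blk_op b hb g hg a h,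
          fun hg => N.nb_iv g a ▸ N.blk_op b hb _ hg _ (N.op_rev g a h)⟩ rfl rfl
    have h2 : ∀ j : ℕ, (M ^ j) v = v := fun j => by
      induction j with
      | zero => rfl
      | succ j ih => rw [pow_succ, Module.End.mul_apply, h1, ih]
    have h3 := (lim (Finsupp.single e 1 - v) e fun b' hb' => ?_).add_const (1 / (b.card : ℂ))
    · simpa only [map_sub, h2, Finsupp.sub_apply, hv, he, if_true, sub_add_cancel, zero_add]
        using h3
    simp only [Finsupp.sub_apply, Finset.sum_sub_distrib, hv, Finsupp.single_apply,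
      Finset.sum_ite_eq]
    by_cases c : b' = b
    · subst c
      have : (b'.card : ℂ) ≠ 0 := Nat.cast_ne_zero.2 (Finset.card_ne_zero_of_mem he)
      rw [if_pos he, Finset.sum_congr rfl fun g hg => if_pos hg, Finset.sum_const, nsmul_eq_mul,
        mul_one_div_cancel this, sub_self]
    · rw [if_neg fun h => c (N.blk_disj b' hb' b hb e h he), Finset.sum_eq_zero
        fun g hg => if_neg fun h => c (N.blk_disj b' hb' b hb g hg h), sub_self]

end Vale.Agent.P089
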