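import Vale.Agent.P089.Lam
import Vale.Agent.P089.Iter
import Vale.Agent.P089.Haar

/-! The group dual to a group shift, and its fibre representations (job Dual). -/

namespace Vale.Agent.P089

open MeasureTheory

namespace DualX

open ComplexConjugate

/-- a right action by automorphisms and an invariant group of characters -/
structure Dat (G X : Type) [Group G] [AddCommGroup X] where
  sh : G → X →+ X
  sh_one : ∀ x, sh 1 x = x
  sh_mul : ∀ g q x, sh (g * q) x = sh q (sh g x)
  N : AddSubgroup (X →+ ZMod 2)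
  stab : ∀ n ∈ N, ∀ q, n.comp (sh q) ∈ N

variable {G X : Type} [Group G] [AddCommGroup X]

/-- the semidirect product -/
@[ext] structure Gam (D : Dat G X) where
  n : X →+ ZMod 2
  mem : n ∈ D.N
  q : G

variable {D : Dat G X}

instance : Mul (Gam D) :=
  ⟨fun a b => ⟨a.n + b.n.comp (D.sh a.q), D.N.add_mem a.mem (D.stab _ b.mem _), a.q * b.q⟩⟩

instance : One (Gam D) := ⟨⟨0, D.N.zero_mem, 1⟩⟩

instance : Inv (Gam D) :=
  ⟨fun a => ⟨-a.n.comp (D.sh a.q⁻¹), D.N.neg_mem (D.stab _ a.mem _), a.q⁻¹⟩⟩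

lemma mul_n (a b : Gam D) (x : X) : (a * b).n x = a.n x + b.n (D.sh a.q x) := rfl

lemma mul_q (a b : Gam D) : (a * b).q = a.q * b.q := rfl

instance : Group (Gam D) :=
  Group.ofLeftAxioms
    (fun a b c => Gam.ext (AddMonoidHom.ext fun x => by
      simp only [mul_n, mul_q, D.sh_mul, add_assoc]) (mul_assoc _ _ _))
    (fun a => Gam.ext (AddMonoidHom.ext fun x => (zero_add _).trans (congrArg a.n (D.sh_one x)))
      (one_mul _))
    fun a => Gam.ext (AddMonoidHom.ext fun _ => neg_add_cancel _) (inv_mul_cancel _)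

/-- the sign character -/
noncomputable def chi (b : ZMod 2) : ℂ := if b = 0 then 1 else -1

lemma two (b : ZMod 2) : b = 0 ∨ b = 1 := by decide +revert

lemma chi_zero : chi 0 = 1 := if_pos rfl

lemma chi_one : chi 1 = -1 := if_neg (by decide)

lemma chi_add (a b : ZMod 2) : chi (a + b) = chi a * chi b := by
  rcases two a with rfl | rfl
  · rw [zero_add, chi_zero, one_mul]
  · rcases two b with rfl | rfl
    · rw [add_zero, chi_zero, mul_one]
    · rw [show (1 + 1 : ZMod 2) = 0 by decide, chi_zero, chi_one]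
      ring

lemma conj_chi (a : ZMod 2) : conj (chi a) = chi (-a) := by
  rw [ZMod.neg_eq_self_mod_two]
  unfold chi
  split_ifs <;> simp

lemma norm_chi (a : ZMod 2) : ‖chi a‖ = 1 := by
  unfold chi
  split_ifs <;> simp

/-- the fibre operator -/
noncomputable def op (x : X) (a : Gam D) : Module.End ℂ (G →₀ ℂ) where
  toFun f := Finsupp.onFinset (f.support.map (Equiv.mulRight a.q⁻¹).toEmbedding)
    (fun g => chi (a.n (D.sh g x)) * f (g * a.q)) fun g h =>
      Finset.mem_map.2 ⟨g * a.q, Finsupp.mem_support_iff.2 (right_ne_zero_of_mul h), by simp⟩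
  map_add' f f' := Finsupp.ext fun g => mul_add _ _ _
  map_smul' c f := Finsupp.ext fun g => mul_left_comm _ _ _

lemma op_apply (x : X) (a : Gam D) (f : G →₀ ℂ) (g : G) :
    op x a f g = chi (a.n (D.sh g x)) * f (g * a.q) := rfl

variable (D) in
/-- the fibre representation -/
noncomputable def rho (x : X) : MonoidAlgebra ℂ (Gam D) →ₐ[ℂ] Module.End ℂ (G →₀ ℂ) :=
  MonoidAlgebra.lift ℂ _ _
    { toFun := op x
      map_one' := LinearMap.ext fun f => Finsupp.ext fun g => by
        rw [op_apply]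
        exact (congrArg₂ (· * f ·) chi_zero (mul_one g)).trans (one_mul _)
      map_mul' := fun a b => LinearMap.ext fun f => Finsupp.ext fun g => by
        simp only [Module.End.mul_apply, op_apply, mul_n, mul_q, chi_add, D.sh_mul, mul_assoc] }

lemma rho_single (x : X) (a : Gam D) (f : G →₀ ℂ) (g : G) :
    rho D x (MonoidAlgebra.single a 1) f g = chi (a.n (D.sh g x)) * f (g * a.q) := by
  unfold rho
  rw [MonoidAlgebra.lift_single, one_smul]
  rfl

lemma rho_apply (x : X) (y : MonoidAlgebra ℂ (Gam D)) (f : G →₀ ℂ) (g : G) :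
    rho D x y f g = ∑ a ∈ y.coeff.support, y.coeff a * (chi (a.n (D.sh g x)) * f (g * a.q)) := by
  unfold rho
  rw [MonoidAlgebra.lift_apply, Finsupp.sum, LinearMap.sum_apply, Finsupp.finsetSum_apply]
  rfl

variable (D) in
/-- represented multipliers -/
def Rep (ψ : X → ℂ) : Prop := ∃ y, ∀ x f g, rho D x y f g = ψ (D.sh g x) * f g

lemma Rep.const (c : ℂ) : Rep D fun _ => c :=
  ⟨c • 1, fun x f g => by rw [map_smul, map_one]; rfl⟩

lemma Rep.add {ψ φ : X → ℂ} (h : Rep D ψ) (h' : Rep D φ) : Rep D fun x => ψ x + φ x := by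
  obtain ⟨y, h⟩ := h
  obtain ⟨y', h'⟩ := h'
  exact ⟨y + y', fun x f g => by
    rw [map_add, LinearMap.add_apply, Finsupp.add_apply, h, h', add_mul]⟩

lemma Rep.mul {ψ φ : X → ℂ} (h : Rep D ψ) (h' : Rep D φ) : Rep D fun x => ψ x * φ x := by
  obtain ⟨y, h⟩ := h
  obtain ⟨y', h'⟩ := h'
  exact ⟨y * y', fun x f g => by rw [map_mul, Module.End.mul_apply, h, h', mul_assoc]⟩

lemma Rep.chi {n : X →+ ZMod 2} (h : n ∈ D.N) : Rep D fun x => chi (n x) :=
  ⟨MonoidAlgebra.single ⟨n, h, 1⟩ 1, fun x f g => by rw [rho_single, mul_one]⟩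

variable [MeasurableSpace X] (μ : Measure X) [IsProbabilityMeasure μ]

omit [AddCommGroup X] [IsProbabilityMeasure μ] in
lemma orth {ι : Type} [DecidableEq ι] (s : Finset ι) (c : ι → ℂ) (e : ι → X → ℂ) (d : ι → ℝ)
    (hi : ∀ i j, Integrable (fun x => e i x * conj (e j x)) μ)
    (ho : ∀ i j, ∫ x, e i x * conj (e j x) ∂μ = if i = j then (d i : ℂ) else 0) :
    Integrable (fun x => ‖∑ i ∈ s, c i * e i x‖ ^ 2) μ ∧
      ∫ x, ‖∑ i ∈ s, c i * e i x‖ ^ 2 ∂μ = ∑ i ∈ s, ‖c i‖ ^ 2 * d i := by
  have key : ∀ x, ((‖∑ i ∈ s, c i * e i x‖ ^ 2 : ℝ) : ℂ) =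
      ∑ i ∈ s, ∑ j ∈ s, c i * conj (c j) * (e i x * conj (e j x)) := fun x => by
    rw [Complex.ofReal_pow, ← Complex.mul_conj', map_sum, Finset.sum_mul_sum]
    refine Finset.sum_congr rfl fun i _ => Finset.sum_congr rfl fun j _ => ?_
    rw [map_mul]
    ring
  have i1 : ∀ i, Integrable (fun x => ∑ j ∈ s, c i * conj (c j) * (e i x * conj (e j x))) μ :=
    fun i => integrable_finsetSum _ fun j _ => (hi i j).const_mul _
  have i2 := integrable_finsetSum s fun i _ => i1 i
  simp only [← key] at i2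
  refine ⟨i2.re, Complex.ofReal_injective ?_⟩
  rw [← integral_complex_ofReal]
  simp only [key]
  rw [integral_finsetSum _ fun i _ => i1 i, Complex.ofReal_sum]
  refine Finset.sum_congr rfl fun i h => ?_
  rw [integral_finsetSum _ fun j _ => (hi i j).const_mul _]
  simp only [integral_const_mul, ho, mul_ite, mul_zero, Finset.sum_ite_eq, h, if_true,
    Complex.mul_conj']
  push_cast
  rfl

lemma int_chi' {n : X →+ ZMod 2} (h : Measurable n) : Integrable (fun x => chi (n x)) μ :=
  Integrable.of_bound ((measurable_of_countable chi).comp h).aestronglyMeasurable 1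
    (Filter.Eventually.of_forall fun _ => (norm_chi _).le)

variable [MeasurableAdd X] [μ.IsAddLeftInvariant]

open Classical in
lemma int_chi (n : X →+ ZMod 2) : ∫ x, chi (n x) ∂μ = if n = 0 then 1 else 0 := by
  split_ifs with h
  · simp [h, chi_zero]
  · obtain ⟨x0, h0⟩ := DFunLike.ne_iff.1 h
    have h1 := integral_add_left_eq_self (μ := μ) (fun x => chi (n x)) x0
    simp only [map_add, chi_add, (two _).resolve_left h0, chi_one, integral_const_mul] at h1
    linear_combination (-1 / 2) * h1

lemma parseval (hm : ∀ n ∈ D.N, Measurable n) (ξ : MonoidAlgebra ℂ (Gam D)) :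
    Integrable (fun x => nsq (rho D x ξ (Finsupp.single 1 1))) μ ∧
      ∫ x, nsq (rho D x ξ (Finsupp.single 1 1)) ∂μ = ξ.coeff.sum fun _ c => ‖c‖ ^ 2 := by
  classical
  have e1 : ∀ x, nsq (rho D x ξ (Finsupp.single 1 1)) =
      ∑ g ∈ ξ.coeff.support.image fun a => a.q⁻¹, ‖∑ a ∈ ξ.coeff.support, ξ.coeff a *
        (chi (a.n (D.sh g x)) * (Finsupp.single 1 1 : G →₀ ℂ) (g * a.q))‖ ^ 2 := fun x => by
    simp only [← rho_apply]
    refine Finsupp.sum_of_support_subset _ (fun g hg => ?_) _ fun _ _ => by simp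
    rw [Finsupp.mem_support_iff, rho_apply] at hg
    obtain ⟨a, ha, h⟩ := Finset.exists_ne_zero_of_sum_ne_zero hg
    have := (Finsupp.single_apply_ne_zero.1 (right_ne_zero_of_mul (right_ne_zero_of_mul h))).1
    exact Finset.mem_image.2 ⟨a, ha, (eq_inv_of_mul_eq_one_left this).symm⟩
  have e2 : ∀ (g : G) (a b : Gam D) (x : X),
      chi (a.n (D.sh g x)) * (Finsupp.single 1 1 : G →₀ ℂ) (g * a.q) *
        conj (chi (b.n (D.sh g x)) * (Finsupp.single 1 1 : G →₀ ℂ) (g * b.q)) =
      (if 1 = g * a.q ∧ 1 = g * b.q then 1 else 0) * chi (((a.n - b.n).comp (D.sh g)) x) := by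
    intro g a b x
    rw [map_mul (starRingEnd ℂ), conj_chi, AddMonoidHom.comp_apply, AddMonoidHom.sub_apply,
      sub_eq_add_neg, chi_add, Finsupp.single_apply, Finsupp.single_apply]
    generalize g * a.q = s, g * b.q = t
    rw [ite_and]
    split_ifs <;> simp
  have o := fun g : G => orth μ ξ.coeff.support ξ.coeff
    (fun a x => chi (a.n (D.sh g x)) * (Finsupp.single 1 1 : G →₀ ℂ) (g * a.q))
    (fun a => if g = a.q⁻¹ then 1 else 0) (fun a b => by
      simp only [e2]
      exact (int_chi' μ (hm _ (D.stab _ (D.N.sub_mem a.mem b.mem) _))).const_mul _) fun a b => by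
      simp only [e2]
      rw [integral_const_mul, int_chi]
      by_cases h : a = b
      · subst h
        simp only [and_self, sub_self, AddMonoidHom.zero_comp, if_true, mul_one,
          eq_comm (a := (1 : G)), mul_eq_one_iff_eq_inv]
        split_ifs <;> simp
      · rw [if_neg h]
        split_ifs with h1 h2
        · refine absurd (Gam.ext (AddMonoidHom.ext fun x => sub_eq_zero.1 ?_)
            (mul_left_cancel (h1.1.symm.trans h1.2))) h
          have := DFunLike.congr_fun h2 (D.sh g⁻¹ x)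
          rwa [AddMonoidHom.comp_apply, ← D.sh_mul, inv_mul_cancel, D.sh_one] at this
        all_goals simp
  simp only [e1]
  refine ⟨integrable_finsetSum _ fun g _ => (o g).1, ?_⟩
  rw [integral_finsetSum _ fun g _ => (o g).1]
  simp only [(o _).2]
  rw [Finset.sum_comm]
  refine Finset.sum_congr rfl fun a ha => ?_
  rw [← Finset.mul_sum, Finset.sum_ite_eq', if_pos (Finset.mem_image_of_mem _ ha), mul_one]

include μ in
lemma norm_le (hm : ∀ n ∈ D.N, Measurable n) (y : MonoidAlgebra ℂ (Gam D)) (C : ℝ) (hC : 0 ≤ C)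
    (h : ∀ x f, nsq (rho D x y f) ≤ C ^ 2 * nsq f) : ‖lam (Gam D) y‖ ≤ C := by
  refine norm_lam_le y hC fun ξ => ?_
  rw [← (parseval μ hm (y * ξ)).2, ← (parseval μ hm ξ).2, ← integral_const_mul]
  refine integral_mono (parseval μ hm _).1 ((parseval μ hm _).1.const_mul _) fun x => ?_
  simp only [map_mul, Module.End.mul_apply]
  exact h x _

lemma int_rho (hm : ∀ n ∈ D.N, Measurable n) (y : MonoidAlgebra ℂ (Gam D)) :
    ∫ x, rho D x y (Finsupp.single 1 1) 1 ∂μ = y.coeff 1 := by
  classical
  simp only [rho_apply, D.sh_one, one_mul]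
  rw [integral_finsetSum _ fun a _ => ((int_chi' μ (hm _ a.mem)).mul_const _).const_mul _]
  simp only [integral_const_mul, integral_mul_const, int_chi]
  rw [Finset.sum_eq_single 1 (fun a _ h => ?_) fun h => by rw [Finsupp.notMem_support_iff.1 h,
    zero_mul]]
  · rw [if_pos (show Gam.n (1 : Gam D) = 0 from rfl)]
    exact (congrArg _ ((one_mul _).trans Finsupp.single_eq_same)).trans (mul_one _)
  · rw [Finsupp.single_apply]
    split_ifs with h1 h2
    · exact absurd (Gam.ext h1 h2.symm) h
    all_goals simp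

end DualX

open DualX

theorem exists_dual {G A : Type} [Group G] [Countable G] [Countable A]
    (X : AddSubgroup (G × A → ZMod 2))
    (hG : ∀ x ∈ X, ∀ g : G, (fun p : G × A => x (g * p.1, p.2)) ∈ X) (μ : Measure X)
    [IsProbabilityMeasure μ] [μ.IsAddLeftInvariant] :
    ∃ (Γ : Type) (_ : Group Γ) (_ : Countable Γ)
      (ρ : X → MonoidAlgebra ℂ Γ →ₐ[ℂ] Module.End ℂ (G →₀ ℂ)),
      (∀ q : G, ∃ y, ∀ x f g, ρ x y f g = f (g * q)) ∧
      (∀ (T : Finset (G × A)) (φ : (G × A → ZMod 2) → ℂ),
        (∀ x x', (∀ p ∈ T, x p = x' p) → φ x = φ x') →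
        ∃ y, ∀ x f g, ρ x y f g = φ (fun p => x.1 (g * p.1, p.2)) * f g) ∧
      (∀ y, Measurable fun x => ρ x y (Finsupp.single 1 1) 1) ∧
      (∀ y, ∫ x, ρ x y (Finsupp.single 1 1) 1 ∂μ = y.coeff 1) ∧
      ∀ (y : MonoidAlgebra ℂ Γ) (C : ℝ), 0 ≤ C → (∀ x f, nsq (ρ x y f) ≤ C ^ 2 * nsq f) →
        ‖lam Γ y‖ ≤ C := by
  classical
  haveI : MeasurableAdd X := ⟨fun c => (measurable_subtype_coe.const_add c.1).subtype_mk,
    fun c => (measurable_subtype_coe.add_const c.1).subtype_mk⟩
  let ev : G × A → X →+ ZMod 2 := fun p => (Pi.evalAddMonoidHom _ p).comp X.subtype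
  let D : Dat G X :=
    { sh := fun g => AddMonoidHom.mk' (fun x => ⟨_, hG x.1 x.2 g⟩) fun _ _ => rfl
      sh_one := fun x => Subtype.ext (funext fun p => by simp)
      sh_mul := fun g q x => Subtype.ext (funext fun p => by simp [mul_assoc])
      N := (Submodule.span ℤ (Set.range ev)).toAddSubgroup
      stab := fun n hn q => by
        refine Submodule.span_induction (fun n h => ?_) (Submodule.zero_mem _)
          (fun a b _ _ h h' => Submodule.add_mem _ h h') (fun k a _ h => Submodule.smul_mem _ k h) hn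
        obtain ⟨p, rfl⟩ := h
        exact Submodule.subset_span ⟨(q * p.1, p.2), rfl⟩ }
  have hm : ∀ n ∈ D.N, Measurable n := fun n hn => by
    refine Submodule.span_induction (fun n h => ?_) measurable_const
      (fun a b _ _ h h' => h.add h')
      (fun k a _ h => (measurable_of_countable fun b : ZMod 2 => k • b).comp h) hn
    obtain ⟨p, rfl⟩ := h
    exact (measurable_pi_apply p).comp measurable_subtype_coe
  haveI : Countable D.N := inferInstanceAs (Countable (Submodule.span ℤ (Set.range ev)))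
  refine ⟨Gam D, inferInstance, Function.Injective.countable
    (f := fun a : Gam D => ((⟨a.n, a.mem⟩, a.q) : D.N × G)) fun a b h =>
      Gam.ext (congrArg (·.1.1) h) (congrArg (·.2) h), rho D, fun q => ?_, fun T => ?_,
    fun y => ?_, int_rho μ hm, norm_le μ hm⟩
  · exact ⟨MonoidAlgebra.single ⟨0, D.N.zero_mem, q⟩ 1, fun x f g => by
      rw [rho_single, AddMonoidHom.zero_apply, chi_zero, one_mul]⟩
  · change ∀ φ : (G × A → ZMod 2) → ℂ, _ → Rep D fun x => φ x.1
    induction T using Finset.induction_on with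
    | empty =>
      intro φ h
      rw [funext fun x : X => h x.1 0 (by simp)]
      exact Rep.const _
    | insert p T _ ih =>
      intro φ h
      have a1 : ∀ b, Rep D fun x => φ (Function.update x.1 p b) := fun b =>
        ih (fun x => φ (Function.update x p b)) fun x x' e => h _ _ fun r hr => by
          by_cases c : r = p
          · rw [c, Function.update_self, Function.update_self]
          · rw [Function.update_of_ne c, Function.update_of_ne c,
              e r ((Finset.mem_insert.1 hr).resolve_left c)]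
      have a2 : Rep D fun x => chi (ev p x) := Rep.chi (Submodule.subset_span ⟨p, rfl⟩)
      have a3 := (((Rep.const (1 / 2)).add ((Rep.const (1 / 2)).mul a2)).mul (a1 0)).add
        (((Rep.const (1 / 2)).add ((Rep.const (-(1 / 2))).mul a2)).mul (a1 1))
      refine (congrArg (Rep D) (funext fun x => ?_)).mp a3
      have a4 : ev p x = x.1 p := rfl
      rcases two (x.1 p) with c | c
      · rw [a4, c, chi_zero, ← c, Function.update_eq_self]
        ring
      · rw [a4, c, chi_one, ← c, Function.update_eq_self]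
        ring
  · simp only [rho_apply, D.sh_one]
    exact Finset.measurable_sum _ fun a _ =>
      (((measurable_of_countable chi).comp (hm _ a.mem)).mul_const _).const_mul _

end Vale.Agent.P089
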