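import Mathlib

/-! Random functional graphs (job ExpA). -/

namespace Vale.Agent.P089

namespace ExpAX

open Finset

variable {E : Type} [Fintype E] [DecidableEq E] {n : ℕ}

lemma avg_prod (hn : 0 < n) (s : Finset E) (w : E → Fin n → ℝ) :
    ∑ f : E → Fin n, ∏ e ∈ s, w e (f e) =
      (n : ℝ) ^ Fintype.card E * ∏ e ∈ s, (∑ v, w e v) / n := by
  have hn' : (n : ℝ) ≠ 0 := by positivity
  have h1 : ∀ f : E → Fin n, ∏ e ∈ s, w e (f e) = ∏ e, if e ∈ s then w e (f e) else 1 :=
    fun f => by rw [prod_ite_mem, univ_inter]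
  have h2 : ∏ e ∈ s, (∑ v, w e v) / n = ∏ e, if e ∈ s then (∑ v, w e v) / n else 1 := by
    rw [prod_ite_mem, univ_inter]
  rw [sum_congr rfl fun f _ => h1 f,
    ← Fintype.prod_sum fun e v => if e ∈ s then w e v else (1 : ℝ), h2, ← card_univ,
    ← prod_const, ← prod_mul_distrib]
  refine prod_congr rfl fun e _ => ?_
  split_ifs
  · field_simp
  · simp

lemma avg_fix (hn : 0 < n) {ι : Type} [Fintype ι] {e : ι → E} (he : Function.Injective e)
    (t : ι → Fin n) {P : (E → Fin n) → Prop} [DecidablePred P]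
    (hP : ∀ f, P f ↔ ∀ j, f (e j) = t j) :
    ∑ f : E → Fin n, (if P f then (1 : ℝ) else 0) =
      (n : ℝ) ^ Fintype.card E * (1 / n) ^ Fintype.card ι := by
  have h := avg_prod hn (univ.image e)
    fun x v => if v = Function.extend e t (fun _ => ⟨0, hn⟩) x then (1 : ℝ) else 0
  simp only [prod_image fun a _ b _ h => he h, he.extend_apply, sum_ite_eq', mem_univ, if_true,
    prod_const, card_univ] at h
  rw [← h]
  refine sum_congr rfl fun f _ => ?_
  rw [prod_boole]
  simp [hP]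

lemma avg_pair (hn : 0 < n) (a b : E) :
    ∑ f : E → Fin n, (if a ≠ b ∧ f a = f b then (1 : ℝ) else 0) ≤
      (n : ℝ) ^ Fintype.card E * (1 / n) := by
  by_cases hab : a = b
  · simp only [hab, ne_eq, not_true, false_and, if_false, sum_const_zero]
    positivity
  have he : Function.Injective fun j : Bool => if j then a else b := by
    intro i j
    cases i <;> cases j <;> simp [hab, Ne.symm hab]
  have h1 : ∀ f : E → Fin n, (if a ≠ b ∧ f a = f b then (1 : ℝ) else 0) =
      ∑ v, if ∀ j : Bool, f (if j then a else b) = v then (1 : ℝ) else 0 := fun f => by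
    by_cases h : f a = f b
    · simp [hab, h]
    · rw [if_neg fun h' => h h'.2]
      exact (sum_eq_zero fun v _ => if_neg fun h' => h ((h' true).trans (h' false).symm)).symm
  rw [sum_congr rfl fun f _ => h1 f, sum_comm]
  refine (sum_congr rfl fun v _ => avg_fix hn he (fun _ => v) fun _ => Iff.rfl).trans_le ?_
  have hn' : (n : ℝ) ≠ 0 := by positivity
  simp only [sum_const, card_univ, Fintype.card_fin, Fintype.card_bool, nsmul_eq_mul]
  apply le_of_eq
  field_simp

/-- the weight of a set that does not expand -/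
noncomputable def wt (T : Finset (Fin n)) (f : Fin n × Fin 95 → Fin n) : ℝ :=
  ((T.card : ℝ) / n)⁻¹ ^ (14 * T.card) *
    ∏ e ∈ T ×ˢ (univ : Finset (Fin 95)), if f e ∈ T then 1 else (T.card : ℝ) / n

lemma wt_nonneg (T : Finset (Fin n)) (f : Fin n × Fin 95 → Fin n) : 0 ≤ wt T f :=
  mul_nonneg (by positivity) (prod_nonneg fun e _ => by split_ifs <;> positivity)

lemma one_le_wt (hn : 0 < n) {T : Finset (Fin n)} (hT : 0 < T.card) (f : Fin n × Fin 95 → Fin n)
    (h : ((T ×ˢ univ).filter fun e => f e ∉ T).card ≤ 14 * T.card) : 1 ≤ wt T f := by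
  have h0 : (0 : ℝ) < (T.card : ℝ) / n := by positivity
  have h1 : (T.card : ℝ) / n ≤ 1 := by
    rw [div_le_one (by positivity)]
    exact_mod_cast (card_le_univ T).trans (Fintype.card_fin n).le
  rw [wt, prod_ite, prod_const_one, one_mul, prod_const, inv_pow, le_inv_mul_iff₀ (by positivity),
    mul_one]
  exact pow_le_pow_of_le_one h0.le h1 h

lemma num {p : ℝ} (h0 : 0 < p) (h1 : p ≤ 3 / 5) : p⁻¹ ^ 14 * (p * (2 - p)) ^ 95 ≤ p / 24 := by
  have a1 : (p * (2 - p)) ^ 15 ≤ (p * 2) ^ 15 :=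
    pow_le_pow_left₀ (by nlinarith) (by nlinarith) 15
  have a2 : (p * (2 - p)) ^ 80 ≤ (21 / 25) ^ 80 :=
    pow_le_pow_left₀ (by nlinarith) (by nlinarith) 80
  have a3 : (p * (2 - p)) ^ 95 ≤ (p * 2) ^ 15 * (21 / 25) ^ 80 := by
    rw [show 95 = 15 + 80 from rfl, pow_add]
    exact mul_le_mul a1 a2 (pow_nonneg (by nlinarith) _) (by positivity)
  refine (mul_le_mul_of_nonneg_left a3 (by positivity)).trans ?_
  have : p⁻¹ ^ 14 * ((p * 2) ^ 15 * (21 / 25) ^ 80) = p * (2 ^ 15 * (21 / 25) ^ 80) := by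
    field_simp
  rw [this, div_eq_mul_one_div p]
  exact mul_le_mul_of_nonneg_left (by norm_num) h0.le

lemma avg_wt (hn : 0 < n) {T : Finset (Fin n)} (hT : 0 < T.card) (h : 5 * T.card ≤ 3 * n) :
    ∑ f, wt T f ≤ (n : ℝ) ^ Fintype.card (Fin n × Fin 95) * ((T.card : ℝ) / n / 24) ^ T.card := by
  have hn' : (0 : ℝ) < n := by positivity
  have h0 : (0 : ℝ) < (T.card : ℝ) / n := by positivity
  have h1 : (T.card : ℝ) / n ≤ 3 / 5 := by
    rw [div_le_div_iff₀ hn' (by norm_num)]
    have : (5 : ℝ) * T.card ≤ 3 * n := by exact_mod_cast h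
    linarith
  have h2 : (∑ v : Fin n, if v ∈ T then (1 : ℝ) else (T.card : ℝ) / n) / n =
      (T.card : ℝ) / n * (2 - (T.card : ℝ) / n) := by
    have : ∀ v : Fin n, (if v ∈ T then (1 : ℝ) else (T.card : ℝ) / n) =
        (T.card : ℝ) / n + if v ∈ T then 1 - (T.card : ℝ) / n else 0 := fun v => by
      split_ifs <;> ring
    simp only [this, sum_add_distrib, sum_const, card_univ, Fintype.card_fin, sum_ite_mem,
      univ_inter, nsmul_eq_mul]
    field_simp
    ring
  simp only [wt]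
  rw [← mul_sum, avg_prod hn _ fun _ v => if v ∈ T then (1 : ℝ) else (T.card : ℝ) / n]
  simp only [h2, prod_const, card_product, card_univ, Fintype.card_fin]
  rw [mul_left_comm, pow_mul, mul_comm T.card, pow_mul, ← mul_pow]
  refine mul_le_mul_of_nonneg_left (pow_le_pow_left₀ ?_ (num h0 h1) _) (by positivity)
  exact mul_nonneg (by positivity) (pow_nonneg (by nlinarith) _)

lemma choose_le (hn : 0 < n) (k : ℕ) :
    (n.choose k : ℝ) * ((k : ℝ) / n / 24) ^ k ≤ (1 / 8) ^ k := by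
  have hn' : (n : ℝ) ≠ 0 := by positivity
  have h1 : (n.choose k : ℝ) ≤ (n : ℝ) ^ k / k.factorial := Nat.choose_le_pow_div k n
  have h2 : (k : ℝ) ^ k / k.factorial ≤ 3 ^ k := by
    refine (Real.pow_div_factorial_le_exp _ (Nat.cast_nonneg k) k).trans ?_
    rw [← Real.exp_one_pow]
    exact pow_le_pow_left₀ (Real.exp_pos 1).le (Real.exp_one_lt_d9.le.trans (by norm_num)) k
  calc _ ≤ (n : ℝ) ^ k / k.factorial * ((k : ℝ) / n / 24) ^ k := by gcongr
    _ = (k : ℝ) ^ k / k.factorial * (1 / 24) ^ k := by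
      simp only [div_pow, one_pow]
      field_simp
    _ ≤ 3 ^ k * (1 / 24) ^ k := by gcongr
    _ = _ := by
      rw [← mul_pow]
      norm_num

lemma sum_sets (hn : 0 < n) :
    ∑ T : Finset (Fin n), (if T.card = 0 then 0 else ((T.card : ℝ) / n / 24) ^ T.card) ≤ 1 / 4 := by
  have h := sum_powerset_apply_card
    (fun k : ℕ => if k = 0 then 0 else ((k : ℝ) / n / 24) ^ k) (x := (univ : Finset (Fin n)))
  rw [powerset_univ, card_univ, Fintype.card_fin, sum_range_succ'] at h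
  rw [h]
  simp only [Nat.succ_ne_zero, if_false, if_true, smul_zero, add_zero, nsmul_eq_mul]
  refine (sum_le_sum (g := fun k => 1 / 8 * (1 / 2 : ℝ) ^ k) fun k _ => ?_).trans ?_
  · refine (choose_le hn (k + 1)).trans ?_
    rw [pow_succ']
    gcongr
    norm_num
  · rw [← mul_sum]
    linarith [sum_geometric_two_le n]

/-- cyclic successor -/
def nx {m : ℕ} (j : Fin (m + 1)) : Fin (m + 1) := ⟨(j + 1) % (m + 1), Nat.mod_lt _ m.succ_pos⟩

/-- edges of a closed trail datum -/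
def ed {m : ℕ} (z : Fin (m + 1) → Fin n × Fin 95 × Bool) (j : Fin (m + 1)) : Fin n × Fin 95 :=
  (if (z j).2.2 then (z j).1 else (z (nx j)).1, (z j).2.1)

/-- targets of a closed trail datum -/
def tg {m : ℕ} (z : Fin (m + 1) → Fin n × Fin 95 × Bool) (j : Fin (m + 1)) : Fin n :=
  if (z j).2.2 then (z (nx j)).1 else (z j).1

open Classical in
/-- the closed trails of length `m + 1` -/
noncomputable def cyc (m : ℕ) (f : Fin n × Fin 95 → Fin n) :
    Finset (Fin (m + 1) → Fin n × Fin 95 × Bool) :=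
  univ.filter fun z => Function.Injective (ed z) ∧ ∀ j, f (ed z j) = tg z j

lemma avg_cyc (hn : 0 < n) (m : ℕ) : ∑ f : Fin n × Fin 95 → Fin n, ((cyc m f).card : ℝ) ≤
    (n : ℝ) ^ Fintype.card (Fin n × Fin 95) * 190 ^ (m + 1) := by
  classical
  have hn' : (n : ℝ) ≠ 0 := by positivity
  simp only [cyc, card_filter, Nat.cast_sum, Nat.cast_ite, Nat.cast_one, Nat.cast_zero]
  rw [sum_comm]
  refine (sum_le_sum (g := fun _ => (n : ℝ) ^ Fintype.card (Fin n × Fin 95) * (1 / n) ^ (m + 1))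
    fun z _ => ?_).trans (le_of_eq ?_)
  · by_cases h : Function.Injective (ed z)
    · refine (avg_fix hn h (tg z) fun f => and_iff_right h).trans_le ?_
      rw [Fintype.card_fin]
    · simp only [h, false_and, if_false, sum_const_zero]
      positivity
  · rw [sum_const, card_univ, Fintype.card_fun, Fintype.card_fin, nsmul_eq_mul, mul_left_comm,
      Nat.cast_pow, ← mul_pow]
    congr 2
    simp only [Fintype.card_prod, Fintype.card_fin, Fintype.card_bool]
    push_cast
    field_simp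

lemma geom (g : ℕ) : ∑ m ∈ range g, (190 : ℝ) ^ (m + 1) ≤ 2 * 190 ^ g := by
  induction g with
  | zero => simp
  | succ g ih =>
    rw [sum_range_succ, pow_succ]
    have : (0 : ℝ) ≤ 190 ^ g := by positivity
    linarith

lemma exists_f (g : ℕ) (h : 190 ^ (g + 1) ≤ n) : ∃ f : Fin n × Fin 95 → Fin n,
    (∑ T : Finset (Fin n), if 0 < T.card ∧ 5 * T.card ≤ 3 * n then wt T f else 0) +
      ((univ.filter fun p : (Fin n × Fin 95) × (Fin n × Fin 95) =>
        p.1 ≠ p.2 ∧ f p.1 = f p.2).card : ℝ) / (4 * n * 95 ^ 2) +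
      (∑ m ∈ range g, ((cyc m f).card : ℝ)) * 4 / n < 1 := by
  have hn : 0 < n := lt_of_lt_of_le (by positivity) h
  have hn' : (0 : ℝ) < n := by positivity
  obtain ⟨N, hN⟩ : ∃ N : ℝ, N = (n : ℝ) ^ Fintype.card (Fin n × Fin 95) := ⟨_, rfl⟩
  have hN0 : 0 < N := by rw [hN]; positivity
  have a1 : ∑ f : Fin n × Fin 95 → Fin n, ∑ T : Finset (Fin n),
      (if 0 < T.card ∧ 5 * T.card ≤ 3 * n then wt T f else 0) ≤ N * (1 / 4) := by
    rw [sum_comm]
    refine le_trans ?_ (mul_le_mul_of_nonneg_left (sum_sets hn) hN0.le)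
    rw [mul_sum]
    refine sum_le_sum fun T _ => ?_
    by_cases hT : 0 < T.card ∧ 5 * T.card ≤ 3 * n
    · simp only [hT, and_self, if_true, if_neg hT.1.ne', hN]
      exact avg_wt hn hT.1 hT.2
    · simp only [hT, if_false, sum_const_zero]
      split_ifs <;> positivity
  have a2 : ∑ f : Fin n × Fin 95 → Fin n,
      ((univ.filter fun p : (Fin n × Fin 95) × (Fin n × Fin 95) =>
        p.1 ≠ p.2 ∧ f p.1 = f p.2).card : ℝ) ≤ N * (n * 95 ^ 2) := by
    simp only [card_filter, Nat.cast_sum, Nat.cast_ite, Nat.cast_one, Nat.cast_zero]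
    rw [sum_comm]
    refine (sum_le_sum fun p _ => avg_pair hn p.1 p.2).trans (le_of_eq ?_)
    rw [← hN, sum_const, card_univ]
    simp only [Fintype.card_prod, Fintype.card_fin, nsmul_eq_mul]
    push_cast
    field_simp
  have a3 : ∑ f : Fin n × Fin 95 → Fin n, ∑ m ∈ range g, ((cyc m f).card : ℝ) ≤
      N * (n / 95) := by
    rw [sum_comm]
    refine (sum_le_sum fun m _ => avg_cyc hn m).trans ?_
    rw [← hN, ← mul_sum]
    refine mul_le_mul_of_nonneg_left ((geom g).trans ?_) hN0.le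
    have : (190 : ℝ) ^ (g + 1) ≤ n := by exact_mod_cast h
    rw [pow_succ] at this
    linarith
  obtain ⟨f, -, hf⟩ := exists_lt_of_sum_lt (s := (univ : Finset (Fin n × Fin 95 → Fin n)))
    (f := fun f => (∑ T : Finset (Fin n), if 0 < T.card ∧ 5 * T.card ≤ 3 * n then wt T f else 0) +
      ((univ.filter fun p : (Fin n × Fin 95) × (Fin n × Fin 95) =>
        p.1 ≠ p.2 ∧ f p.1 = f p.2).card : ℝ) / (4 * n * 95 ^ 2) +
      (∑ m ∈ range g, ((cyc m f).card : ℝ)) * 4 / n) (g := fun _ => 1) (by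
      rw [sum_add_distrib, sum_add_distrib, ← sum_div, ← sum_div, ← sum_mul, sum_const, card_univ,
        Fintype.card_fun, Fintype.card_fin, nsmul_eq_mul, mul_one, Nat.cast_pow, ← hN]
      have b2 := div_le_div_of_nonneg_right a2 (show (0 : ℝ) ≤ 4 * n * 95 ^ 2 by positivity)
      have b3 := div_le_div_of_nonneg_right
        (mul_le_mul_of_nonneg_right a3 (show (0 : ℝ) ≤ 4 by norm_num)) hn'.le
      have c2 : N * (n * 95 ^ 2) / (4 * n * 95 ^ 2) = N / 4 := by field_simp
      have c3 : N * (n / 95) * 4 / n = N * (4 / 95) := by field_simp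
      rw [c2] at b2
      rw [c3] at b3
      linarith)
  exact ⟨f, hf⟩

end ExpAX

theorem exists_rand : ∃ d c : ℕ, 0 < d ∧ 10 ≤ c ∧ ∀ n g : ℕ, c ^ (g + 1) ≤ n →
    ∃ (f : Fin n × Fin d → Fin n) (Del : Finset (Fin n × Fin d)),
      (∀ T : Finset (Fin n), 5 * T.card ≤ 3 * n →
        14 * T.card ≤ ((T ×ˢ Finset.univ).filter fun e => f e ∉ T).card) ∧
      (Finset.univ.filter fun p : (Fin n × Fin d) × (Fin n × Fin d) =>
        p.1 ≠ p.2 ∧ f p.1 = f p.2).card ≤ 4 * n * d ^ 2 ∧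
      4 * Del.card ≤ n ∧
      ∀ (k : ℕ) (y : ℕ → Fin n) (e : ℕ → Fin n × Fin d), 0 < k → k < g → y k = y 0 →
        (∀ i < k, ∀ j < k, e i = e j → i = j) →
        (∀ i < k, ((e i).1 = y i ∧ f (e i) = y (i + 1)) ∨ ((e i).1 = y (i + 1) ∧ f (e i) = y i)) →
        ∃ i < k, e i ∈ Del := by
  classical
  refine ⟨95, 190, by norm_num, by norm_num, fun n g h => ?_⟩
  have hn : 0 < n := lt_of_lt_of_le (by positivity) h
  have hn' : (0 : ℝ) < n := by positivity
  obtain ⟨f, hf⟩ := ExpAX.exists_f g h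
  have t0 : ∀ T : Finset (Fin n),
      0 ≤ if 0 < T.card ∧ 5 * T.card ≤ 3 * n then ExpAX.wt T f else 0 := fun T => by
    split_ifs
    exacts [ExpAX.wt_nonneg T f, le_rfl]
  have p1 := Finset.sum_nonneg (s := Finset.univ) fun T _ => t0 T
  have p2 : (0 : ℝ) ≤ ((Finset.univ.filter fun p : (Fin n × Fin 95) × (Fin n × Fin 95) =>
      p.1 ≠ p.2 ∧ f p.1 = f p.2).card : ℝ) / (4 * n * 95 ^ 2) := by positivity
  have p3 : (0 : ℝ) ≤ (∑ m ∈ Finset.range g, ((ExpAX.cyc m f).card : ℝ)) * 4 / n := by positivity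
  refine ⟨f, (Finset.range g).biUnion fun m => (ExpAX.cyc m f).image fun z => ExpAX.ed z 0,
    fun T hT => ?_, ?_, ?_, fun k y e hk hkg hy hinj he => ?_⟩
  · rcases Nat.eq_zero_or_pos T.card with h0 | h0
    · omega
    by_contra hlt
    have h1 := ExpAX.one_le_wt hn h0 f (not_le.1 hlt).le
    have h2 := Finset.single_le_sum (fun T _ => t0 T) (Finset.mem_univ T)
    rw [if_pos ⟨h0, hT⟩] at h2
    linarith
  · have h1 : ((Finset.univ.filter fun p : (Fin n × Fin 95) × (Fin n × Fin 95) =>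
        p.1 ≠ p.2 ∧ f p.1 = f p.2).card : ℝ) / (4 * n * 95 ^ 2) ≤ 1 := by linarith
    rw [div_le_one (by positivity)] at h1
    exact_mod_cast h1
  · have h1 : (∑ m ∈ Finset.range g, ((ExpAX.cyc m f).card : ℝ)) * 4 / n ≤ 1 := by linarith
    rw [div_le_one hn'] at h1
    have h2 : (∑ m ∈ Finset.range g, (ExpAX.cyc m f).card) * 4 ≤ n := by exact_mod_cast h1
    have h3 := (Finset.card_biUnion_le (s := Finset.range g)
      (t := fun m => (ExpAX.cyc m f).image fun z => ExpAX.ed z 0)).trans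
      (Finset.sum_le_sum fun m _ => Finset.card_image_le)
    omega
  · obtain ⟨m, rfl⟩ : ∃ m, k = m + 1 := ⟨k - 1, by omega⟩
    let z : Fin (m + 1) → Fin n × Fin 95 × Bool :=
      fun j => (y j, (e j).2, decide ((e j).1 = y j ∧ f (e j) = y (j + 1)))
    have h1 : ∀ j : Fin (m + 1), y (ExpAX.nx j) = y (j + 1) := fun j => by
      change y ((j + 1) % (m + 1)) = _
      rcases Nat.lt_or_ge (j + 1) (m + 1) with h2 | h2
      · rw [Nat.mod_eq_of_lt h2]
      · rw [show (j : ℕ) + 1 = m + 1 by omega, Nat.mod_self, hy]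
    have h2 : ∀ j : Fin (m + 1), ExpAX.ed z j = e j ∧ f (e j) = ExpAX.tg z j := fun j => by
      simp only [ExpAX.ed, ExpAX.tg, z, decide_eq_true_eq, h1]
      split_ifs with h3
      · exact ⟨Prod.ext h3.1.symm rfl, h3.2⟩
      · have h4 := (he j j.2).resolve_left h3
        exact ⟨Prod.ext h4.1.symm rfl, h4.2⟩
    refine ⟨0, hk, Finset.mem_biUnion.2 ⟨m, Finset.mem_range.2 (by omega),
      Finset.mem_image.2 ⟨z, ?_, (h2 0).1⟩⟩⟩
    simp only [ExpAX.cyc, Finset.mem_filter, Finset.mem_univ, true_and]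
    refine ⟨fun a b hab => Fin.ext (hinj a a.2 b b.2 ?_), fun j => by rw [(h2 j).1, (h2 j).2]⟩
    rw [← (h2 a).1, hab, (h2 b).1]

end Vale.Agent.P089
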