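import Mathlib

/-! Labelled graphs with codes, and their small cancellation groups: definitions. -/

namespace Vale.Agent.P089

open Classical

/-- the inverse letter -/
def iv {S : Type} (a : S × Bool) : S × Bool := (a.1, !a.2)

@[simp] lemma iv_iv {S : Type} (a : S × Bool) : iv (iv a) = a := by simp [iv]

lemma iv_ne {S : Type} (a : S × Bool) : iv a ≠ a := by simp [iv, Prod.ext_iff]

/-- a folded labelled graph -/
structure Gp (S V : Type) where
  st : V → S × Bool → V → Prop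
  st_fun : ∀ {v a v' v''}, st v a v' → st v a v'' → v' = v''
  st_rev : ∀ {v a v'}, st v a v' → st v' (iv a) v

/-- reduced words -/
def Rd {S : Type} (s : ℕ → S × Bool) (n : ℕ) : Prop := ∀ i, i + 1 < n → s (i + 1) ≠ iv (s i)

namespace Gp

variable {S V : Type} (Γ : Gp S V)

/-- walks -/
def Wk (y : ℕ → V) (s : ℕ → S × Bool) (n : ℕ) : Prop := ∀ i < n, Γ.st (y i) (s i) (y (i + 1))

/-- the letters at a vertex -/
noncomputable def out [Fintype S] (v : V) : Finset (S × Bool) :=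
  Finset.univ.filter fun a => ∃ v', Γ.st v a v'

lemma mem_out [Fintype S] {v : V} {a : S × Bool} : a ∈ Γ.out v ↔ ∃ v', Γ.st v a v' := by
  simp [out]

/-- reduced closed walks at `v` have length at least `g` -/
def Girth (v : V) (g : ℕ) : Prop :=
  ∀ y s n, 0 < n → Γ.Wk y s n → Rd s n → y 0 = v → y n = v → g ≤ n

/-- darts leaving a set -/
noncomputable def bd [Fintype S] (T : Finset V) : Finset (V × (S × Bool)) :=
  (T ×ˢ Finset.univ).filter fun p => ∃ v', Γ.st p.1 p.2 v' ∧ v' ∉ T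

/-- the distance -/
noncomputable def dist (v v' : V) : ℕ := sInf {n | ∃ y s, Γ.Wk y s n ∧ y 0 = v ∧ y n = v'}

/-- Lipschitz functions -/
def Lip (h : V → ℤ) : Prop := ∀ u a v, Γ.st u a v → |h v - h u| ≤ 1

end Gp

/-- a sequence of expanders with a small cancellation labelling and linear codes -/
structure Fam (S V : Type) [Fintype S] extends Gp S V where
  lev : V → ℕ
  lev_st : ∀ {v a v'}, st v a v' → lev v' = lev v
  lv : ℕ → Finset V
  mem_lv : ∀ {v m}, v ∈ lv m ↔ lev v = m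
  D : ℕ
  deg : ∀ v, 7 ≤ (toGp.out v).card ∧ (toGp.out v).card ≤ D
  tag : S × Bool → ℕ
  tag_eq : ∀ v, ∀ a ∈ toGp.out v, tag a = (toGp.out v).card
  ell : ℕ → ℕ
  t : ℕ → ℕ
  ell_gt : ∀ m, m < ell m
  piece : ∀ y y' s, toGp.Wk y s (ell (lev (y 0)) + 1) → toGp.Wk y' s (ell (lev (y 0)) + 1) →
    Rd s (ell (lev (y 0)) + 1) → y 0 = y' 0
  girth : ∀ v, toGp.Girth v (100 * (ell (lev v) + 1) + 4 * t (lev v))
  big : ∀ m, 4 * (D + 1) ^ (2 * ell m + 3) ≤ 2 ^ t m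
  wide : ∀ m, (D + 1) ^ (2 * ell m) < (lv m).card
  expand : ∀ m, ∀ T ⊆ lv m, 2 * T.card ≤ (lv m).card → T.card ≤ (toGp.bd T).card
  grow : ∀ m, (lv m).card + 2 ≤ (lv (m + 1)).card
  code : ℕ → Submodule (ZMod 2) (V × (S × Bool) → ZMod 2)
  code_supp : ∀ m, ∀ c ∈ code m, ∀ v a, lev v ≠ m → c (v, a) = 0
  pat_mem : ∀ m, (fun p => if lev p.1 = m ∧ p.2 ∈ toGp.out p.1 then 1 else 0) ∈ code m
  code_card : ∀ m, Nat.card (code m) = 2 ^ ((lv m).card + 1)
  code_dist : ∀ m, ∀ c ∈ code m, ∀ T ⊆ lv m, (lv m).card ≤ 2 * T.card →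
    (∀ v ∈ T, ∀ a, c (v, a) = 0) → c = 0
  code_onto : ∀ m, ∀ T ⊆ lv m, T.card ≤ (D + 1) ^ (2 * ell m) →
    ∀ f : V × (S × Bool) → ZMod 2, ∃ c ∈ code m, ∀ v ∈ T, ∀ a, c (v, a) = f (v, a)

variable {S V : Type} [Fintype S]

/-- the pattern -/
noncomputable def Fam.pat (F : Fam S V) (m : ℕ) : V × (S × Bool) → ZMod 2 :=
  fun p => if F.lev p.1 = m ∧ p.2 ∈ F.out p.1 then 1 else 0

/-- a group containing the levels in `ω`, with the conclusion of Greendlinger's lemma -/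
structure Geo (F : Fam S V) (ω : Set ℕ) (G : Type) [Group G] where
  gen : S × Bool → G
  gen_iv : ∀ a, gen (iv a) = (gen a)⁻¹
  θ : V → G
  θ_st : ∀ {v a v'}, F.lev v ∈ ω → F.st v a v' → θ v' = θ v * gen a
  gl : ∀ (P : ℕ → G) (s : ℕ → S × Bool) (n : ℕ), 0 < n → (∀ i < n, P (i + 1) = P i * gen (s i)) →
    Rd s n → P n = P 0 → ∃ (g : G) (m : ℕ), m ∈ ω ∧ ∃ (E Bk : Finset ℕ) (u v : ℕ → V),
      Bk.card ≤ 5 ∧
      (∀ i ∈ E, i < n ∧ F.lev (u i) = m ∧ F.st (u i) (s i) (v i) ∧ P i = g * θ (u i)) ∧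
      (∀ i ∈ E, i ∉ Bk → i + 1 ∈ E ∧ u (i + 1) = v i) ∧
      100 * (F.ell m + 1) ≤ E.card + 5 * F.ell m ∧
      ∀ h, F.Lip h → |∑ i ∈ E, (h (v i) - h (u i))| ≤ 5 * F.ell m

namespace Geo

variable {F : Fam S V} {ω : Set ℕ} {G : Type} [Group G] (Ω : Geo F ω G)

/-- a point on a copy -/
def In (R : G × ℕ) (p : G) : Prop := R.2 ∈ ω ∧ ∃ v, F.lev v = R.2 ∧ p = R.1 * Ω.θ v

/-- an edge on a copy -/
def On (R : G × ℕ) (p : G) (a : S × Bool) : Prop :=
  R.2 ∈ ω ∧ ∃ u v, F.lev u = R.2 ∧ F.st u a v ∧ p = R.1 * Ω.θ u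

/-- walks made of long geodesic runs in distinct copies and of free steps -/
structure W (P : ℕ → G) (s : ℕ → S × Bool) (r : ℕ → Option (G × ℕ)) (n : ℕ) : Prop where
  step : ∀ i < n, P (i + 1) = P i * Ω.gen (s i)
  red : Rd s n
  mem : ∀ i < n, ∀ R, r i = some R → Ω.On R (P i) (s i)
  itv : ∀ i j k R, i ≤ j → j ≤ k → k < n → r i = some R → r k = some R → r j = some R
  geo : ∀ R : G × ℕ, ∃ h, F.Lip h ∧ ∀ i < n, r i = some R → ∀ u v, F.lev u = R.2 →
    F.st u (s i) v → P i = R.1 * Ω.θ u → h v = h u + 1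
  long : ∀ k < n, ∀ R, r k = some R → r 0 = some R ∨ r (n - 1) = some R ∨
    ∃ i, i + F.ell R.2 < n ∧ ∀ j ≤ F.ell R.2, r (i + j) = some R
  free : ∀ i (R : G × ℕ), i + 4 * F.ell R.2 < n →
    ¬∀ k ≤ 4 * F.ell R.2, r (i + k) = none ∧ Ω.On R (P (i + k)) (s (i + k))

/-- walks that can be continued -/
structure St (P : ℕ → G) (s : ℕ → S × Bool) (r : ℕ → Option (G × ℕ)) (n : ℕ) : Prop where
  w : Ω.W P s r n
  last : ∀ j < n, ∀ R, r j = some R → (∀ k, j < k → k < n → r k = none) →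
    2 * F.ell R.2 ≤ j ∧ ∀ k ≤ 2 * F.ell R.2, r (j - k) = some R
  ex : ∀ j R, j + 1 < n → r j = some R → (∀ k, j < k → k < n → r k = none) →
    ¬Ω.On R (P (j + 1)) (s (j + 1))

/-- the copies used by a walk -/
def asg (r : ℕ → Option (G × ℕ)) (n : ℕ) : Set (G × ℕ) := {R | ∃ i < n, r i = some R}

/-- restriction of a configuration to a copy -/
noncomputable def res (x : G × (S × Bool) → ZMod 2) (R : G × ℕ) : V × (S × Bool) → ZMod 2 :=
  fun p => if F.lev p.1 = R.2 then x (R.1 * Ω.θ p.1, p.2) else 0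

lemma res_add (x y : G × (S × Bool) → ZMod 2) (R : G × ℕ) :
    Ω.res (x + y) R = Ω.res x R + Ω.res y R := by
  funext p
  simp only [res, Pi.add_apply]
  split_ifs <;> simp

lemma res_neg (x : G × (S × Bool) → ZMod 2) (R : G × ℕ) : Ω.res (-x) R = -Ω.res x R := by
  funext p
  simp only [res, Pi.neg_apply]
  split_ifs <;> simp

lemma res_zero (R : G × ℕ) : Ω.res 0 R = 0 := by
  funext p
  simp [res]

/-- the group shift -/
def XX : AddSubgroup (G × (S × Bool) → ZMod 2) where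
  carrier := {x | ∀ R : G × ℕ, R.2 ∈ ω → Ω.res x R ∈ F.code R.2}
  add_mem' hx hy R hR := Ω.res_add _ _ R ▸ (F.code R.2).add_mem (hx R hR) (hy R hR)
  zero_mem' R _ := Ω.res_zero R ▸ (F.code R.2).zero_mem
  neg_mem' hx R hR := Ω.res_neg _ R ▸ (F.code R.2).neg_mem (hx R hR)

/-- the letters chosen at a point -/
noncomputable def want (x : G × (S × Bool) → ZMod 2) (g : G) : Finset (S × Bool) :=
  Finset.univ.filter fun a => x (g, a) = 1

variable (F) in
/-- valid points -/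
def valid (x : G × (S × Bool) → ZMod 2) (g : G) : Prop :=
  7 ≤ (want x g).card ∧ (want x g).card ≤ F.D ∧ ∀ a ∈ want x g, F.tag a = (want x g).card

/-- open edges -/
def opn (x : G × (S × Bool) → ZMod 2) (g : G) (a : S × Bool) : Prop :=
  valid F x g ∧ valid F x (g * Ω.gen a) ∧ a ∈ want x g ∧ iv a ∈ want x (g * Ω.gen a)

/-- defects -/
def dfc (x : G × (S × Bool) → ZMod 2) (g : G) : Prop :=
  ¬valid F x g ∨ ∃ a ∈ want x g, ¬Ω.opn x g a

/-- copies that carry the pattern -/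
def full (x : G × (S × Bool) → ZMod 2) (R : G × ℕ) : Prop :=
  R.2 ∈ ω ∧ ∀ v, F.lev v = R.2 → want x (R.1 * Ω.θ v) = F.out v

/-- the points of a copy -/
noncomputable def blk (R : G × ℕ) : Finset G := (F.lv R.2).image fun v => R.1 * Ω.θ v

/-- finite sets without small exits -/
structure Tight (x : G × (S × Bool) → ZMod 2) (B : Finset G) : Prop where
  ne : B.Nonempty
  deg : ∀ g ∈ B, 4 ≤ (Finset.univ.filter fun a => Ω.opn x g a ∧ g * Ω.gen a ∈ B).card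
  ex : ∀ R : G × ℕ, R.2 ∈ ω → ((F.lv R.2).filter fun v => R.1 * Ω.θ v ∈ B).card ≤
    3 * (F.D + 1) ^ 2 * ((F.lv R.2).filter fun v => R.1 * Ω.θ v ∈ B ∧
      ∃ a, a ∉ F.out v ∧ R.1 * Ω.θ v * Ω.gen a ∈ B ∧ Ω.opn x (R.1 * Ω.θ v) a).card

end Geo

end Vale.Agent.P089
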