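import Vale.Agent.P089.ExpA
import Vale.Agent.P089.Fam

/-! Expanders of large girth (job ExpB). -/

namespace Vale.Agent.P089

namespace ExpBX

open Finset

variable {n d : ℕ} (f : Fin n × Fin d → Fin n)

lemma prune (X : Finset (Fin n × Fin d)) (h1 : ∀ T : Finset (Fin n), 5 * T.card ≤ 3 * n →
      14 * T.card ≤ ((T ×ˢ univ).filter fun e => f e ∉ T).card) (h2 : 2 * X.card ≤ n) :
    ∃ W : Finset (Fin n), 14 * W.card ≤ n ∧ ∀ T : Finset (Fin n), Disjoint T W → 2 * T.card ≤ n →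
      7 * T.card ≤ ((T ×ˢ univ).filter fun e => e ∉ X ∧ f e ∉ T ∧ f e ∉ W).card := by
  obtain ⟨W, hW, hm⟩ := exists_max_image (univ.filter fun W : Finset (Fin n) => 5 * W.card ≤ 3 * n ∧
    ((W ×ˢ univ).filter fun e => e ∉ X ∧ f e ∉ W).card ≤ 7 * W.card) card ⟨∅, by simp⟩
  obtain ⟨w1, w2⟩ := (mem_filter.1 hW).2
  have w3 : ((W ×ˢ univ).filter fun e => f e ∉ W).card ≤
      ((W ×ˢ univ).filter fun e => e ∉ X ∧ f e ∉ W).card + X.card := by
    refine (card_le_card fun e he => ?_).trans (card_union_le _ _)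
    rw [mem_filter] at he
    by_cases h : e ∈ X
    · exact mem_union_right _ h
    · exact mem_union_left _ (mem_filter.2 ⟨he.1, h, he.2⟩)
  have w4 := h1 W w1
  refine ⟨W, by omega, fun T hT h3 => ?_⟩
  rcases T.eq_empty_or_nonempty with rfl | hne
  · simp
  have h4 := card_union_of_disjoint hT
  have h5 := hne.card_pos
  have h6 : (((T ∪ W) ×ˢ univ).filter fun e => e ∉ X ∧ f e ∉ T ∪ W).card ≤
      ((T ×ˢ univ).filter fun e => e ∉ X ∧ f e ∉ T ∧ f e ∉ W).card +
      ((W ×ˢ univ).filter fun e => e ∉ X ∧ f e ∉ W).card := by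
    refine (card_le_card fun e he => ?_).trans (card_union_le _ _)
    simp only [mem_filter, mem_product, mem_union, mem_univ, and_true, not_or] at he ⊢
    tauto
  by_contra hc
  have := hm (T ∪ W) (mem_filter.2 ⟨mem_univ _, by omega, by omega⟩)
  omega

lemma heavy (h : (univ.filter fun p : (Fin n × Fin d) × (Fin n × Fin d) =>
      p.1 ≠ p.2 ∧ f p.1 = f p.2).card ≤ 4 * n * d ^ 2) (hd : 0 < d) :
    4 * (univ.filter fun e => 16 * d ^ 2 < (univ.filter fun e' => f e' = f e).card).card ≤ n := by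
  have h1 := mul_card_image_le_card_of_maps_to
    (s := univ.filter fun p : (Fin n × Fin d) × (Fin n × Fin d) =>
      (p.1 ≠ p.2 ∧ f p.1 = f p.2) ∧ 16 * d ^ 2 < (univ.filter fun e' => f e' = f p.1).card)
    (t := univ.filter fun e => 16 * d ^ 2 < (univ.filter fun e' => f e' = f e).card)
    (f := Prod.fst) (fun p hp => mem_filter.2 ⟨mem_univ _, (mem_filter.1 hp).2.2⟩) (16 * d ^ 2)
    fun e he => by
      have h2 := (mem_filter.1 he).2
      refine (Nat.le_sub_one_of_lt h2).trans ((card_erase_of_mem (a := e) (by simp)).ge.trans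
        (card_le_card_of_injOn (fun e' => (e, e')) (fun e' he' => ?_) fun _ _ _ _ h =>
          (Prod.ext_iff.1 h).2))
      simp only [coe_erase, coe_filter, mem_univ, true_and, Set.mem_diff, Set.mem_setOf_eq,
        Set.mem_singleton_iff, mem_filter] at he' ⊢
      exact ⟨⟨⟨fun h => he'.2 h.symm, he'.1.symm⟩, h2⟩, trivial⟩
  have h2 := h1.trans ((card_le_card (monotone_filter_right _ fun _ _ h => h.1)).trans h)
  refine Nat.le_of_mul_le_mul_right (c := 4 * d ^ 2) ?_ (by positivity)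
  linarith

/-- the position of an edge among the edges with the same target -/
noncomputable def rk (e : Fin n × Fin d) : ℕ := (univ.filter fun e' => f e' = f e).toList.idxOf e

lemma rk_lt (e : Fin n × Fin d) : rk f e < (univ.filter fun e' => f e' = f e).card := by
  rw [← length_toList]
  exact List.idxOf_lt_length_iff.2 (by simp)

lemma rk_inj {e e' : Fin n × Fin d} (h : f e = f e') (h' : rk f e = rk f e') : e = e' := by
  rw [rk, rk, ← h] at h'
  exact (List.idxOf_inj (by simp)).1 h'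

variable (X : Finset (Fin n × Fin d)) (W : Finset (Fin n)) (D : ℕ)

/-- forward edges -/
def B (v : {v // v ∉ W}) (a : Fin d × Fin D) (v' : {v // v ∉ W}) : Prop :=
  (v.1, a.1) ∉ X ∧ f (v.1, a.1) = v'.1 ∧ rk f (v.1, a.1) = a.2

/-- the labelled graph -/
def gp : Gp (Fin d × Fin D) {v // v ∉ W} where
  st v a v' := if a.2 = true then B f X W D v a.1 v' else B f X W D v' a.1 v
  st_fun := by
    rintro v ⟨a, _ | _⟩ v' v'' h h'
    · exact Subtype.ext (Prod.ext_iff.1 (rk_inj f (h.2.1.trans h'.2.1.symm)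
        (h.2.2.trans h'.2.2.symm))).1
    · exact Subtype.ext (h.2.1.symm.trans h'.2.1)
  st_rev := by
    rintro v ⟨a, _ | _⟩ v' h <;> exact h

lemma girth {g : ℕ} (H : ∀ (k : ℕ) (y : ℕ → Fin n) (e : ℕ → Fin n × Fin d), 0 < k → k < g →
      y k = y 0 → (∀ i < k, ∀ j < k, e i = e j → i = j) →
      (∀ i < k, ((e i).1 = y i ∧ f (e i) = y (i + 1)) ∨ ((e i).1 = y (i + 1) ∧ f (e i) = y i)) →
      ∃ i < k, e i ∈ X) (v : {v // v ∉ W}) : (gp f X W D).Girth v g := by
  classical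
  intro y s m hm hw hr h0 h1
  by_contra hc
  have hex : ∃ k, 0 < k ∧ ∃ i, i + k ≤ m ∧ y (i + k) = y i := ⟨m, hm, 0, by simp, by simp [h0, h1]⟩
  obtain ⟨k0, i, k1, k2⟩ := Nat.find_spec hex
  have hmin : ∀ a b, a < b → b ≤ m → b - a < Nat.find hex → y a ≠ y b := fun a b h3 h4 h5 h6 =>
    Nat.find_min hex h5 ⟨by omega, a, by omega, by rw [Nat.add_sub_cancel' h3.le, h6]⟩
  generalize Nat.find hex = k at *
  obtain ⟨e, he⟩ : ∃ e : ℕ → Fin n × Fin d, ∀ t, e t =
      (if (s t).2 = true then (y t).1 else (y (t + 1)).1, (s t).1.1) := ⟨_, fun _ => rfl⟩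
  have key : ∀ t < m, e t ∉ X ∧ rk f (e t) = (s t).1.2 ∧ (e t).2 = (s t).1.1 ∧
      (((s t).2 = true ∧ (e t).1 = y t ∧ f (e t) = y (t + 1)) ∨
        ((s t).2 = false ∧ (e t).1 = y (t + 1) ∧ f (e t) = y t)) := by
    intro t ht
    have h2 := hw t ht
    rw [he]
    by_cases c : (s t).2 = true
    · simp only [gp, if_pos c] at h2 ⊢
      exact ⟨h2.1, h2.2.2, trivial, Or.inl ⟨c, trivial, h2.2.1⟩⟩
    · simp only [gp, if_neg c] at h2 ⊢
      exact ⟨h2.1, h2.2.2, trivial, Or.inr ⟨by simpa using c, trivial, h2.2.1⟩⟩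
  have inj : ∀ a b, a < b → b < m → b - a < k → e a ≠ e b := by
    intro a b h2 h3 h4 h5
    obtain ⟨-, a1, a2, a3⟩ := key a (by omega)
    obtain ⟨-, b1, b2, b3⟩ := key b h3
    rw [h5] at a1 a2 a3
    have h6 : (s a).1 = (s b).1 := Prod.ext (a2.symm.trans b2) (Fin.ext (a1.symm.trans b1))
    have h7 : y (a + 1) = y b → (s b).2 = !(s a).2 → False := fun h h' => by
      by_cases c : b = a + 1
      · exact hr a (by omega) (c ▸ Prod.ext h6.symm h')
      · exact hmin (a + 1) b (by omega) h3.le (by omega) h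
    rcases a3 with ⟨a3, a4, a5⟩ | ⟨a3, a4, a5⟩ <;> rcases b3 with ⟨b3, b4, b5⟩ | ⟨b3, b4, b5⟩
    · exact hmin a b h2 h3.le h4 (Subtype.ext (a4.symm.trans b4))
    · exact h7 (Subtype.ext (a5.symm.trans b5)) (by rw [a3, b3]; rfl)
    · exact h7 (Subtype.ext (a4.symm.trans b4)) (by rw [a3, b3]; rfl)
    · exact hmin a b h2 h3.le h4 (Subtype.ext (a5.symm.trans b5))
  obtain ⟨t, ht, h2⟩ := H k (fun t => (y (i + t)).1) (fun t => e (i + t)) k0 (by omega)
    (congrArg Subtype.val k2) (fun a ha b hb h => by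
      rcases lt_trichotomy a b with c | c | c
      · exact absurd h (inj _ _ (by omega) (by omega) (by omega))
      · exact c
      · exact absurd h.symm (inj _ _ (by omega) (by omega) (by omega)))
    fun t ht => (key (i + t) (by omega)).2.2.2.imp And.right And.right
  exact (key (i + t) (by omega)).1 h2

lemma bd_ge (hX : ∀ e ∉ X, rk f e < D) (T : Finset {v // v ∉ W}) :
    ((T.map (Function.Embedding.subtype _) ×ˢ univ).filter fun e =>
      e ∉ X ∧ f e ∉ T.map (Function.Embedding.subtype _) ∧ f e ∉ W).card ≤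
      ((gp f X W D).bd T).card := by
  refine card_le_card_of_surjOn (fun p => (p.1.1, p.2.1.1)) fun e he => ?_
  obtain ⟨h1, h2, h3, h4⟩ := mem_filter.1 (mem_coe.1 he)
  obtain ⟨v, hv, h5⟩ := mem_map.1 (mem_product.1 h1).1
  obtain ⟨u, i⟩ := e
  obtain rfl : v.1 = u := h5
  refine ⟨(v, ((i, ⟨_, hX _ h2⟩), true)), mem_coe.2 ?_, rfl⟩
  simp only [Gp.bd, mem_filter, mem_product, mem_univ, and_true]
  exact ⟨hv, ⟨_, h4⟩, ⟨h2, rfl, rfl⟩, fun h => h3 (mem_map.2 ⟨_, h, rfl⟩)⟩

end ExpBX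

open Finset ExpBX in
theorem exists_expander : ∃ (S : Type) (_ : Fintype S) (c : ℕ), ∀ n g : ℕ, c ^ (g + 1) ≤ n →
    ∃ (V : Type) (_ : Fintype V) (Γ : Gp S V), n ≤ 2 * Fintype.card V ∧ Fintype.card V ≤ n ∧
      (∀ v, 7 ≤ (Γ.out v).card) ∧ (∀ v, Γ.Girth v g) ∧
      ∀ T : Finset V, 2 * T.card ≤ Fintype.card V → T.card ≤ (Γ.bd T).card := by
  obtain ⟨d, c, hd, hc, H⟩ := exists_rand
  refine ⟨Fin d × Fin (16 * d ^ 2), inferInstance, c, fun n g hn => ?_⟩
  obtain ⟨f, Del, h1, h2, h3, h4⟩ := H n g hn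
  have h5 := heavy f h2 hd
  obtain ⟨X, hX⟩ : ∃ X, X = Del ∪ univ.filter fun e =>
    16 * d ^ 2 < (univ.filter fun e' => f e' = f e).card := ⟨_, rfl⟩
  have h6 := card_union_le Del (univ.filter fun e =>
    16 * d ^ 2 < (univ.filter fun e' => f e' = f e).card)
  rw [← hX] at h6
  obtain ⟨W, w1, w2⟩ := prune f X h1 (by omega)
  have hV : Fintype.card {v // v ∉ W} = n - W.card := by
    rw [Fintype.card_subtype_compl, Fintype.card_fin, Fintype.card_coe]
  have key : ∀ T : Finset {v // v ∉ W}, 2 * T.card ≤ n →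
      7 * T.card ≤ ((gp f X W (16 * d ^ 2)).bd T).card := fun T hT => by
    have h7 := w2 (T.map (Function.Embedding.subtype _)) (disjoint_left.2 fun u hu => by
      obtain ⟨v, -, rfl⟩ := mem_map.1 hu
      exact v.2) (by rwa [card_map])
    rw [card_map] at h7
    exact h7.trans (bd_ge f X W _ (fun e he => (rk_lt f e).trans_le (not_lt.1 fun h =>
      he (hX ▸ mem_union_right _ (mem_filter.2 ⟨mem_univ _, h⟩)))) T)
  have h8 : c ≤ n := (Nat.le_self_pow (by omega) c).trans hn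
  refine ⟨{v // v ∉ W}, inferInstance, gp f X W _, by omega, by omega, fun v => ?_,
    girth f X W _ fun k y e a1 a2 a3 a4 a5 => ?_, fun T hT => ?_⟩
  · have h7 := key {v} (by rw [card_singleton]; omega)
    rw [card_singleton] at h7
    refine h7.trans (card_le_card_of_injOn Prod.snd (fun p hp => ?_) fun p hp q hq h => ?_)
    · simp only [Gp.bd, coe_filter, mem_product, mem_singleton, Set.mem_setOf_eq] at hp
      obtain ⟨⟨rfl, -⟩, v', h, -⟩ := hp
      exact mem_coe.2 ((Gp.mem_out _).2 ⟨v', h⟩)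
    · simp only [Gp.bd, coe_filter, mem_product, mem_singleton, Set.mem_setOf_eq] at hp hq
      exact Prod.ext (hp.1.1.trans hq.1.1.symm) h
  · obtain ⟨i, hi, h⟩ := h4 k y e a1 a2 a3 a4 a5
    exact ⟨i, hi, hX ▸ mem_union_left _ h⟩
  · have := key T (by omega)
    omega

end Vale.Agent.P089
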