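import Vale.Agent.P089.Chain

/-! Codewords extend; copies that carry the pattern (job Ext). -/

namespace Vale.Agent.P089.Geo

variable {S V : Type} [Fintype S] {F : Fam S V} {ω : Set ℕ} {G : Type} [Group G]
  (Ω : Geo F ω G) {x : G × (S × Bool) → ZMod 2} {R R' : G × ℕ}

namespace ExtX

open Classical

lemma cont_res (R : G × ℕ) : Continuous fun x => Ω.res x R := by
  refine continuous_pi fun p => ?_
  unfold res
  split_ifs
  · exact continuous_apply _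
  · exact continuous_const

lemma closed_code (R : G × ℕ) : IsClosed {x | R.2 ∈ ω → Ω.res x R ∈ F.code R.2} := by
  by_cases h : R.2 ∈ ω
  · have : Finite (F.code R.2) := Nat.finite_of_card_ne_zero (by rw [F.code_card]; positivity)
    simp only [h, true_imp_iff]
    exact (Set.toFinite (F.code R.2 : Set (V × (S × Bool) → ZMod 2))).isClosed.preimage
      (cont_res Ω R)
  · simp [h]

lemma patch (x : G × (S × Bool) → ZMod 2) (hR : R.2 ∈ ω) (c : V × (S × Bool) → ZMod 2) :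
    ∃ x' : G × (S × Bool) → ZMod 2, (∀ v a, F.lev v = R.2 → x' (R.1 * Ω.θ v, a) = c (v, a)) ∧
      ∀ g a, ¬Ω.In R g → x' (g, a) = x (g, a) := by
  refine ⟨fun p => if h : Ω.In R p.1 then c (h.2.choose, p.2) else x p, fun v a hv => ?_,
    fun g a hg => dif_neg hg⟩
  have h : Ω.In R (R.1 * Ω.θ v) := ⟨hR, v, hv, rfl⟩
  have h1 := h.2.choose_spec
  have h2 : v = h.2.choose :=
    Ω.θ_inj (hv ▸ hR) (h1.1.trans hv.symm) (mul_left_cancel h1.2)
  simp only [dif_pos h, ← h2]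

lemma res_eq {c : V × (S × Bool) → ZMod 2} (hc : c ∈ F.code R.2)
    (h : ∀ v a, F.lev v = R.2 → x (R.1 * Ω.θ v, a) = c (v, a)) : Ω.res x R = c := by
  funext ⟨v, a⟩
  unfold res
  split_ifs with hv
  · exact h v a hv
  · exact (F.code_supp _ c hc v a hv).symm

lemma fin_ext (hR : R.2 ∈ ω) {c : V × (S × Bool) → ZMod 2} (hc : c ∈ F.code R.2) (n : ℕ) :
    ∀ 𝓕 : Finset (G × ℕ), 𝓕.card = n → (∀ L ∈ 𝓕, L.2 ∈ ω) → R ∈ 𝓕 →
      ∃ x, Ω.res x R = c ∧ ∀ L ∈ 𝓕, Ω.res x L ∈ F.code L.2 := by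
  induction n with
  | zero =>
    intro 𝓕 h _ h1
    rw [Finset.card_eq_zero.1 h] at h1
    simp at h1
  | succ n ih =>
    intro 𝓕 h hω h1
    by_cases h2 : ∃ L ∈ 𝓕, L ≠ R
    · obtain ⟨R1, h3, h4⟩ := h2
      obtain ⟨L, hL, hLR, hcard⟩ := Ω.exists_leaf 𝓕 hω h1 h3 h4
      obtain ⟨x, hx, hx'⟩ := ih (𝓕.erase L) (by rw [Finset.card_erase_of_mem hL, h]; rfl)
        (fun L' h' => hω L' (Finset.mem_of_mem_erase h')) (Finset.mem_erase.2 ⟨hLR.symm, h1⟩)
      obtain ⟨c', hc', hc''⟩ := F.code_onto L.2 (Ω.ovl 𝓕 L) (Finset.filter_subset _ _) hcard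
        (Ω.res x L)
      obtain ⟨x', p1, p2⟩ := patch Ω x (hω L hL) c'
      have key : ∀ L' ∈ 𝓕, L' ≠ L → Ω.res x' L' = Ω.res x L' := fun L' hL' hne => by
        funext ⟨v, a⟩
        unfold res
        split_ifs with hv
        · by_cases hin : Ω.In L (L'.1 * Ω.θ v)
          · obtain ⟨-, u, hu, e⟩ := hin
            have hm : u ∈ Ω.ovl 𝓕 L := Finset.mem_filter.2
              ⟨F.mem_lv.2 hu, L', hL', hne, hω L' hL', v, hv, e.symm⟩
            have := hc'' u hm a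
            simp only [res, if_pos hu] at this
            simp only [e, p1 u a hu, this]
          · exact p2 _ _ hin
        · rfl
      refine ⟨x', (key R h1 hLR.symm).trans hx, fun L' hL' => ?_⟩
      by_cases hne : L' = L
      · rw [hne, res_eq Ω hc' p1]
        exact hc'
      · rw [key L' hL' hne]
        exact hx' L' (Finset.mem_erase.2 ⟨hne, hL'⟩)
    · obtain ⟨x', p1, -⟩ := patch Ω 0 hR c
      refine ⟨x', res_eq Ω hc p1, fun L hL => ?_⟩
      have : L = R := by_contra fun hne => h2 ⟨L, hL, hne⟩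
      rw [this, res_eq Ω hc p1]
      exact hc

lemma tgt {v v' : V} {a : S × Bool} (hR : R.2 ∈ ω) (hv : F.lev v = R.2) (h : F.st v a v') :
    R.1 * Ω.θ v * Ω.gen a = R.1 * Ω.θ v' := by
  rw [Ω.θ_st (hv ▸ hR) h, mul_assoc]

lemma valid_of (h : Ω.full x R) {v : V} (hv : F.lev v = R.2) : valid F x (R.1 * Ω.θ v) := by
  unfold valid
  rw [h.2 v hv]
  exact ⟨(F.deg v).1, (F.deg v).2, F.tag_eq v⟩

end ExtX

theorem XX_closed : IsClosed (Ω.XX : Set (G × (S × Bool) → ZMod 2)) := by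
  have : (Ω.XX : Set (G × (S × Bool) → ZMod 2)) =
      ⋂ R : G × ℕ, {x | R.2 ∈ ω → Ω.res x R ∈ F.code R.2} := by
    ext x
    rw [Set.mem_iInter]
    rfl
  rw [this]
  exact isClosed_iInter (ExtX.closed_code Ω)

theorem XX_shift (hx : x ∈ Ω.XX) (g : G) :
    (fun p : G × (S × Bool) => x (g * p.1, p.2)) ∈ Ω.XX := by
  intro R hR
  have := hx (g * R.1, R.2) hR
  convert this using 1
  funext p
  simp only [res, mul_assoc]

theorem ext_code (hR : R.2 ∈ ω) {c : V × (S × Bool) → ZMod 2} (hc : c ∈ F.code R.2) :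
    ∃ x ∈ Ω.XX, Ω.res x R = c := by
  classical
  have hK : IsCompact {x | Ω.res x R = c} :=
    (isClosed_eq (ExtX.cont_res Ω R) continuous_const).isCompact
  obtain ⟨x, h1, h2⟩ := hK.inter_iInter_nonempty _ (ExtX.closed_code Ω) fun u => by
    obtain ⟨x, h1, h2⟩ := ExtX.fin_ext Ω hR hc _ (insert R (u.filter fun L => L.2 ∈ ω)) rfl
      (fun L hL => by
        rcases Finset.mem_insert.1 hL with rfl | hL
        · exact hR
        · exact (Finset.mem_filter.1 hL).2) (Finset.mem_insert_self _ _)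
    exact ⟨x, h1, Set.mem_iInter₂.2 fun L hL hω =>
      h2 L (Finset.mem_insert_of_mem (Finset.mem_filter.2 ⟨hL, hω⟩))⟩
  exact ⟨x, Set.mem_iInter.1 h2, h1⟩

theorem full_iff (hR : R.2 ∈ ω) : Ω.full x R ↔ Ω.res x R = F.pat R.2 := by
  have z : ∀ t : ZMod 2, t ≠ 1 → t = 0 := by decide
  constructor
  · intro h
    funext ⟨v, a⟩
    unfold res Fam.pat
    by_cases hv : F.lev v = R.2
    · have h1 : x (R.1 * Ω.θ v, a) = 1 ↔ a ∈ F.out v := by
        rw [← h.2 v hv]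
        simp [want]
      by_cases ha : a ∈ F.out v
      · simp only [hv, ha, and_self, if_true]
        exact h1.2 ha
      · simp only [hv, ha, and_false, if_true, if_false]
        exact z _ fun e => ha (h1.1 e)
    · simp [hv]
  · intro h
    refine ⟨hR, fun v hv => ?_⟩
    ext a
    have h1 := congrFun h (v, a)
    simp only [res, Fam.pat, hv, if_true, true_and] at h1
    simp only [want, Finset.mem_filter, Finset.mem_univ, true_and, h1]
    by_cases ha : a ∈ F.out v <;> simp [ha, hv]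

theorem mem_blk {g : G} : g ∈ Ω.blk R ↔ ∃ v, F.lev v = R.2 ∧ g = R.1 * Ω.θ v := by
  simp only [blk, Finset.mem_image, F.mem_lv, eq_comm (a := g)]

theorem card_blk (hR : R.2 ∈ ω) : (Ω.blk R).card = (F.lv R.2).card := by
  classical
  unfold blk
  convert Finset.card_image_of_injOn fun u hu v hv e => ?_
  have h1 := F.mem_lv.1 hu
  have h2 := F.mem_lv.1 hv
  exact Ω.θ_inj (h1 ▸ hR) (h2.trans h1.symm) (mul_left_cancel e)

variable {Ω}

theorem opn.rev {g : G} {a : S × Bool} (h : Ω.opn x g a) : Ω.opn x (g * Ω.gen a) (iv a) := by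
  unfold opn
  rw [Ω.gen_iv, mul_inv_cancel_right, iv_iv]
  exact ⟨h.2.1, h.1, h.2.2.2, h.2.2.1⟩

theorem full.not_dfc (h : Ω.full x R) {g : G} (hg : g ∈ Ω.blk R) : ¬Ω.dfc x g := by
  obtain ⟨v, hv, rfl⟩ := Ω.mem_blk.1 hg
  rintro (h1 | ⟨a, ha, h1⟩)
  · exact h1 (ExtX.valid_of Ω h hv)
  · refine h1 ?_
    obtain ⟨v', hv'⟩ := F.mem_out.1 (h.2 v hv ▸ ha)
    have h2 := (F.lev_st hv').trans hv
    unfold opn
    rw [ExtX.tgt Ω h.1 hv hv', h.2 v' h2]
    exact ⟨ExtX.valid_of Ω h hv, ExtX.valid_of Ω h h2, ha, F.mem_out.2 ⟨v, F.st_rev hv'⟩⟩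

theorem full.closed (h : Ω.full x R) {g : G} (hg : g ∈ Ω.blk R) {a : S × Bool}
    (ha : Ω.opn x g a) : g * Ω.gen a ∈ Ω.blk R := by
  obtain ⟨v, hv, rfl⟩ := Ω.mem_blk.1 hg
  obtain ⟨v', hv'⟩ := F.mem_out.1 (h.2 v hv ▸ ha.2.2.1)
  exact Ω.mem_blk.2 ⟨v', (F.lev_st hv').trans hv, ExtX.tgt Ω h.1 hv hv'⟩

theorem full.eq (h : Ω.full x R) (h' : Ω.full x R') {g : G} (hg : g ∈ Ω.blk R)
    (hg' : g ∈ Ω.blk R') : R = R' := by
  obtain ⟨v, hv, rfl⟩ := Ω.mem_blk.1 hg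
  obtain ⟨y, s, hw, hr, h0⟩ := F.exists_rd v (F.ell R.2 + 1)
  have hl : ∀ i ≤ F.ell R.2 + 1, F.lev (y i) = R.2 := fun i hi => by
    rw [F.lev_wk hw hi, h0, hv]
  have hs : ∀ i < F.ell R.2 + 1, R.1 * Ω.θ (y (i + 1)) = R.1 * Ω.θ (y i) * Ω.gen (s i) :=
    fun i hi => (ExtX.tgt Ω h.1 (hl i hi.le) (hw i hi)).symm
  have ho : ∀ i < F.ell R.2 + 1, Ω.In R' (R.1 * Ω.θ (y i)) →
      Ω.On R' (R.1 * Ω.θ (y i)) (s i) := fun i hi ⟨_, u, hu, e⟩ => by
    have h1 : s i ∈ F.out u := by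
      rw [← h'.2 u hu, ← e, h.2 _ (hl i hi.le)]
      exact F.mem_out.2 ⟨_, hw i hi⟩
    rw [e]
    exact (on_iff h'.1 hu).2 h1
  have hin : ∀ i < F.ell R.2 + 1, Ω.In R' (R.1 * Ω.θ (y i)) := by
    intro i
    induction i with
    | zero => exact fun _ => ⟨h'.1, h0 ▸ Ω.mem_blk.1 hg'⟩
    | succ i ih =>
      intro hi
      have hi' : i < F.ell R.2 + 1 := by omega
      rw [hs i hi']
      exact (ho i hi' (ih hi')).tgt
  refine piece_on (Ω := Ω) (P := fun i => R.1 * Ω.θ (y i)) 0 hs hr (by omega) fun j hj => ?_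
  have hj' : j < F.ell R.2 + 1 := by omega
  rw [zero_add]
  exact ⟨(on_iff h.1 (hl j hj'.le)).2 (F.mem_out.2 ⟨_, hw j hj'⟩), ho j hj' (hin j hj')⟩

end Vale.Agent.P089.Geo
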