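import Mathlib

/-! The trace formula for the index, in a Banach algebra with a trace on an ideal (job Fed). -/

namespace Vale.Agent.P089

/-- an ideal with a trace -/
structure TrD (A : Type) [NormedRing A] [NormedAlgebra ℂ A] where
  J : Submodule ℂ A
  mul_left : ∀ {x : A} (y : A), x ∈ J → y * x ∈ J
  mul_right : ∀ {x : A} (y : A), x ∈ J → x * y ∈ J
  tr : A → ℂ
  tr_add : ∀ {x y : A}, x ∈ J → y ∈ J → tr (x + y) = tr x + tr y
  tr_comm : ∀ {x : A} (y : A), x ∈ J → tr (x * y) = tr (y * x)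

/-- `T` goes from the idempotent `P` to the idempotent `Q` -/
structure Adm {A : Type} [Ring A] (P Q T : A) : Prop where
  pp : P * P = P
  qq : Q * Q = Q
  tt : Q * T * P = T

namespace TrD

variable {A : Type} [NormedRing A] [NormedAlgebra ℂ A] (D : TrD A)

/-- the closure of the ideal -/
noncomputable def K : Submodule ℂ A := D.J.topologicalClosure

/-- the index -/
def Ind (P Q T : A) (r : ℂ) : Prop :=
  ∃ R, P * R * Q = R ∧ P - R * T ∈ D.J ∧ Q - T * R ∈ D.J ∧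
    r = D.tr (P - R * T) - D.tr (Q - T * R)

variable {D} {P Q T T' P' Q' : A} {r r' : ℂ}

lemma tr_zero : D.tr 0 = 0 := by
  have := D.tr_add D.J.zero_mem D.J.zero_mem
  rw [add_zero] at this
  linear_combination -this

lemma tr_neg {x : A} (hx : x ∈ D.J) : D.tr (-x) = -D.tr x := by
  have := D.tr_add hx (D.J.neg_mem hx)
  rw [add_neg_cancel, tr_zero] at this
  linear_combination -this

lemma tr_sub {x y : A} (hx : x ∈ D.J) (hy : y ∈ D.J) : D.tr (x - y) = D.tr x - D.tr y := by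
  rw [sub_eq_add_neg, D.tr_add hx (D.J.neg_mem hy), tr_neg hy, sub_eq_add_neg]

lemma J_le_K : D.J ≤ D.K := by
  exact D.J.le_topologicalClosure

lemma K_left {x : A} (y : A) (hx : x ∈ D.K) : y * x ∈ D.K := by
  exact map_mem_closure (f := fun x => y * x) (continuous_const.mul continuous_id) hx
    fun _ h => D.mul_left y h

lemma K_right {x : A} (y : A) (hx : x ∈ D.K) : x * y ∈ D.K := by
  exact map_mem_closure (f := fun x => x * y) (continuous_id.mul continuous_const) hx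
    fun _ h => D.mul_right y h

namespace FedX

lemma left {x : A} (hP : P * P = P) (h : P * x * Q = x) : P * x = x := by
  rw [← h, ← mul_assoc, ← mul_assoc, hP]

lemma right {x : A} (hQ : Q * Q = Q) (h : P * x * Q = x) : x * Q = x := by
  rw [← h, mul_assoc, hQ]

lemma approx {x : A} (hx : x ∈ D.K) (y z : A) : ∃ j ∈ D.J, ‖y * (x - j) * z‖ < 1 := by
  obtain ⟨j, h1, h2⟩ := mem_closure_iff.1 hx {w | ‖y * (x - w) * z‖ < 1}
    (isOpen_lt (by fun_prop) continuous_const) (by simp)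
  exact ⟨j, h2, h1⟩

lemma add_J {j : A} (hj : j ∈ D.J) (h : D.Ind P Q T r) : D.Ind P Q (T + j) r := by
  obtain ⟨R, h0, h1, h2, h3⟩ := h
  have e1 : P - R * (T + j) = P - R * T - R * j := by noncomm_ring
  have e2 : Q - (T + j) * R = Q - T * R - j * R := by noncomm_ring
  refine ⟨R, h0, e1 ▸ D.J.sub_mem h1 (D.mul_left R hj), e2 ▸ D.J.sub_mem h2 (D.mul_right R hj), ?_⟩
  rw [e1, e2, tr_sub h1 (D.mul_left R hj), tr_sub h2 (D.mul_right R hj), D.tr_comm R hj, h3]
  ring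

lemma conj (v : Aˣ) (hv : v * Q = Q * v) (h : D.Ind P Q T r) : D.Ind P Q (v * T) r := by
  obtain ⟨R, h0, h1, h2, h3⟩ := h
  have hv' : (v⁻¹ : Aˣ) * Q = Q * (v⁻¹ : Aˣ) := by
    rw [Units.inv_mul_eq_iff_eq_mul, ← mul_assoc, hv, Units.mul_inv_cancel_right]
  have e1 : P - R * (v⁻¹ : Aˣ) * (v * T) = P - R * T := by
    rw [mul_assoc, Units.inv_mul_cancel_left]
  have e2 : Q - v * T * (R * (v⁻¹ : Aˣ)) = v * ((Q - T * R) * (v⁻¹ : Aˣ)) := by
    rw [sub_mul, mul_sub, ← mul_assoc _ Q, hv, Units.mul_inv_cancel_right]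
    noncomm_ring
  refine ⟨R * (v⁻¹ : Aˣ), ?_, e1 ▸ h1, e2 ▸ D.mul_left _ (D.mul_right _ h2), ?_⟩
  · rw [← mul_assoc, mul_assoc _ _ Q, hv', ← mul_assoc, h0]
  · rw [e1, e2, ← D.tr_comm _ (D.mul_right _ h2), Units.inv_mul_cancel_right, h3]

end FedX

open FedX

theorem Ind.unique (h : Adm P Q T) (h1 : D.Ind P Q T r) (h2 : D.Ind P Q T r') : r = r' := by
  obtain ⟨R, a0, a1, a2, rfl⟩ := h1
  obtain ⟨R', b0, b1, b2, rfl⟩ := h2
  have e : R - R' = (P - R' * T) * R - R' * (Q - T * R) := by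
    rw [sub_mul, mul_sub, left h.pp a0, right h.qq b0]
    noncomm_ring
  have hd : R - R' ∈ D.J := e ▸ D.J.sub_mem (D.mul_right _ b1) (D.mul_left _ a2)
  have e1 : P - R * T = P - R' * T - (R - R') * T := by noncomm_ring
  have e2 : Q - T * R = Q - T * R' - T * (R - R') := by noncomm_ring
  rw [e1, e2, tr_sub b1 (D.mul_right _ hd), tr_sub b2 (D.mul_left _ hd), D.tr_comm T hd]
  ring

theorem exists_ind [CompleteSpace A] (h : Adm P Q T) {R : A} (h1 : P - R * T ∈ D.K)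
    (h2 : Q - T * R ∈ D.K) : ∃ r, D.Ind P Q T r := by
  have tp := right h.pp h.tt
  have qt := left h.qq h.tt
  obtain ⟨j, hj, n1⟩ := approx h1 1 1
  obtain ⟨j', hj', n2⟩ := approx h2 1 1
  rw [one_mul, mul_one] at n1 n2
  obtain ⟨u, hu⟩ : ∃ u : A, u * (1 - (P - R * T - j)) = 1 := ⟨_, (Units.oneSub _ n1).inv_mul⟩
  obtain ⟨v, hv⟩ : ∃ v : A, (1 - (Q - T * R - j')) * v = 1 := ⟨_, (Units.oneSub _ n2).mul_inv⟩
  have a1 : P - u * R * T = u * j * P := by
    have e : (1 - (P - R * T - j)) * P = R * T + j * P := by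
      rw [sub_mul, sub_mul, sub_mul, h.pp, mul_assoc, tp]
      noncomm_ring
    have := congrArg (· * P) hu
    simp only [mul_assoc, e, one_mul] at this
    rw [sub_eq_iff_eq_add]
    refine this.symm.trans ?_
    noncomm_ring
  have a2 : Q - T * (R * v) = Q * j' * v := by
    have e : Q * (1 - (Q - T * R - j')) = T * R + Q * j' := by
      rw [mul_sub, mul_sub, mul_sub, h.qq, ← mul_assoc, qt]
      noncomm_ring
    have := congrArg (Q * ·) hv
    simp only [← mul_assoc, e, mul_one] at this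
    rw [sub_eq_iff_eq_add]
    refine this.symm.trans ?_
    noncomm_ring
  have b1 : P - u * R * T ∈ D.J := a1 ▸ D.mul_right _ (D.mul_left _ hj)
  have b2 : Q - T * (R * v) ∈ D.J := a2 ▸ D.mul_right _ (D.mul_left _ hj')
  generalize u * R = R2 at b1
  generalize R * v = R3 at b2
  refine ⟨_, P * R2 * Q, ?_, ?_, ?_, rfl⟩
  · rw [← mul_assoc, ← mul_assoc, h.pp, mul_assoc, h.qq]
  · have e : P - P * R2 * Q * T = P * (P - R2 * T) := by
      rw [mul_sub, h.pp, mul_assoc _ Q, qt, mul_assoc]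
    exact e ▸ D.mul_left _ b1
  · have e : Q - T * (P * R2 * Q) =
        Q - T * R3 - T * R2 * (Q - T * R3) + T * (P - R2 * T) * R3 := by
      rw [← mul_assoc, ← mul_assoc, tp, mul_sub T P, tp]
      noncomm_ring
    exact e ▸ D.J.add_mem (D.J.sub_mem b2 (D.mul_left _ b2)) (D.mul_right _ (D.mul_left _ b1))

theorem Ind.perturb [CompleteSpace A] (h : Adm P Q T) (h' : Adm P Q T') (hK : T' - T ∈ D.K)
    (h1 : D.Ind P Q T r) : D.Ind P Q T' r := by
  obtain ⟨R, a0, a1, -⟩ := id h1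
  obtain ⟨j, hj, n1⟩ := approx hK Q R
  obtain ⟨δ, hδ⟩ : ∃ δ, δ = T' - T - j := ⟨_, rfl⟩
  rw [← hδ, ← norm_neg] at n1
  have e : T' = (1 - -(Q * δ * R)) * T + (Q * j * P + Q * δ * (P - R * T)) := by
    have e1 : Q * (T + j + δ) * P = T' := by rw [← h'.tt, hδ]; noncomm_ring
    rw [← e1, mul_add, mul_add, add_mul, add_mul, h.tt]
    noncomm_ring
  rw [e]
  refine add_J (D.J.add_mem (D.mul_right _ (D.mul_left _ hj)) (D.mul_left _ a1))
    (conj (Units.oneSub _ n1) ?_ h1)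
  rw [Units.val_oneSub, sub_neg_eq_add, add_mul, mul_add, mul_assoc _ R, right h.qq a0,
    ← mul_assoc, ← mul_assoc, h.qq, one_mul, mul_one]

theorem Ind.iso (h : Adm P Q T) {a b a' b' : A} (e1 : b * a = P) (e2 : a * b = P')
    (e3 : a * P = a) (e4 : P * b = b) (e1' : b' * a' = Q) (e2' : a' * b' = Q')
    (e3' : a' * Q = a') (e4' : Q * b' = b') (h1 : D.Ind P Q T r) :
    D.Ind P' Q' (a' * T * b) r := by
  obtain ⟨R, a0, a1, a2, rfl⟩ := h1
  have tp := right h.pp h.tt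
  have qt := left h.qq h.tt
  have rq := right h.qq a0
  have f1 : P' - a * R * b' * (a' * T * b) = a * ((P - R * T) * b) := by
    rw [show a * R * b' * (a' * T * b) = a * R * (b' * a' * T) * b by noncomm_ring, e1', qt,
      sub_mul, e4, mul_sub, e2]
    noncomm_ring
  have f2 : Q' - a' * T * b * (a * R * b') = a' * ((Q - T * R) * b') := by
    rw [show a' * T * b * (a * R * b') = a' * (T * (b * a)) * R * b' by noncomm_ring, e1, tp,
      sub_mul, e4', mul_sub, e2']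
    noncomm_ring
  refine ⟨a * R * b', ?_, f1 ▸ D.mul_left _ (D.mul_right _ a1),
    f2 ▸ D.mul_left _ (D.mul_right _ a2), ?_⟩
  · rw [← e2, ← e2', show a * b * (a * R * b') * (a' * b') =
      a * (b * a * R * (b' * a')) * b' by noncomm_ring, e1, e1', a0]
  · rw [f1, f2, ← D.tr_comm _ (D.mul_right _ a1), ← D.tr_comm _ (D.mul_right _ a2), mul_assoc _ b,
      mul_assoc _ b', e1, e1', sub_mul, sub_mul, h.pp, h.qq, mul_assoc R, mul_assoc T, tp, rq]

theorem Ind.add (h : Adm P Q T) (h' : Adm P' Q' T') (e1 : P * P' = 0) (e2 : P' * P = 0)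
    (e3 : Q * Q' = 0) (e4 : Q' * Q = 0) (h1 : D.Ind P Q T r) (h2 : D.Ind P' Q' T' r') :
    D.Ind (P + P') (Q + Q') (T + T') (r + r') := by
  obtain ⟨R, a0, a1, a2, rfl⟩ := h1
  obtain ⟨R', b0, b1, b2, rfl⟩ := h2
  have c1 : P' * R = 0 := by rw [← left h.pp a0, ← mul_assoc, e2, zero_mul]
  have c2 : P * R' = 0 := by rw [← left h'.pp b0, ← mul_assoc, e1, zero_mul]
  have c3 : R * Q' = 0 := by rw [← right h.qq a0, mul_assoc, e3, mul_zero]
  have c4 : R' * Q = 0 := by rw [← right h'.qq b0, mul_assoc, e4, mul_zero]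
  have c5 : R * T' = 0 := by rw [← left h'.qq h'.tt, ← mul_assoc, c3, zero_mul]
  have c6 : R' * T = 0 := by rw [← left h.qq h.tt, ← mul_assoc, c4, zero_mul]
  have c7 : T * R' = 0 := by rw [← right h.pp h.tt, mul_assoc, c2, mul_zero]
  have c8 : T' * R = 0 := by rw [← right h'.pp h'.tt, mul_assoc, c1, mul_zero]
  have f1 : P + P' - (R + R') * (T + T') = P - R * T + (P' - R' * T') := by
    rw [add_mul, mul_add, mul_add, c5, c6]
    abel
  have f2 : Q + Q' - (T + T') * (R + R') = Q - T * R + (Q' - T' * R') := by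
    rw [add_mul, mul_add, mul_add, c7, c8]
    abel
  refine ⟨R + R', ?_, f1 ▸ D.J.add_mem a1 b1, f2 ▸ D.J.add_mem a2 b2, ?_⟩
  · rw [add_mul P, mul_add P, mul_add P', c1, c2, left h.pp a0, left h'.pp b0, add_zero, zero_add,
      add_mul, mul_add, mul_add, c3, c4, right h.qq a0, right h'.qq b0, add_zero, zero_add]
  · rw [f1, f2, D.tr_add a1 b1, D.tr_add a2 b2]
    ring

theorem ind_of_inv (h : Adm P Q T) {R : A} (e1 : R * T = P) (e2 : T * R = Q) :
    D.Ind P Q T 0 := by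
  have f1 : P - P * R * Q * T = 0 := by
    rw [mul_assoc _ Q, left h.qq h.tt, mul_assoc, e1, h.pp, sub_self]
  have f2 : Q - T * (P * R * Q) = 0 := by
    rw [← mul_assoc, ← mul_assoc, right h.pp h.tt, e2, h.qq, sub_self]
  refine ⟨P * R * Q, ?_, f1 ▸ D.J.zero_mem, f2 ▸ D.J.zero_mem, by rw [f1, f2, sub_self]⟩
  rw [← mul_assoc, ← mul_assoc, h.pp, mul_assoc, h.qq]

theorem ind_fin (hP : P ∈ D.J) (hQ : Q ∈ D.J) : D.Ind P Q 0 (D.tr P - D.tr Q) := by
  exact ⟨0, by simp, by simpa using hP, by simpa using hQ, by simp⟩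

/-- transport along corner maps -/
theorem Ind.corner {A' : Type} [NormedRing A'] [NormedAlgebra ℂ A'] {D' : TrD A'}
    (k11 k12 k21 k22 : A →+ A') (m1 : ∀ x y z, k11 x * k12 y * k22 z = k12 (x * y * z))
    (m2 : ∀ x y, k12 x * k21 y = k11 (x * y)) (m3 : ∀ x y, k21 x * k12 y = k22 (x * y))
    (j1 : ∀ x ∈ D.J, k11 x ∈ D'.J ∧ D'.tr (k11 x) = D.tr x)
    (j2 : ∀ x ∈ D.J, k22 x ∈ D'.J ∧ D'.tr (k22 x) = D.tr x) (h1 : D.Ind P Q T r) :
    D'.Ind (k11 P) (k22 Q) (k21 T) r := by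
  obtain ⟨R, a0, a1, a2, rfl⟩ := h1
  refine ⟨k12 R, by rw [m1, a0], ?_, ?_, ?_⟩
  · rw [m2, ← map_sub]
    exact (j1 _ a1).1
  · rw [m3, ← map_sub]
    exact (j2 _ a2).1
  · rw [m2, m3, ← map_sub, ← map_sub, (j1 _ a1).2, (j2 _ a2).2]

end TrD

end Vale.Agent.P089
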