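import Vale.Agent.P089.Fed

/-! The index of an idempotent with respect to a graded operator (job Good). -/

namespace Vale.Agent.P089

/-- a grading and an odd element -/
structure Grd (A : Type) [Ring A] where
  F : A
  γ : A
  γγ : γ * γ = 1
  γF : γ * F = -(F * γ)

variable {A : Type} [NormedRing A] [NormedAlgebra ℂ A]

/-- even idempotent -/
noncomputable def Grd.pp (g : Grd A) : A := (1 / 2 : ℂ) • (1 + g.γ)

/-- odd idempotent -/
noncomputable def Grd.pm (g : Grd A) : A := (1 / 2 : ℂ) • (1 - g.γ)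

namespace TrD

/-- elements compatible with the grading and the operator -/
structure Good (D : TrD A) (g : Grd A) (y : A) : Prop where
  even : g.γ * y = y * g.γ
  comm : g.F * y - y * g.F ∈ D.K
  sq : y * (g.F * g.F - 1) ∈ D.K

/-- the index of an idempotent -/
def Idx (D : TrD A) (g : Grd A) (P : A) (r : ℂ) : Prop :=
  D.Ind (P * g.pp) (P * g.pm) (P * g.pm * g.F * (P * g.pp)) r

variable {D : TrD A} {g : Grd A} {y y' P P' : A} {r r' : ℂ}

namespace GoodX

lemma pp_add (g : Grd A) : g.pp + g.pm = 1 := by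
  unfold Grd.pp Grd.pm
  module

lemma pp_pp (g : Grd A) : g.pp * g.pp = g.pp := by
  unfold Grd.pp
  rw [smul_mul_smul_comm, add_mul, mul_add, mul_add, g.γγ, one_mul, one_mul, mul_one]
  module

lemma pm_pm (g : Grd A) : g.pm * g.pm = g.pm := by
  unfold Grd.pm
  rw [smul_mul_smul_comm, sub_mul, mul_sub, mul_sub, g.γγ, one_mul, one_mul, mul_one]
  module

lemma pm_F (g : Grd A) : g.pm * g.F = g.F * g.pp := by
  unfold Grd.pp Grd.pm
  rw [smul_mul_assoc, mul_smul_comm, sub_mul, mul_add, g.γF, one_mul, mul_one, sub_neg_eq_add]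

lemma pp_F (g : Grd A) : g.pp * g.F = g.F * g.pm := by
  unfold Grd.pp Grd.pm
  rw [smul_mul_assoc, mul_smul_comm, add_mul, mul_sub, g.γF, one_mul, mul_one, sub_eq_add_neg]

lemma pp_c (h : D.Good g y) : g.pp * y = y * g.pp := by
  unfold Grd.pp
  rw [smul_mul_assoc, mul_smul_comm, add_mul, mul_add, h.even, one_mul, mul_one]

lemma pm_c (h : D.Good g y) : g.pm * y = y * g.pm := by
  unfold Grd.pm
  rw [smul_mul_assoc, mul_smul_comm, sub_mul, mul_sub, h.even, one_mul, mul_one]

lemma mpp (h : D.Good g y') (y : A) : y * g.pp * (y' * g.pp) = y * y' * g.pp := by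
  rw [mul_assoc, ← mul_assoc g.pp, pp_c h, mul_assoc y', pp_pp, mul_assoc]

lemma mpm (h : D.Good g y') (y : A) : y * g.pm * (y' * g.pm) = y * y' * g.pm := by
  rw [mul_assoc, ← mul_assoc g.pm, pm_c h, mul_assoc y', pm_pm, mul_assoc]

lemma fm (h : D.Good g y') (y : A) : y * g.pm * g.F * (y' * g.pp) = y * g.F * y' * g.pp := by
  rw [mul_assoc y, pm_F, ← mul_assoc y, mpp h]

lemma fp (h : D.Good g y') (y : A) : y * g.pp * g.F * (y' * g.pm) = y * g.F * y' * g.pm := by
  rw [mul_assoc y, pp_F, ← mul_assoc y, mpm h]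

lemma par0 (h : D.Good g P) (hP : P * P = P) : P - P * g.F * P * g.F * P ∈ D.K := by
  have e : P - P * g.F * P * g.F * P =
      -(P * (g.F * g.F - 1) * P) + P * g.F * (g.F * P - P * g.F) * P := by
    have q : ∀ x, P * (P * x) = P * x := fun x => by rw [← mul_assoc, hP]
    simp only [mul_sub, sub_mul, mul_one, one_mul, mul_assoc, hP, q]
    abel
  exact e ▸ D.K.add_mem (D.K.neg_mem (K_right _ h.sq)) (K_right _ (K_left _ h.comm))

end GoodX

open GoodX FedX

lemma Good.zero : D.Good g 0 := by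
  exact ⟨by simp, by simp, by simp⟩

lemma Good.add (h : D.Good g y) (h' : D.Good g y') : D.Good g (y + y') := by
  refine ⟨by rw [mul_add, add_mul, h.even, h'.even], ?_, ?_⟩
  · have e : g.F * (y + y') - (y + y') * g.F = g.F * y - y * g.F + (g.F * y' - y' * g.F) := by
      noncomm_ring
    exact e ▸ D.K.add_mem h.comm h'.comm
  · rw [add_mul]
    exact D.K.add_mem h.sq h'.sq

lemma Good.neg (h : D.Good g y) : D.Good g (-y) := by
  refine ⟨by rw [mul_neg, neg_mul, h.even], ?_, ?_⟩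
  · have e : g.F * -y - -y * g.F = -(g.F * y - y * g.F) := by noncomm_ring
    exact e ▸ D.K.neg_mem h.comm
  · rw [neg_mul]
    exact D.K.neg_mem h.sq

lemma Good.smul (c : ℂ) (h : D.Good g y) : D.Good g (c • y) := by
  refine ⟨by rw [mul_smul_comm, smul_mul_assoc, h.even], ?_, ?_⟩
  · rw [mul_smul_comm, smul_mul_assoc, ← smul_sub]
    exact D.K.smul_mem c h.comm
  · rw [smul_mul_assoc]
    exact D.K.smul_mem c h.sq

lemma Good.mul (h : D.Good g y) (h' : D.Good g y') : D.Good g (y * y') := by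
  refine ⟨by rw [← mul_assoc, h.even, mul_assoc, h'.even, mul_assoc], ?_, ?_⟩
  · have e : g.F * (y * y') - y * y' * g.F =
        (g.F * y - y * g.F) * y' + y * (g.F * y' - y' * g.F) := by noncomm_ring
    exact e ▸ D.K.add_mem (K_right _ h.comm) (K_left _ h'.comm)
  · rw [mul_assoc]
    exact K_left _ h'.sq

lemma Good.sum {ι : Type} (s : Finset ι) {y : ι → A} (h : ∀ i ∈ s, D.Good g (y i)) :
    D.Good g (∑ i ∈ s, y i) := by
  exact Finset.sum_induction y (D.Good g) (fun _ _ => Good.add) Good.zero h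

lemma Good.adm (h : D.Good g P) (hP : P * P = P) :
    Adm (P * g.pp) (P * g.pm) (P * g.pm * g.F * (P * g.pp)) := by
  refine ⟨by rw [mpp h, hP], by rw [mpm h, hP], ?_⟩
  rw [mul_assoc, mul_assoc _ (P * g.pp), mpp h, hP, ← mul_assoc, ← mul_assoc, ← mul_assoc _ _ g.F,
    mpm h, hP, mul_assoc _ P]

lemma Good.par (h : D.Good g P) (hP : P * P = P) :
    P * g.pp - (P * g.pp * g.F * (P * g.pm)) * (P * g.pm * g.F * (P * g.pp)) ∈ D.K ∧
      P * g.pm - (P * g.pm * g.F * (P * g.pp)) * (P * g.pp * g.F * (P * g.pm)) ∈ D.K := by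
  have k := par0 h hP
  have e1 : P * g.pp - (P * g.pp * g.F * (P * g.pm)) * (P * g.pm * g.F * (P * g.pp)) =
      (P - P * g.F * P * g.F * P) * g.pp := by
    rw [← mul_assoc _ (P * g.pm * g.F), ← mul_assoc _ (P * g.pm) g.F,
      mul_assoc _ (P * g.pm) (P * g.pm), mpm h, hP, fp h, fm h, sub_mul]
  have e2 : P * g.pm - (P * g.pm * g.F * (P * g.pp)) * (P * g.pp * g.F * (P * g.pm)) =
      (P - P * g.F * P * g.F * P) * g.pm := by
    rw [← mul_assoc _ (P * g.pp * g.F), ← mul_assoc _ (P * g.pp) g.F,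
      mul_assoc _ (P * g.pp) (P * g.pp), mpp h, hP, fm h, fp h, sub_mul]
  exact ⟨e1 ▸ K_right _ k, e2 ▸ K_right _ k⟩

theorem exists_idx [CompleteSpace A] (h : D.Good g P) (hP : P * P = P) : ∃ r, D.Idx g P r := by
  exact exists_ind (h.adm hP) (h.par hP).1 (h.par hP).2

theorem Idx.unique (h : D.Good g P) (hP : P * P = P) (h1 : D.Idx g P r) (h2 : D.Idx g P r') :
    r = r' := by
  exact Ind.unique (h.adm hP) h1 h2

theorem Idx.iso [CompleteSpace A] {a b : A} (ha : D.Good g a) (hb : D.Good g b) (e1 : b * a = P)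
    (e2 : a * b = P') (e3 : a * P = a) (e4 : P * b = b) (h1 : D.Idx g P r) : D.Idx g P' r := by
  have hP : D.Good g P := e1 ▸ hb.mul ha
  have hP' : D.Good g P' := e2 ▸ ha.mul hb
  have pp : P * P = P := by
    nth_rw 1 [← e1]
    rw [mul_assoc, e3, e1]
  have b1 : b * P' = b := by rw [← e2, ← mul_assoc, e1, e4]
  have a1 : P' * a = a := by rw [← e2, mul_assoc, e1, e3]
  have pp' : P' * P' = P' := by
    nth_rw 1 [← e2]
    rw [mul_assoc, b1, e2]
  have k := Ind.iso (hP.adm pp) (a := a * g.pp) (b := b * g.pp) (a' := a * g.pm) (b' := b * g.pm)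
    (P' := P' * g.pp) (Q' := P' * g.pm) (by rw [mpp ha, e1]) (by rw [mpp hb, e2])
    (by rw [mpp hP, e3]) (by rw [mpp hb, e4]) (by rw [mpm ha, e1]) (by rw [mpm hb, e2])
    (by rw [mpm hP, e3]) (by rw [mpm hb, e4]) h1
  have e : a * g.pm * (P * g.pm * g.F * (P * g.pp)) * (b * g.pp) = a * g.pm * g.F * (b * g.pp) := by
    rw [mul_assoc, mul_assoc _ (P * g.pp), mpp hb, e4, ← mul_assoc, ← mul_assoc, ← mul_assoc _ _ g.F,
      mpm hP, e3, mul_assoc _ b]
  rw [e] at k
  refine Ind.perturb ⟨(hP'.adm pp').pp, (hP'.adm pp').qq, ?_⟩ (hP'.adm pp') ?_ k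
  · rw [mul_assoc, mul_assoc _ (b * g.pp), mpp hP', b1, ← mul_assoc, ← mul_assoc,
      ← mul_assoc _ _ g.F, mpm ha, a1, mul_assoc _ b]
  · have e5 : P' * g.pm * g.F * (P' * g.pp) - a * g.pm * g.F * (b * g.pp) =
        -(a * (g.F * b - b * g.F) * (P' * g.pp)) := by
      have q1 : ∀ x, a * (b * x) = P' * x := fun x => by rw [← mul_assoc, e2]
      have q2 : ∀ x, b * (P' * x) = b * x := fun x => by rw [← mul_assoc, b1]
      rw [fm hP', fm hb]
      simp only [mul_sub, sub_mul, mul_assoc, q1, q2, neg_sub]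
    exact e5 ▸ D.K.neg_mem (K_right _ (K_left _ hb.comm))

theorem Idx.sum [CompleteSpace A] {ι : Type} (s : Finset ι) {P : ι → A} {r : ι → ℂ}
    (h : ∀ i ∈ s, D.Good g (P i)) (hP : ∀ i ∈ s, P i * P i = P i)
    (ho : ∀ i ∈ s, ∀ j ∈ s, i ≠ j → P i * P j = 0) (h1 : ∀ i ∈ s, D.Idx g (P i) (r i)) :
    D.Idx g (∑ i ∈ s, P i) (∑ i ∈ s, r i) := by
  classical
  induction s using Finset.induction_on with
  | empty => exact ⟨0, by simp, by simp, by simp, by simp⟩
  | insert i s hi ih =>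
    have m := Finset.mem_insert_self i s
    have m' : ∀ {j}, j ∈ s → j ∈ insert i s := Finset.mem_insert_of_mem
    have ne : ∀ j ∈ s, i ≠ j := fun j hj e => hi (e ▸ hj)
    have hS : D.Good g (∑ j ∈ s, P j) := Good.sum s fun j hj => h j (m' hj)
    have o1 : P i * ∑ j ∈ s, P j = 0 := by
      rw [Finset.mul_sum]
      exact Finset.sum_eq_zero fun j hj => ho i m j (m' hj) (ne j hj)
    have o2 : (∑ j ∈ s, P j) * P i = 0 := by
      rw [Finset.sum_mul]
      exact Finset.sum_eq_zero fun j hj => ho j (m' hj) i m (ne j hj).symm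
    have ss : (∑ j ∈ s, P j) * ∑ j ∈ s, P j = ∑ j ∈ s, P j := by
      rw [Finset.sum_mul]
      refine Finset.sum_congr rfl fun j hj => ?_
      rw [Finset.mul_sum, Finset.sum_eq_single_of_mem j hj
        fun k hk e => ho j (m' hj) k (m' hk) e.symm, hP j (m' hj)]
    have k0 := ih (fun j hj => h j (m' hj)) (fun j hj => hP j (m' hj))
      (fun j hj k hk => ho j (m' hj) k (m' hk)) fun j hj => h1 j (m' hj)
    rw [Finset.sum_insert hi, Finset.sum_insert hi]
    generalize ∑ j ∈ s, P j = S at *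
    have hi := h i m
    have pi := hP i m
    have a1 := hi.adm pi
    have a2 := hS.adm ss
    have k := Ind.add a1 a2 (by rw [mpp hS, o1, zero_mul]) (by rw [mpp hi, o2, zero_mul])
      (by rw [mpm hS, o1, zero_mul]) (by rw [mpm hi, o2, zero_mul]) (h1 i m) k0
    rw [← add_mul, ← add_mul] at k
    have f1 : (P i + S) * P i = P i := by rw [add_mul, pi, o2, add_zero]
    have f2 : (P i + S) * S = S := by rw [add_mul, ss, o1, zero_add]
    have f3 : P i * (P i + S) = P i := by rw [mul_add, pi, o1, add_zero]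
    have f4 : S * (P i + S) = S := by rw [mul_add, ss, o2, zero_add]
    have a3 := (hi.add hS).adm (by rw [add_mul, f3, f4])
    have key : ∀ y, D.Good g y → (P i + S) * y = y → y * (P i + S) = y →
        (P i + S) * g.pm * (y * g.pm * g.F * (y * g.pp)) * ((P i + S) * g.pp) =
          y * g.pm * g.F * (y * g.pp) := fun y hy c1 c2 => by
      rw [mul_assoc, mul_assoc _ (y * g.pp), mpp (hi.add hS), c2, ← mul_assoc, ← mul_assoc,
        ← mul_assoc _ _ g.F, mpm hy, c1, mul_assoc _ y]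
    refine Ind.perturb ⟨a3.pp, a3.qq, ?_⟩ a3 ?_ k
    · rw [mul_add ((P i + S) * g.pm), add_mul _ _ ((P i + S) * g.pp), key _ hi f1 f3,
        key _ hS f2 f4]
    · have e5 : (P i + S) * g.pm * g.F * ((P i + S) * g.pp) -
          (P i * g.pm * g.F * (P i * g.pp) + S * g.pm * g.F * (S * g.pp)) =
          P i * (g.F * S - S * g.F) * g.pp + S * (g.F * P i - P i * g.F) * g.pp := by
        have q1 : ∀ x, P i * (S * x) = 0 := fun x => by rw [← mul_assoc, o1, zero_mul]
        have q2 : ∀ x, S * (P i * x) = 0 := fun x => by rw [← mul_assoc, o2, zero_mul]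
        rw [fm (hi.add hS), fm hi, fm hS]
        simp only [mul_sub, sub_mul, mul_add, add_mul, mul_assoc, q1, q2, zero_mul]
        abel
      exact e5 ▸ D.K.add_mem (K_right _ (K_left _ hS.comm)) (K_right _ (K_left _ hi.comm))

/-- transport along a multiplicative linear map -/
theorem Idx.map {A' : Type} [NormedRing A'] [NormedAlgebra ℂ A'] {D' : TrD A'} {g' : Grd A'}
    (k : A →ₗ[ℂ] A') (hm : ∀ x y, k x * k y = k (x * y))
    (hj : ∀ x ∈ D.J, k x ∈ D'.J ∧ D'.tr (k x) = D.tr x) (hF : ∀ x, k x * g'.F = k (x * g.F))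
    (hγ : ∀ x, k x * g'.γ = k (x * g.γ)) (h1 : D.Idx g P r) : D'.Idx g' (k P) r := by
  have e1 : ∀ x, k x * g'.pp = k (x * g.pp) := fun x => by
    unfold Grd.pp
    rw [mul_smul_comm, mul_smul_comm, map_smul, mul_add, mul_add, map_add, hγ, mul_one, mul_one]
  have e2 : ∀ x, k x * g'.pm = k (x * g.pm) := fun x => by
    unfold Grd.pm
    rw [mul_smul_comm, mul_smul_comm, map_smul, mul_sub, mul_sub, map_sub, hγ, mul_one, mul_one]
  unfold Idx
  rw [e1, e2, hF, hm]
  exact Ind.corner k.toAddMonoidHom k.toAddMonoidHom k.toAddMonoidHom k.toAddMonoidHom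
    (fun x y z => (congrArg (· * k z) (hm x y)).trans (hm _ _)) hm hm hj hj h1

end TrD

end Vale.Agent.P089
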