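import Vale.Agent.P089.Tr

/-! Induction along an injective group homomorphism (job Indu). -/

namespace Vale.Agent.P089

variable {G G' : Type} [Group G] [Group G'] {H : Type}
  [NormedAddCommGroup H] [InnerProductSpace ℂ H] [CompleteSpace H]

namespace InduX

lemma exists_e (θ : G' →* G) (hθ : Function.Injective θ) :
    ∃ (Q : Type) (e : Q × G' ≃ G), ∀ g t u, e (t, g * u) = θ g * e (t, u) := by
  let Q := Quotient (QuotientGroup.rightRel θ.range)
  have h1 : ∀ (t : Q) (u : G'), (Quotient.mk'' (θ u * t.out) : Q) = t := fun t u => by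
    conv_rhs => rw [← Quotient.out_eq' t]
    refine Quotient.sound' (QuotientGroup.rightRel_apply.2 ⟨u⁻¹, ?_⟩)
    simp
  refine ⟨Q, Equiv.ofBijective (fun p => θ p.2 * p.1.out) ⟨?_, fun h => ?_⟩, fun g t u => ?_⟩
  · rintro ⟨t, u⟩ ⟨t', u'⟩ h
    have h2 : t = t' := by rw [← h1 t u, ← h1 t' u']; exact congrArg _ h
    subst h2
    exact Prod.ext rfl (hθ (mul_right_cancel h))
  · obtain ⟨u, hu⟩ := QuotientGroup.rightRel_apply.1
      (Quotient.mk_out' (s₁ := QuotientGroup.rightRel θ.range) h)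
    refine ⟨(Quotient.mk'' h, u), ?_⟩
    simp only [hu, inv_mul_cancel_right]
  · change θ (g * u) * t.out = θ g * (θ u * t.out)
    rw [map_mul, mul_assoc]

variable {Q : Type} (e : Q × G' ≃ G) {A B C : Type}
  [NormedAddCommGroup A] [InnerProductSpace ℂ A] [NormedAddCommGroup B] [InnerProductSpace ℂ B]
  [NormedAddCommGroup C] [InnerProductSpace ℂ C]

omit [Group G] [Group G'] [InnerProductSpace ℂ A] in
lemma hasSum_e (ξ : L2 G A) :
    HasSum (fun p : Q × G' => ‖ξ (e p)‖ ^ (2 : ENNReal).toReal) (‖ξ‖ ^ (2 : ENNReal).toReal) :=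
  e.hasSum_iff.2 (lp.hasSum_norm (by norm_num) ξ)

/-- the slice along a coset -/
noncomputable def sl (t : Q) : L2 G A →ₗ[ℂ] L2 G' A where
  toFun ξ := ⟨fun u => ξ (e (t, u)), memℓp_gen ((hasSum_e e ξ).summable.prod_factor t)⟩
  map_add' _ _ := lp.ext (funext fun _ => rfl)
  map_smul' _ _ := lp.ext (funext fun _ => rfl)

omit [Group G] [Group G'] in
lemma hasSum_sl (ξ : L2 G A) :
    HasSum (fun t => ‖sl e t ξ‖ ^ (2 : ENNReal).toReal) (‖ξ‖ ^ (2 : ENNReal).toReal) :=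
  (hasSum_e e ξ).prod_fiberwise fun t => lp.hasSum_norm (by norm_num) (sl e t ξ)

omit [Group G] [Group G'] in
lemma sl_ext {ξ η : L2 G A} (h : ∀ t, sl e t ξ = sl e t η) : ξ = η := by
  refine lp.ext (funext fun g => ?_)
  obtain ⟨⟨t, u⟩, rfl⟩ := e.surjective g
  exact congrArg (fun ζ : L2 G' A => ζ u) (h t)

omit [Group G] [Group G'] in
lemma ind_le (Y : L2 G' A →L[ℂ] L2 G' B) (ξ : L2 G A) (t : Q) :
    ‖Y (sl e t ξ)‖ ^ (2 : ENNReal).toReal ≤
      ‖Y‖ ^ (2 : ENNReal).toReal * ‖sl e t ξ‖ ^ (2 : ENNReal).toReal := by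
  rw [← Real.mul_rpow (norm_nonneg Y) (norm_nonneg _)]
  exact Real.rpow_le_rpow (norm_nonneg _) (Y.le_opNorm _) (by norm_num)

omit [Group G] [Group G'] in
lemma ind_mem (Y : L2 G' A →L[ℂ] L2 G' B) (ξ : L2 G A) :
    Memℓp (fun h : G => Y (sl e (e.symm h).1 ξ) (e.symm h).2) 2 := by
  refine memℓp_gen (e.summable_iff.1 ?_)
  have : ((fun h : G => ‖Y (sl e (e.symm h).1 ξ) (e.symm h).2‖ ^ (2 : ENNReal).toReal) ∘ e) =
      fun p : Q × G' => ‖Y (sl e p.1 ξ) p.2‖ ^ (2 : ENNReal).toReal := by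
    funext p
    simp only [Function.comp, e.symm_apply_apply]
  rw [this, summable_prod_of_nonneg fun p => by positivity]
  refine ⟨fun t => (lp.hasSum_norm (by norm_num) (Y (sl e t ξ))).summable, ?_⟩
  refine Summable.of_nonneg_of_le (fun t => tsum_nonneg fun _ => by positivity) (fun t => ?_)
    ((hasSum_sl e ξ).summable.mul_left (‖Y‖ ^ (2 : ENNReal).toReal))
  rw [(lp.hasSum_norm (by norm_num) (Y (sl e t ξ))).tsum_eq]
  exact ind_le e Y ξ t

/-- the induced operator on vectors -/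
noncomputable def ind0 (Y : L2 G' A →L[ℂ] L2 G' B) (ξ : L2 G A) : L2 G B :=
  ⟨fun h => Y (sl e (e.symm h).1 ξ) (e.symm h).2, ind_mem e Y ξ⟩

omit [Group G] [Group G'] in
lemma sl_ind0 (Y : L2 G' A →L[ℂ] L2 G' B) (ξ : L2 G A) (t : Q) :
    sl e t (ind0 e Y ξ) = Y (sl e t ξ) := by
  refine lp.ext (funext fun u => ?_)
  change Y (sl e (e.symm (e (t, u))).1 ξ) (e.symm (e (t, u))).2 = _
  rw [e.symm_apply_apply]

omit [Group G] [Group G'] in
lemma norm_ind0 (Y : L2 G' A →L[ℂ] L2 G' B) (ξ : L2 G A) : ‖ind0 e Y ξ‖ ≤ ‖Y‖ * ‖ξ‖ := by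
  refine (Real.rpow_le_rpow_iff (z := (2 : ENNReal).toReal) (norm_nonneg _) (by positivity)
    (by norm_num)).1 ?_
  rw [Real.mul_rpow (norm_nonneg Y) (norm_nonneg _)]
  refine hasSum_le (fun t => ?_) (hasSum_sl e _) ((hasSum_sl e ξ).mul_left _)
  rw [sl_ind0]
  exact ind_le e Y ξ t

/-- the induced operator -/
noncomputable def ind1 (Y : L2 G' A →L[ℂ] L2 G' B) : L2 G A →L[ℂ] L2 G B :=
  LinearMap.mkContinuous
    { toFun := ind0 e Y
      map_add' := fun ξ η => sl_ext e fun t => by simp only [map_add, sl_ind0]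
      map_smul' := fun c ξ => sl_ext e fun t => by
        simp only [map_smul, sl_ind0, RingHom.id_apply] } ‖Y‖ (norm_ind0 e Y)

omit [Group G] [Group G'] in
lemma sl_ind1 (Y : L2 G' A →L[ℂ] L2 G' B) (ξ : L2 G A) (t : Q) :
    sl e t (ind1 e Y ξ) = Y (sl e t ξ) := sl_ind0 e Y ξ t

omit [Group G] [Group G'] in
lemma ind1_add (Y Y' : L2 G' A →L[ℂ] L2 G' B) : ind1 e (Y + Y') = ind1 e Y + ind1 e Y' :=
  ContinuousLinearMap.ext fun ξ => sl_ext e fun t => by
    change sl e t (ind1 e (Y + Y') ξ) = sl e t (ind1 e Y ξ + ind1 e Y' ξ)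
    rw [map_add, sl_ind1, sl_ind1, sl_ind1]
    rfl

omit [Group G] [Group G'] in
lemma ind1_smul (c : ℂ) (Y : L2 G' A →L[ℂ] L2 G' B) : ind1 e (c • Y) = c • ind1 e Y :=
  ContinuousLinearMap.ext fun ξ => sl_ext e fun t => by
    change sl e t (ind1 e (c • Y) ξ) = sl e t (c • ind1 e Y ξ)
    rw [map_smul, sl_ind1, sl_ind1]
    rfl

omit [Group G] [Group G'] in
lemma norm_ind1 (Y : L2 G' A →L[ℂ] L2 G' B) : ‖ind1 e Y‖ ≤ 1 * ‖Y‖ := by
  rw [one_mul]
  exact ContinuousLinearMap.opNorm_le_bound _ (norm_nonneg Y) (norm_ind0 e Y)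

/-- induction as a linear map -/
noncomputable def ind2 : (L2 G' A →L[ℂ] L2 G' B) →ₗ[ℂ] (L2 G A →L[ℂ] L2 G B) where
  toFun := ind1 e
  map_add' := ind1_add e
  map_smul' := ind1_smul e

/-- induction as a contraction -/
noncomputable def ind : (L2 G' A →L[ℂ] L2 G' B) →L[ℂ] (L2 G A →L[ℂ] L2 G B) :=
  LinearMap.mkContinuous (𝕜 := ℂ) (E := L2 G' A →L[ℂ] L2 G' B) (F := L2 G A →L[ℂ] L2 G B)
    (ind2 e) 1 (norm_ind1 e)

omit [Group G] [Group G'] in
lemma sl_ind (Y : L2 G' A →L[ℂ] L2 G' B) (ξ : L2 G A) (t : Q) :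
    sl e t (ind e Y ξ) = Y (sl e t ξ) := sl_ind0 e Y ξ t

omit [Group G] [Group G'] in
lemma ind_comp (Y : L2 G' B →L[ℂ] L2 G' C) (Y' : L2 G' A →L[ℂ] L2 G' B) :
    ind e Y ∘L ind e Y' = ind e (Y ∘L Y') :=
  ContinuousLinearMap.ext fun ξ => sl_ext e fun t => by
    simp only [ContinuousLinearMap.comp_apply, sl_ind]

variable {e} {θ : G' →* G} (he : ∀ g t u, e (t, g * u) = θ g * e (t, u))
include he

lemma ind_amp (g : G') (x : A →L[ℂ] B) : ind e (amp g x) = amp (θ g) x :=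
  ContinuousLinearMap.ext fun ξ => sl_ext e fun t => by
    rw [sl_ind]
    refine lp.ext (funext fun u => ?_)
    change x (ξ (e (t, g⁻¹ * u))) = x (ξ ((θ g)⁻¹ * e (t, u)))
    rw [he, map_inv]

lemma ind_Mor {Y : L2 G' A →L[ℂ] L2 G' B} (hY : Y ∈ Mor G' A B) : ind e Y ∈ Mor G A B := by
  refine Mor_le (N := (Mor G A B).comap (ind e).toLinearMap)
    (isClosed_Mor.preimage (ind e).continuous) (fun g x => ?_) hY
  change ind e (amp g x) ∈ Mor G A B
  rw [ind_amp he]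
  exact amp_mem_Mor _ _

lemma tau_ind (hθ : Function.Injective θ) {z : L2 G' ℂ →L[ℂ] L2 G' ℂ} (hz : z ∈ Mor G' ℂ ℂ) :
    tau (ind e z) = tau z := by
  refine Mor_le (N := LinearMap.eqLocus (TrX.tauL ∘L ind e).toLinearMap TrX.tauL.toLinearMap)
    (isClosed_eq (TrX.tauL ∘L ind e).continuous TrX.tauL.continuous) (fun g x => ?_) hz
  change tau (ind e (amp g x)) = tau (amp g x)
  rw [ind_amp he, tau_amp, tau_amp]
  by_cases h : g = 1
  · rw [if_pos h, if_pos (by rw [h, map_one])]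
  · rw [if_neg h, if_neg fun h' => h (hθ (h'.trans θ.map_one.symm))]

lemma ind_Fin0 (hθ : Function.Injective θ) {x : L2 G' H →L[ℂ] L2 G' H} (hx : x ∈ Fin0 G' H H) :
    ind e x ∈ Fin0 G H H ∧ Tr (ind e x) = Tr x := by
  induction hx using Submodule.span_induction with
  | mem y hy =>
    obtain ⟨ξ, hξ, η, hη, rfl⟩ := hy
    rw [← ind_comp]
    refine ⟨rank_mem (ind_Mor he hξ) (ind_Mor he hη), ?_⟩
    rw [Tr_rank (ind_Mor he hξ) (ind_Mor he hη), Tr_rank hξ hη, ind_comp,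
      tau_ind he hθ (Mor_comp hη hξ)]
  | zero =>
    have h1 := Tr_smul 0 (0 : L2 G H →L[ℂ] L2 G H)
    have h2 := Tr_smul 0 (0 : L2 G' H →L[ℂ] L2 G' H)
    simp only [smul_zero, zero_mul] at h1 h2
    rw [map_zero, h1, h2]
    exact ⟨Submodule.zero_mem _, rfl⟩
  | add a b ha hb iha ihb =>
    rw [map_add, Tr_add iha.1 ihb.1, Tr_add ha hb, iha.2, ihb.2]
    exact ⟨Submodule.add_mem _ iha.1 ihb.1, rfl⟩
  | smul c a _ iha =>
    rw [map_smul, Tr_smul, Tr_smul, iha.2]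
    exact ⟨Submodule.smul_mem _ c iha.1, rfl⟩

end InduX

theorem exists_ind_hom (θ : G' →* G) (hθ : Function.Injective θ) :
    ∃ k : MorA G' H →ₗ[ℂ] MorA G H, (∀ x y, k x * k y = k (x * y)) ∧
      (∀ g x, k (ampA g x) = ampA (θ g) x) ∧
      ∀ x ∈ (trD G' H).J, k x ∈ (trD G H).J ∧ (trD G H).tr (k x) = (trD G' H).tr x := by
  obtain ⟨Q, e, he⟩ := InduX.exists_e θ hθ
  refine ⟨{ toFun := fun x => ⟨InduX.ind e x.1, InduX.ind_Mor he x.2⟩
            map_add' := fun x y => Subtype.ext (map_add (InduX.ind e) x.1 y.1)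
            map_smul' := fun c x => Subtype.ext (map_smul (InduX.ind e) c x.1) },
    fun x y => Subtype.ext (InduX.ind_comp e x.1 y.1),
    fun g x => Subtype.ext (InduX.ind_amp he g x), fun x hx => InduX.ind_Fin0 he hθ hx⟩

theorem indu (θ : G' →* G) (hθ : Function.Injective θ) {F γ : H →L[ℂ] H} {h1 : γ * γ = 1}
    {h2 : γ * F = -(F * γ)} {ι : Type} (s : Finset ι) (φ : ι → G') (x : ι → H →L[ℂ] H) {r : ℂ}
    (h : (trD G' H).Idx (grd G' F γ h1 h2) (∑ i ∈ s, ampA (φ i) (x i)) r) :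
    (trD G H).Idx (grd G F γ h1 h2) (∑ i ∈ s, ampA (θ (φ i)) (x i)) r := by
  obtain ⟨k, k1, k2, k3⟩ := exists_ind_hom (H := H) θ hθ
  have h3 : ∀ (y : MorA G' H) (a : H →L[ℂ] H), k y * ampA 1 a = k (y * ampA 1 a) := fun y a => by
    rw [← k1, k2, map_one]
  have := TrD.Idx.map (D := trD G' H) (g := grd G' F γ h1 h2) (D' := trD G H)
    (g' := grd G F γ h1 h2) k k1 k3 (fun y => h3 y F)
    (fun y => h3 y γ) h
  simpa only [map_sum, k2] using this

end Vale.Agent.P089
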