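import Mathlib

/-! Networks with an isoperimetric inequality, and the Cheeger inequality (job Net). -/

namespace Vale.Agent.P089

open Classical

/-- a bounded degree graph with a potential, whose small sets expand away from finite blocks -/
structure Net (G A : Type) [Fintype A] (C : ℕ) where
  nb : G → A → G
  iv : A → A
  iv_iv : ∀ a, iv (iv a) = a
  nb_iv : ∀ g a, nb (nb g a) (iv a) = g
  op : G → A → Prop
  op_rev : ∀ g a, op g a → op (nb g a) (iv a)
  df : G → Prop
  blk : Set (Finset G)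
  blk_df : ∀ b ∈ blk, ∀ g ∈ b, ¬df g
  blk_op : ∀ b ∈ blk, ∀ g ∈ b, ∀ a, op g a → nb g a ∈ b
  blk_disj : ∀ b ∈ blk, ∀ b' ∈ blk, ∀ g ∈ b, g ∈ b' → b = b'
  iso : ∀ B : Finset G, (∀ b ∈ blk, 2 * (B ∩ b).card ≤ b.card) →
    B.card ≤ C * ((B.filter df).card +
      ((B ×ˢ Finset.univ).filter fun p : G × A => op p.1 p.2 ∧ nb p.1 p.2 ∉ B).card)

variable {G A : Type} [Fintype A] {C : ℕ} (N : Net G A C)

/-- the local energy -/
noncomputable def Net.en (f : G → ℝ) (g : G) : ℝ :=
  (∑ a, if N.op g a then (f g - f (N.nb g a)) ^ 2 / 2 else 0) + if N.df g then f g ^ 2 else 0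

/-- `U` contains the support of `f` and its neighbours -/
def Net.Cov (f : G → ℝ) (U : Finset G) : Prop :=
  (∀ g, f g ≠ 0 → g ∈ U) ∧ ∀ g a, f (N.nb g a) ≠ 0 → g ∈ U

theorem Net.iso_real (B : Finset G) (hb : ∀ b ∈ N.blk, 2 * (B ∩ b).card ≤ b.card) :
    (B.card : ℝ) ≤ C * ∑ g ∈ B, ((if N.df g then (1 : ℝ) else 0) +
      ∑ a, if N.op g a ∧ N.nb g a ∉ B then (1 : ℝ) else 0) := by
  have h := N.iso B hb
  rw [Finset.card_filter, Finset.card_filter, Finset.sum_product] at h
  rw [Finset.sum_add_distrib]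
  exact_mod_cast h

/-- co-area inequality -/
theorem Net.coarea (h : G → ℝ) (B : Finset G) (h0 : ∀ g, 0 ≤ h g) (hB : ∀ g, h g ≠ 0 ↔ g ∈ B)
    (hb : ∀ b ∈ N.blk, 2 * (B ∩ b).card ≤ b.card) :
    ∑ g ∈ B, h g ≤ C * ∑ g ∈ B, ((if N.df g then h g else 0) +
      ∑ a, if N.op g a then max (h g - h (N.nb g a)) 0 else 0) := by
  induction hn : B.card using Nat.strong_induction_on generalizing h B with
  | _ n ih =>
    rcases B.eq_empty_or_nonempty with rfl | hne
    · simp
    obtain ⟨g0, hg0, hmin⟩ := B.exists_min_image h hne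
    set μ := h g0 with hμ
    set h' : G → ℝ := fun g => if g ∈ B then h g - μ else 0 with hh'
    have h1 : ∀ g ∈ B, h' g = h g - μ := fun g hg => if_pos hg
    have h2 : ∀ g, g ∉ B → h' g = 0 := fun g hg => if_neg hg
    have h3 : ∀ g, 0 ≤ h' g := fun g => by
      by_cases hg : g ∈ B
      · rw [h1 g hg]; linarith [hmin g hg]
      · rw [h2 g hg]
    set B' := B.filter fun g => h' g ≠ 0 with hB'
    have hsub : B' ⊆ B := Finset.filter_subset _ _
    have hlt : B'.card < n := by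
      rw [← hn]
      refine Finset.card_lt_card ⟨hsub, fun h4 => (Finset.mem_filter.1 (h4 hg0)).2 ?_⟩
      rw [h1 g0 hg0, sub_self]
    have h4 := ih _ hlt h' B' h3
      (fun g => ⟨fun hg => Finset.mem_filter.2 ⟨by_contra fun h5 => hg (h2 g h5), hg⟩,
        fun hg => (Finset.mem_filter.1 hg).2⟩)
      (fun b hb' => le_trans (Nat.mul_le_mul_left 2
        (Finset.card_le_card (Finset.inter_subset_inter_right hsub))) (hb b hb')) rfl
    rw [hB', Finset.sum_filter_ne_zero] at h4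
    have h5 : ∑ g ∈ B', ((if N.df g then h' g else 0) +
        ∑ a, if N.op g a then max (h' g - h' (N.nb g a)) 0 else 0) ≤
        ∑ g ∈ B, ((if N.df g then h' g else 0) +
        ∑ a, if N.op g a then max (h' g - h' (N.nb g a)) 0 else 0) := by
      refine Finset.sum_le_sum_of_subset_of_nonneg hsub fun g _ _ => add_nonneg ?_
        (Finset.sum_nonneg fun a _ => ?_)
      · split_ifs
        · exact h3 g
        · exact le_rfl
      · split_ifs
        · exact le_max_right _ _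
        · exact le_rfl
    have h6 : ∑ g ∈ B, ((if N.df g then h g else 0) +
        ∑ a, if N.op g a then max (h g - h (N.nb g a)) 0 else 0) =
        ∑ g ∈ B, ((if N.df g then h' g else 0) +
        ∑ a, if N.op g a then max (h' g - h' (N.nb g a)) 0 else 0) +
        μ * ∑ g ∈ B, ((if N.df g then (1 : ℝ) else 0) +
          ∑ a, if N.op g a ∧ N.nb g a ∉ B then (1 : ℝ) else 0) := by
      rw [Finset.mul_sum, ← Finset.sum_add_distrib]
      refine Finset.sum_congr rfl fun g hg => ?_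
      rw [mul_add, Finset.mul_sum, add_add_add_comm, ← Finset.sum_add_distrib]
      congr 1
      · rw [h1 g hg]; split_ifs <;> ring
      · refine Finset.sum_congr rfl fun a _ => ?_
        by_cases h7 : N.op g a
        · by_cases h8 : N.nb g a ∈ B
          · rw [if_pos h7, if_pos h7, if_neg (fun h9 => h9.2 h8), h1 g hg, h1 _ h8]
            simp
          · have h9 : h (N.nb g a) = 0 := by_contra fun h9 => h8 ((hB _).1 h9)
            rw [if_pos h7, if_pos h7, if_pos ⟨h7, h8⟩, h2 _ h8, h9, sub_zero, sub_zero,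
              max_eq_left (h0 g), max_eq_left (h3 g), h1 g hg]
            ring
        · simp [h7]
    have h7 : ∑ g ∈ B, h' g = ∑ g ∈ B, h g - μ * B.card := by
      rw [Finset.sum_congr rfl h1, Finset.sum_sub_distrib]
      simp [mul_comm]
    have h8 := mul_le_mul_of_nonneg_left (N.iso_real B hb) (h0 g0)
    have h9 := mul_le_mul_of_nonneg_left h5 (Nat.cast_nonneg (α := ℝ) C)
    rw [h6]
    nlinarith

theorem Net.en_nn (f : G → ℝ) (g : G) : 0 ≤ N.en f g := by
  refine add_nonneg (Finset.sum_nonneg fun a _ => ?_) ?_ <;> split_ifs <;> positivity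

theorem Net.half (f φ : G → ℝ) (U W : Finset G) (hU : N.Cov f U) (h0 : ∀ g, 0 ≤ φ g)
    (hW : ∀ g, φ g ≠ 0 → g ∈ W)
    (hb : ∀ b ∈ N.blk, 2 * (b.filter fun g => φ g ≠ 0).card ≤ b.card)
    (h1 : ∀ g, N.df g → φ g ^ 2 ≤ f g ^ 2)
    (h2 : ∀ g a, N.op g a → (φ g - φ (N.nb g a)) ^ 2 ≤ (f g - f (N.nb g a)) ^ 2) :
    ∑ g ∈ W, φ g ^ 2 ≤ (2 * C + 8 * C ^ 2 * Fintype.card A) * ∑ g ∈ U, N.en f g := by
  set B := W.filter fun g => φ g ^ 2 ≠ 0 with hB
  have h3 := N.coarea (fun g => φ g ^ 2) B (fun g => sq_nonneg _)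
    (fun g => ⟨fun hg => Finset.mem_filter.2 ⟨hW g fun h => hg (by rw [h]; simp), hg⟩,
      fun hg => (Finset.mem_filter.1 hg).2⟩)
    (fun b hb' => by
      refine le_trans (Nat.mul_le_mul_left 2 (Finset.card_le_card fun g hg => ?_)) (hb b hb')
      rw [Finset.mem_filter]
      exact ⟨(Finset.mem_inter.1 hg).2, fun h =>
        (Finset.mem_filter.1 (Finset.mem_inter.1 hg).1).2 (by rw [h]; simp)⟩)
  have h4 : ∑ g ∈ B, N.en f g ≤ ∑ g ∈ U, N.en f g := by
    rw [← Finset.sum_filter_ne_zero B]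
    refine Finset.sum_le_sum_of_subset_of_nonneg (fun g hg => ?_) fun g _ _ => N.en_nn f g
    by_contra h5
    have h6 : f g = 0 := by_contra fun h6 => h5 (hU.1 g h6)
    have h7 : ∀ a, f (N.nb g a) = 0 := fun a => by_contra fun h7 => h5 (hU.2 g a h7)
    exact (Finset.mem_filter.1 hg).2 (by simp [Net.en, h6, h7])
  have h5 : ∀ g ∈ B, (C : ℝ) * ((if N.df g then φ g ^ 2 else 0) +
      ∑ a, if N.op g a then max (φ g ^ 2 - φ (N.nb g a) ^ 2) 0 else 0) ≤
      φ g ^ 2 / 2 + (C + 4 * C ^ 2 * Fintype.card A) * N.en f g := by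
    intro g _
    set d : A → ℝ := fun a => if N.op g a then |f g - f (N.nb g a)| else 0 with hd
    have h6 : (∑ a, if N.op g a then max (φ g ^ 2 - φ (N.nb g a) ^ 2) 0 else 0) ≤
        2 * φ g * ∑ a, d a := by
      rw [Finset.mul_sum]
      refine Finset.sum_le_sum fun a _ => ?_
      by_cases h : N.op g a
      · simp only [hd, if_pos h]
        have h7 := (sq_le_sq.1 (h2 g a h))
        have h8 := le_abs_self (φ g - φ (N.nb g a))
        have h9 := h0 g
        refine max_le ?_ (by positivity)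
        nlinarith [sq_nonneg (φ g - φ (N.nb g a))]
      · simp [hd, h]
    have h7 : (∑ a, d a) ^ 2 ≤ Fintype.card A * ∑ a, d a ^ 2 := sq_sum_le_card_mul_sum_sq
    have h8 : ∑ a, d a ^ 2 = 2 * ∑ a, if N.op g a then (f g - f (N.nb g a)) ^ 2 / 2 else 0 := by
      rw [Finset.mul_sum]
      refine Finset.sum_congr rfl fun a _ => ?_
      by_cases h : N.op g a
      · simp only [hd, if_pos h, sq_abs]; ring
      · simp [hd, h]
    have h9 : (if N.df g then φ g ^ 2 else 0) ≤ if N.df g then f g ^ 2 else 0 := by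
      split_ifs with h
      · exact h1 g h
      · exact le_rfl
    have h10 : 0 ≤ ∑ a, if N.op g a then (f g - f (N.nb g a)) ^ 2 / 2 else 0 :=
      Finset.sum_nonneg fun a _ => by split_ifs <;> positivity
    have h11 : 0 ≤ if N.df g then f g ^ 2 else 0 := by split_ifs <;> positivity
    unfold Net.en
    rw [h8] at h7
    set x := ∑ a, if N.op g a then (f g - f (N.nb g a)) ^ 2 / 2 else 0
    set y := if N.df g then f g ^ 2 else 0
    have hC : (0 : ℝ) ≤ C := Nat.cast_nonneg C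
    have hA : (0 : ℝ) ≤ Fintype.card A := Nat.cast_nonneg _
    have h12 := mul_le_mul_of_nonneg_left (add_le_add h9 h6) hC
    have h13 := mul_le_mul_of_nonneg_left h7 (sq_nonneg (C : ℝ))
    have h14 : 0 ≤ (C : ℝ) ^ 2 * Fintype.card A * y := by positivity
    have h15 : 0 ≤ (C : ℝ) * x := by positivity
    nlinarith [sq_nonneg (φ g - 2 * C * ∑ a, d a)]
  rw [Finset.mul_sum] at h3
  have h6 := h3.trans (Finset.sum_le_sum h5)
  rw [Finset.sum_add_distrib, ← Finset.sum_div, ← Finset.mul_sum] at h6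
  have h7 := mul_le_mul_of_nonneg_left h4
    (by positivity : (0 : ℝ) ≤ C + 4 * C ^ 2 * Fintype.card A)
  rw [← Finset.sum_filter_ne_zero W]
  linarith

omit [Fintype A] in
theorem exists_median (f : G → ℝ) (b : Finset G) : ∃ m : ℝ,
    2 * (b.filter fun g => m < f g).card ≤ b.card ∧
      2 * (b.filter fun g => f g < m).card ≤ b.card := by
  rcases b.eq_empty_or_nonempty with rfl | hne
  · exact ⟨0, by simp, by simp⟩
  obtain ⟨g1, hg1, hmax⟩ := b.exists_max_image f hne
  obtain ⟨g0, hg0, hmin⟩ := (b.filter fun g =>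
    2 * (b.filter fun x => f g < f x).card ≤ b.card).exists_min_image f
    ⟨g1, Finset.mem_filter.2 ⟨hg1, by
      rw [Finset.filter_false_of_mem fun x hx => not_lt.2 (hmax x hx)]; simp⟩⟩
  refine ⟨f g0, (Finset.mem_filter.1 hg0).2, ?_⟩
  by_contra h
  have h1 : (b.filter fun g => f g < f g0).Nonempty := by
    rw [← Finset.card_pos]; omega
  obtain ⟨g2, hg2, h2⟩ := Finset.exists_max_image _ f h1
  have h3 : (b.filter fun x => f g2 < f x).card ≤ (b.filter fun x => ¬ f x < f g0).card :=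
    Finset.card_le_card fun x hx => Finset.mem_filter.2 ⟨(Finset.mem_filter.1 hx).1, fun h3 =>
      absurd (h2 x (Finset.mem_filter.2 ⟨(Finset.mem_filter.1 hx).1, h3⟩))
        (not_le.2 (Finset.mem_filter.1 hx).2)⟩
  have h4 := Finset.card_filter_add_card_filter_not (s := b) fun x => f x < f g0
  have h5 := hmin g2 (Finset.mem_filter.2 ⟨(Finset.mem_filter.1 hg2).1, by omega⟩)
  exact absurd (Finset.mem_filter.1 hg2).2 (not_lt.2 h5)

theorem Net.cheeger (f : G → ℝ) (U : Finset G) (hU : N.Cov f U)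
    (hb : ∀ b ∈ N.blk, ∑ g ∈ b, f g = 0) :
    ∑ g ∈ U, f g ^ 2 ≤ (4 * C + 16 * C ^ 2 * Fintype.card A) * ∑ g ∈ U, N.en f g := by
  choose med hm1 hm2 using exists_median f
  have hfin : {b | b ∈ N.blk ∧ ∃ g ∈ U, g ∈ b}.Finite := by
    refine (Set.Finite.biUnion U.finite_toSet (t := fun g => {b | b ∈ N.blk ∧ g ∈ b})
      fun g _ => Set.Subsingleton.finite fun b hb b' hb' =>
        N.blk_disj b hb.1 b' hb'.1 g hb.2 hb'.2).subset ?_
    rintro b ⟨h1, g, h2, h3⟩
    exact Set.mem_biUnion h2 ⟨h1, h3⟩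
  set S := hfin.toFinset with hS
  have hS' : ∀ b, b ∈ S ↔ b ∈ N.blk ∧ ∃ g ∈ U, g ∈ b := fun b => hfin.mem_toFinset
  set m : G → ℝ := fun g => ∑ b ∈ S, if g ∈ b then med b else 0 with hm
  set W := U ∪ S.biUnion id with hW
  have m0 : ∀ g, (∀ b ∈ S, g ∉ b) → m g = 0 := fun g h =>
    Finset.sum_eq_zero fun b hb => if_neg (h b hb)
  have m1 : ∀ b ∈ S, ∀ g ∈ b, m g = med b := fun b hb g hg => by
    rw [hm]
    beta_reduce
    rw [Finset.sum_eq_single_of_mem b hb fun b' hb' h => if_neg fun h1 =>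
      h (N.blk_disj b' ((hS' b').1 hb').1 b ((hS' b).1 hb).1 g h1 hg), if_pos hg]
  have m2 : ∀ g a, N.op g a → m (N.nb g a) = m g := fun g a h => by
    refine Finset.sum_congr rfl fun b hb => if_congr ⟨fun h1 => ?_, fun h1 => ?_⟩ rfl rfl
    · have := N.blk_op b ((hS' b).1 hb).1 _ h1 _ (N.op_rev g a h)
      rwa [N.nb_iv] at this
    · exact N.blk_op b ((hS' b).1 hb).1 _ h1 _ h
  have m3 : ∀ g, N.df g → m g = 0 := fun g h =>
    m0 g fun b hb h1 => N.blk_df b ((hS' b).1 hb).1 g h1 h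
  have m4 : ∀ g, g ∉ W → f g - m g = 0 := fun g h => by
    have h1 : f g = 0 := by_contra fun h1 => h (Finset.mem_union_left _ (hU.1 g h1))
    rw [h1, m0 g fun b hb h2 => h (Finset.mem_union_right _ (Finset.mem_biUnion.2 ⟨b, hb, h2⟩)),
      sub_zero]
  have m5 : ∀ b ∈ N.blk, b ∉ S → ∀ g ∈ b, f g - m g = 0 := fun b hb h g hg => by
    have h1 : f g = 0 := by_contra fun h1 => h ((hS' b).2 ⟨hb, g, hU.1 g h1, hg⟩)
    rw [h1, m0 g fun b' hb' h2 => h (N.blk_disj b' ((hS' b').1 hb').1 b hb g h2 hg ▸ hb'),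
      sub_zero]
  have m6 : ∑ g ∈ W, f g * m g = 0 := by
    simp only [hm, Finset.mul_sum]
    rw [Finset.sum_comm]
    refine Finset.sum_eq_zero fun b hb' => ?_
    have h1 : b ⊆ W := fun g hg => Finset.mem_union_right _ (Finset.mem_biUnion.2 ⟨b, hb', hg⟩)
    simp only [mul_ite, mul_zero]
    rw [Finset.sum_ite_mem, Finset.inter_eq_right.2 h1, ← Finset.sum_mul,
      hb b ((hS' b).1 hb').1, zero_mul]
  have key : ∀ ε : ℝ, ε ^ 2 = 1 →
      (∀ b ∈ S, 2 * (b.filter fun g => 0 < ε * (f g - med b)).card ≤ b.card) →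
      ∑ g ∈ W, max (ε * (f g - m g)) 0 ^ 2 ≤
        (2 * C + 8 * C ^ 2 * Fintype.card A) * ∑ g ∈ U, N.en f g := by
    intro ε hε h
    refine N.half f (fun g => max (ε * (f g - m g)) 0) U W hU (fun g => le_max_right _ _)
      (fun g hg => by_contra fun h1 => hg (by simp [m4 g h1])) (fun b hb' => ?_)
      (fun g hg => ?_) fun g a hg => ?_
    · by_cases h1 : b ∈ S
      · refine le_trans (Nat.mul_le_mul_left 2 (Finset.card_le_card fun g hg => ?_)) (h b h1)
        obtain ⟨h2, h3⟩ := Finset.mem_filter.1 hg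
        refine Finset.mem_filter.2 ⟨h2, by_contra fun h4 => h3 ?_⟩
        rw [m1 b h1 g h2]
        exact max_eq_right (not_lt.1 h4)
      · rw [Finset.filter_false_of_mem fun g hg h2 => h2 (by simp [m5 b hb' h1 g hg])]
        simp
    · rw [m3 g hg, sub_zero]
      rcases le_total (ε * f g) 0 with h1 | h1
      · rw [max_eq_right h1]; nlinarith [sq_nonneg (f g)]
      · rw [max_eq_left h1, mul_pow, hε, one_mul]
    · rw [m2 g a hg]
      have h1 := abs_max_sub_max_le_abs (ε * (f g - m g)) (ε * (f (N.nb g a) - m g)) 0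
      have h2 := sq_le_sq.2 h1
      refine h2.trans (le_of_eq ?_)
      calc _ = ε ^ 2 * (f g - f (N.nb g a)) ^ 2 := by ring
        _ = _ := by rw [hε, one_mul]
  have k1 := key 1 (by norm_num) fun b _ => by simpa using hm1 b
  have k2 := key (-1) (by norm_num) fun b _ => by simpa using hm2 b
  have k3 : ∑ g ∈ U, f g ^ 2 ≤ ∑ g ∈ W, f g ^ 2 :=
    Finset.sum_le_sum_of_subset_of_nonneg Finset.subset_union_left fun g _ _ => sq_nonneg _
  have k4 : ∑ g ∈ W, (f g ^ 2 - 2 * (f g * m g)) ≤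
      ∑ g ∈ W, (max (1 * (f g - m g)) 0 ^ 2 + max (-1 * (f g - m g)) 0 ^ 2) := by
    refine Finset.sum_le_sum fun g _ => ?_
    rcases le_total (f g - m g) 0 with h1 | h1
    · rw [max_eq_right (by linarith), max_eq_left (by linarith)]
      nlinarith [sq_nonneg (m g)]
    · rw [max_eq_left (by linarith), max_eq_right (by linarith)]
      nlinarith [sq_nonneg (m g)]
  rw [Finset.sum_sub_distrib, ← Finset.mul_sum, m6, Finset.sum_add_distrib] at k4
  linarith

end Vale.Agent.P089
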