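import Vale.Agent.P089.Ext
import Vale.Agent.P089.Net

/-! The isoperimetric inequality (job Iso). -/

namespace Vale.Agent.P089.Geo

open Classical

variable {S V : Type} [Fintype S] {F : Fam S V} {ω : Set ℕ} {G : Type} [Group G]
  (Ω : Geo F ω G) {x : G × (S × Bool) → ZMod 2}

/-- the number of defects at a point of `B` -/
noncomputable def dd (x : G × (S × Bool) → ZMod 2) (B : Finset G) (g : G) : ℕ :=
  if valid F x g then ((want x g).filter fun a => ¬(Ω.opn x g a ∧ g * Ω.gen a ∈ B)).card else 1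

namespace IsoX

open Finset

/-- open letters leading into a set -/
noncomputable def into (x : G × (S × Bool) → ZMod 2) (P : Finset G) (g : G) : Finset (S × Bool) :=
  univ.filter fun a => Ω.opn x g a ∧ g * Ω.gen a ∈ P

lemma mem_into {P : Finset G} {g : G} {a : S × Bool} :
    a ∈ into Ω x P g ↔ Ω.opn x g a ∧ g * Ω.gen a ∈ P := by simp [into]

lemma dd_sdiff (B P : Finset G) (g : G) :
    Ω.dd x (B \ P) g ≤ Ω.dd x B g + (into Ω x P g).card := by
  unfold dd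
  split_ifs
  · refine (card_le_card fun a ha => ?_).trans (card_union_le _ _)
    simp only [mem_union, mem_filter, mem_into, mem_sdiff] at ha ⊢
    tauto
  · omega

lemma into_le (P : Finset G) (g : G) : (into Ω x P g).card ≤ F.D := by
  rcases (into Ω x P g).eq_empty_or_nonempty with h | ⟨a, ha⟩
  · simp [h]
  · exact (card_le_card fun b hb => ((mem_into Ω).1 hb).1.2.2.1).trans
      ((mem_into Ω).1 ha).1.1.2.1

lemma back (g : G) (a : S × Bool) : g * Ω.gen a * Ω.gen (iv a) = g := by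
  rw [Ω.gen_iv, mul_inv_cancel_right]

variable {B : Finset G}

lemma deg (H : ∀ P ⊆ B, P.Nonempty → 2 * (F.D + 1) * ∑ g ∈ P, Ω.dd x B g <
      2 * (F.D + 1) * ∑ g ∈ B \ P, (into Ω x P g).card + P.card) {g : G} (hg : g ∈ B) :
    4 ≤ (into Ω x B g).card := by
  have h1 := H {g} (singleton_subset_iff.2 hg) (singleton_nonempty g)
  have h2 : ∑ p ∈ B \ {g}, (into Ω x {g} p).card ≤ (into Ω x B g).card := by
    rw [← card_sigma]
    refine card_le_card_of_injOn (fun p => iv p.2) (fun p hp => ?_) fun p hp q hq e => ?_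
    · obtain ⟨a1, a2⟩ := mem_sigma.1 (mem_coe.1 hp)
      obtain ⟨a3, a4⟩ := (mem_into Ω).1 a2
      rw [mem_coe, mem_into, ← mem_singleton.1 a4, back]
      exact ⟨a3.rev, (mem_sdiff.1 a1).1⟩
    · have a1 := mem_singleton.1 ((mem_into Ω).1 (mem_sigma.1 (mem_coe.1 hp)).2).2
      have a2 := mem_singleton.1 ((mem_into Ω).1 (mem_sigma.1 (mem_coe.1 hq)).2).2
      have a3 : p.2 = q.2 := by simpa using congrArg iv e
      rw [a3, ← a2] at a1
      exact Sigma.ext (mul_right_cancel a1) (heq_of_eq a3)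
  rw [sum_singleton, card_singleton] at h1
  have h3 : Ω.dd x B g ≤ (into Ω x B g).card :=
    (Nat.le_of_mul_le_mul_left (Nat.lt_succ_iff.1 h1) (by omega)).trans h2
  unfold dd at h3
  split_ifs at h3 with hv
  · have h4 : (want x g).card ≤ ((want x g).filter
        fun a => ¬(Ω.opn x g a ∧ g * Ω.gen a ∈ B)).card + (into Ω x B g).card := by
      refine (card_le_card fun a ha => ?_).trans (card_union_le _ _)
      simp only [mem_union, mem_filter, mem_into]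
      tauto
    have := hv.1
    omega
  · obtain ⟨a, ha⟩ := card_pos.1 h3
    exact absurd ((mem_into Ω).1 ha).1.1 hv

lemma half (hx : x ∈ Ω.XX) (h : ∀ R, Ω.full x R → 2 * (B ∩ Ω.blk R).card ≤ (Ω.blk R).card)
    {R : G × ℕ} (hR : R.2 ∈ ω) {Pt : Finset V} (h1 : Pt ⊆ F.lv R.2)
    (h2 : ∀ v ∈ Pt, R.1 * Ω.θ v ∈ B ∧ want x (R.1 * Ω.θ v) = F.out v) :
    2 * Pt.card ≤ (F.lv R.2).card := by
  by_contra hcon
  have a1 := F.code_dist R.2 _ (sub_mem (hx R hR) (F.pat_mem R.2)) Pt h1 (by omega) fun v hv a => by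
    have b1 := F.mem_lv.1 (h1 hv)
    have b2 : a ∈ F.out v ↔ x (R.1 * Ω.θ v, a) = 1 := by rw [← (h2 v hv).2]; simp [want]
    simp only [Pi.sub_apply, res, b1, if_true, true_and, b2]
    generalize x (R.1 * Ω.θ v, a) = z
    have hz : ∀ z : ZMod 2, z = 0 ∨ z = 1 := by decide
    rcases hz z with rfl | rfl <;> simp
  have a2 := h R ((Ω.full_iff hR).2 (sub_eq_zero.1 a1))
  rw [Ω.card_blk hR] at a2
  have a3 : Pt.card ≤ (B ∩ Ω.blk R).card := card_le_card_of_injOn (fun v => R.1 * Ω.θ v)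
    (fun v hv => mem_coe.2 (mem_inter.2 ⟨(h2 v hv).1, Ω.mem_blk.2 ⟨v, F.mem_lv.1 (h1 hv), rfl⟩⟩))
    fun v hv w hw e => Ω.θ_inj ((F.mem_lv.1 (h1 hv)).symm ▸ hR)
      ((F.mem_lv.1 (h1 hw)).trans (F.mem_lv.1 (h1 hv)).symm) (mul_left_cancel e)
  omega

lemma bd_le {R : G × ℕ} (hR : R.2 ∈ ω) {Pt : Finset V} (h1 : Pt ⊆ F.lv R.2)
    (h2 : ∀ v ∈ Pt, want x (R.1 * Ω.θ v) = F.out v) :
    (F.bd Pt).card ≤ ∑ v ∈ Pt, Ω.dd x B (R.1 * Ω.θ v) +
      (((F.lv R.2).filter fun v => R.1 * Ω.θ v ∈ B) \ Pt).card * F.D := by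
  let nb : V → S × Bool → V := fun v b => if h : ∃ w, F.st v b w then h.choose else v
  have hnb : ∀ v b w, F.st v b w → nb v b = w := fun v b w h => by
    have h' : ∃ w, F.st v b w := ⟨w, h⟩
    simp only [nb, dif_pos h']
    exact F.st_fun h'.choose_spec h
  refine (card_le_card (t := (Pt.biUnion fun v => ((want x (R.1 * Ω.θ v)).filter fun a =>
      ¬(Ω.opn x (R.1 * Ω.θ v) a ∧ R.1 * Ω.θ v * Ω.gen a ∈ B)).image fun a => (v, a)) ∪
      (((F.lv R.2).filter fun v => R.1 * Ω.θ v ∈ B) \ Pt).biUnion fun w =>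
        (F.out w).image fun b => (nb w b, iv b)) ?_).trans ((card_union_le _ _).trans
      (add_le_add (card_biUnion_le.trans (sum_le_sum fun v hv => card_image_le.trans ?_))
        (card_biUnion_le_card_mul _ _ _ fun w _ => card_image_le.trans (F.deg w).2)))
  · rintro ⟨v, a⟩ hp
    obtain ⟨a1, w, a2, a3⟩ := mem_filter.1 hp
    have a4 := (mem_product.1 a1).1
    have a5 := F.mem_lv.1 (h1 a4)
    by_cases hw : R.1 * Ω.θ w ∈ B
    · refine mem_union_right _ (mem_biUnion.2 ⟨w, mem_sdiff.2 ⟨mem_filter.2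
        ⟨F.mem_lv.2 ((F.lev_st a2).trans a5), hw⟩, a3⟩, mem_image.2 ⟨iv a,
          F.mem_out.2 ⟨v, F.st_rev a2⟩, ?_⟩⟩)
      rw [hnb _ _ _ (F.st_rev a2), iv_iv]
    · refine mem_union_left _ (mem_biUnion.2 ⟨v, a4, mem_image.2 ⟨a, mem_filter.2
        ⟨h2 v a4 ▸ F.mem_out.2 ⟨w, a2⟩, fun h => hw ?_⟩, rfl⟩⟩)
      rw [Ω.θ_st (a5 ▸ hR) a2, ← mul_assoc]
      exact h.2
  · have : valid F x (R.1 * Ω.θ v) := by
      unfold valid
      rw [h2 v hv]
      exact ⟨(F.deg v).1, (F.deg v).2, F.tag_eq v⟩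
    rw [dd, if_pos this]

lemma ex (hx : x ∈ Ω.XX) (h : ∀ R, Ω.full x R → 2 * (B ∩ Ω.blk R).card ≤ (Ω.blk R).card)
    (H : ∀ P ⊆ B, P.Nonempty → 2 * (F.D + 1) * ∑ g ∈ P, Ω.dd x B g <
      2 * (F.D + 1) * ∑ g ∈ B \ P, (into Ω x P g).card + P.card) {R : G × ℕ} (hR : R.2 ∈ ω) :
    ((F.lv R.2).filter fun v => R.1 * Ω.θ v ∈ B).card ≤
      3 * (F.D + 1) ^ 2 * ((F.lv R.2).filter fun v => R.1 * Ω.θ v ∈ B ∧
        ∃ a, a ∉ F.out v ∧ R.1 * Ω.θ v * Ω.gen a ∈ B ∧ Ω.opn x (R.1 * Ω.θ v) a).card := by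
  set L := (F.lv R.2).filter fun v => R.1 * Ω.θ v ∈ B with hL
  set Ex := (F.lv R.2).filter fun v => R.1 * Ω.θ v ∈ B ∧
    ∃ a, a ∉ F.out v ∧ R.1 * Ω.θ v * Ω.gen a ∈ B ∧ Ω.opn x (R.1 * Ω.θ v) a with hEx
  have hEL : Ex ⊆ L := fun v hv => mem_filter.2 ⟨(mem_filter.1 hv).1, (mem_filter.1 hv).2.1⟩
  set T := L \ Ex with hT
  have hTL : ∀ v ∈ T, F.lev v = R.2 ∧ R.1 * Ω.θ v ∈ B ∧
      ∀ a, R.1 * Ω.θ v * Ω.gen a ∈ B → Ω.opn x (R.1 * Ω.θ v) a → a ∈ F.out v := fun v hv => by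
    obtain ⟨a1, a2⟩ := mem_sdiff.1 hv
    obtain ⟨a3, a4⟩ := mem_filter.1 a1
    refine ⟨F.mem_lv.1 a3, a4, fun a b1 b2 => ?_⟩
    by_contra b3
    exact a2 (mem_filter.2 ⟨a3, a4, a, b3, b1, b2⟩)
  have c0 : L.card = T.card + Ex.card := (card_sdiff_add_card_eq_card hEL).symm
  rcases T.eq_empty_or_nonempty with h0 | h0
  · rw [c0, h0, card_empty, zero_add]
    exact Nat.le_mul_of_pos_left _ (by positivity)
  have hinj : Set.InjOn (fun v => R.1 * Ω.θ v) T := fun v hv w hw e =>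
    Ω.θ_inj ((hTL v hv).1.symm ▸ hR) ((hTL w hw).1.trans (hTL v hv).1.symm) (mul_left_cancel e)
  have c1 := H (T.image fun v => R.1 * Ω.θ v) (image_subset_iff.2 fun v hv => (hTL v hv).2.1)
    (h0.image _)
  rw [sum_image hinj, card_image_of_injOn hinj] at c1
  have c2 : ∑ g ∈ B \ T.image fun v => R.1 * Ω.θ v,
      (into Ω x (T.image fun v => R.1 * Ω.θ v) g).card ≤ Ex.card * F.D := by
    refine (sum_le_sum_of_ne_zero (t := Ex.image fun v => R.1 * Ω.θ v) fun g hg hne => ?_).trans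
      ((sum_le_card_nsmul _ _ _ fun g _ => into_le Ω _ g).trans
        (Nat.mul_le_mul_right _ card_image_le))
    obtain ⟨a, ha⟩ := card_ne_zero.1 hne
    obtain ⟨a1, a2⟩ := (mem_into Ω).1 ha
    obtain ⟨v, hv, e⟩ := mem_image.1 a2
    obtain ⟨b1, b2⟩ := mem_sdiff.1 hg
    obtain ⟨w, hw⟩ := F.mem_out.1 ((hTL v hv).2.2 (iv a) (by rwa [e, back]) (e ▸ a1.rev))
    have b3 : R.1 * Ω.θ w = g := by
      rw [Ω.θ_st ((hTL v hv).1 ▸ hR) hw, ← mul_assoc, e, back]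
    refine mem_image.2 ⟨w, ?_, b3⟩
    by_contra b4
    exact b2 (mem_image.2 ⟨w, mem_sdiff.2 ⟨mem_filter.2
      ⟨F.mem_lv.2 ((F.lev_st hw).trans (hTL v hv).1), b3 ▸ b1⟩, b4⟩, b3⟩)
  set Pt := T.filter fun v => want x (R.1 * Ω.θ v) = F.out v with hPt
  have hPT : Pt ⊆ T := filter_subset _ _
  have hPl : Pt ⊆ F.lv R.2 := fun v hv => F.mem_lv.2 (hTL v (hPT hv)).1
  have c3 : (T \ Pt).card ≤ ∑ v ∈ T \ Pt, Ω.dd x B (R.1 * Ω.θ v) := by
    rw [card_eq_sum_ones]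
    refine sum_le_sum fun v hv => ?_
    obtain ⟨a1, a2⟩ := mem_sdiff.1 hv
    unfold dd
    split_ifs with hv
    · by_contra a3
      have a4 : want x (R.1 * Ω.θ v) ⊆ F.out v := fun a ha => by
        by_contra a5
        exact a3 (card_pos.2 ⟨a, mem_filter.2 ⟨ha, fun h => a5 ((hTL v a1).2.2 a h.2 h.1)⟩⟩)
      obtain ⟨a, ha⟩ := card_pos.1 (lt_of_lt_of_le (by norm_num) hv.1)
      exact a2 (mem_filter.2 ⟨a1, eq_of_subset_of_card_le a4
        ((F.tag_eq v a (a4 ha)).symm.trans (hv.2.2 a ha)).le⟩)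
    · rfl
  have c4 := (F.expand R.2 Pt hPl (half Ω hx h hR hPl fun v hv =>
    ⟨(hTL v (hPT hv)).2.1, (mem_filter.1 hv).2⟩)).trans
    (bd_le Ω (B := B) hR hPl fun v hv => (mem_filter.1 hv).2)
  have c5 := card_sdiff_add_card_eq_card hPT
  have c6 := card_sdiff_add_card_eq_card (hPT.trans sdiff_subset)
  rw [← sum_sdiff hPT] at c1
  rw [← hL] at c4
  have c7 : (L \ Pt).card = (T \ Pt).card + Ex.card := by omega
  rw [c7] at c4
  rw [c0, ← c5]
  rw [← c5] at c1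
  have c8 := c1.trans_le (add_le_add (Nat.mul_le_mul_left _ c2) le_rfl)
  generalize (T \ Pt).card = q at *
  generalize Pt.card = p at *
  generalize Ex.card = e at *
  generalize ∑ v ∈ T \ Pt, Ω.dd x B (R.1 * Ω.θ v) = dq at *
  generalize ∑ v ∈ Pt, Ω.dd x B (R.1 * Ω.θ v) = dp at *
  generalize F.D = D at *
  have d1 := Nat.mul_le_mul_left (D + 1) c3
  clear c0 c1 c2 c5 c6 c7
  nlinarith [Nat.zero_le (D * dp), Nat.zero_le (D * D * e), Nat.zero_le (D * e)]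

end IsoX

open IsoX

theorem iso_dd (hx : x ∈ Ω.XX) (B : Finset G)
    (h : ∀ R, Ω.full x R → 2 * (B ∩ Ω.blk R).card ≤ (Ω.blk R).card) :
    B.card ≤ 2 * (F.D + 1) * ∑ g ∈ B, Ω.dd x B g := by
  induction hn : B.card using Nat.strong_induction_on generalizing B with
  | _ n ih =>
    subst hn
    by_contra hcon
    have H : ∀ P ⊆ B, P.Nonempty → 2 * (F.D + 1) * ∑ g ∈ P, Ω.dd x B g <
        2 * (F.D + 1) * ∑ g ∈ B \ P, (into Ω x P g).card + P.card := fun P hP hne => by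
      have a1 := Finset.card_sdiff_add_card_eq_card hP
      have a2 := hne.card_pos
      have a3 := ih _ (by omega) (B \ P) (fun R hR => le_trans (Nat.mul_le_mul_left _
        (Finset.card_le_card (Finset.inter_subset_inter_right Finset.sdiff_subset))) (h R hR)) rfl
      have a4 := a3.trans (Nat.mul_le_mul_left _ (Finset.sum_le_sum fun g _ => dd_sdiff Ω B P g))
      rw [← Finset.sum_sdiff hP, mul_add] at hcon
      rw [Finset.sum_add_distrib, mul_add] at a4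
      omega
    exact Ω.not_tight x B ⟨Finset.card_pos.1 (by omega), fun g hg => deg Ω H hg,
      fun R hR => ex Ω hx h H hR⟩

theorem exists_net (hx : x ∈ Ω.XX) : ∃ N : Net G (S × Bool) (2 * (F.D + 1) * (F.D + 1)),
    (∀ g a, N.nb g a = g * Ω.gen a) ∧ (∀ g a, N.op g a ↔ Ω.opn x g a) ∧
    (∀ g, N.df g ↔ Ω.dfc x g) ∧ ∀ b, b ∈ N.blk ↔ ∃ R, Ω.full x R ∧ b = Ω.blk R := by
  refine ⟨{ nb := fun g a => g * Ω.gen a
            iv := iv
            iv_iv := iv_iv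
            nb_iv := back Ω
            op := Ω.opn x
            op_rev := fun g a h => h.rev
            df := Ω.dfc x
            blk := {b | ∃ R, Ω.full x R ∧ b = Ω.blk R}
            blk_df := ?_
            blk_op := ?_
            blk_disj := ?_
            iso := fun B hB => ?_ }, fun _ _ => rfl, fun _ _ => Iff.rfl, fun _ => Iff.rfl,
    fun _ => Iff.rfl⟩
  · rintro _ ⟨R, hR, rfl⟩ g hg
    exact hR.not_dfc hg
  · rintro _ ⟨R, hR, rfl⟩ g hg a ha
    exact hR.closed hg ha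
  · rintro _ ⟨R, hR, rfl⟩ _ ⟨R', hR', rfl⟩ g hg hg'
    rw [hR.eq hR' hg hg']
  · refine (Ω.iso_dd hx B fun R hR => hB _ ⟨R, hR, rfl⟩).trans ?_
    rw [mul_assoc (2 * (F.D + 1)), Finset.card_filter, Finset.card_filter, Finset.sum_product,
      ← Finset.sum_add_distrib, Finset.mul_sum _ _ (F.D + 1)]
    refine Nat.mul_le_mul_left _ (Finset.sum_le_sum fun g _ => ?_)
    rw [← Finset.card_filter]
    unfold dd
    by_cases hd : Ω.dfc x g
    · rw [if_pos hd]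
      refine le_trans ?_ (Nat.le_mul_of_pos_right _ (by omega))
      split_ifs with hv
      · exact (Finset.card_filter_le _ _).trans (hv.2.1.trans (Nat.le_succ _))
      · omega
    · rw [if_neg hd, zero_add]
      unfold dfc at hd
      push Not at hd
      rw [if_pos hd.1]
      refine le_trans (Finset.card_le_card fun a ha => ?_) (Nat.le_mul_of_pos_left _ (by omega))
      obtain ⟨a1, a2⟩ := Finset.mem_filter.1 ha
      exact Finset.mem_filter.2 ⟨Finset.mem_univ _, hd.2 a a1, fun h => a2 ⟨hd.2 a a1, h⟩⟩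

end Vale.Agent.P089.Geo
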