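import Vale.Agent.P089.Tr

/-! The regular representation of the group algebra (job Lam). -/

namespace Vale.Agent.P089

open Filter Topology

variable {Γ : Type} [Group Γ]

variable (Γ) in
/-- the left regular representation -/
noncomputable def lam : MonoidAlgebra ℂ Γ →ₐ[ℂ] (L2 Γ ℂ →L[ℂ] L2 Γ ℂ) :=
  MonoidAlgebra.lift ℂ (L2 Γ ℂ →L[ℂ] L2 Γ ℂ) Γ
    { toFun := fun g => amp g (ContinuousLinearMap.id ℂ ℂ)
      map_one' := amp_id
      map_mul' := fun g h =>
        (amp_comp g h (ContinuousLinearMap.id ℂ ℂ) (ContinuousLinearMap.id ℂ ℂ)).symm }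

lemma lam_single (g : Γ) (c : ℂ) :
    lam Γ (MonoidAlgebra.single g c) = c • amp g (ContinuousLinearMap.id ℂ ℂ) := by
  rw [lam, MonoidAlgebra.lift_single]
  rfl

lemma lam_mem (y : MonoidAlgebra ℂ Γ) : lam Γ y ∈ Mor Γ ℂ ℂ := by
  induction y using MonoidAlgebra.induction_linear with
  | zero => rw [map_zero]; exact Submodule.zero_mem _
  | add x y hx hy => rw [map_add]; exact Submodule.add_mem _ hx hy
  | single g c => rw [lam_single]; exact Submodule.smul_mem _ _ (amp_mem_Mor _ _)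

lemma tau_lam (y : MonoidAlgebra ℂ Γ) : tau (lam Γ y) = y.coeff 1 := by
  classical
  induction y using MonoidAlgebra.induction_linear with
  | zero => simpa using tau_smul 0 (0 : L2 Γ ℂ →L[ℂ] L2 Γ ℂ)
  | add x y hx hy => rw [map_add, tau_add, hx, hy]; rfl
  | single g c =>
    rw [lam_single, tau_smul, tau_amp, MonoidAlgebra.coeff_single, Finsupp.single_apply]
    split_ifs <;> simp

namespace LamX

/-- the vector of an element of the group algebra -/
noncomputable def vec (ξ : MonoidAlgebra ℂ Γ) : L2 Γ ℂ :=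
  ⟨fun g => ξ.coeff g, (memℓp_zero ξ.coeff.hasFiniteSupport).of_exponent_ge zero_le⟩

omit [Group Γ] in
lemma norm_vec (ξ : MonoidAlgebra ℂ Γ) : ‖vec ξ‖ ^ 2 = ξ.coeff.sum fun _ c => ‖c‖ ^ 2 := by
  have h := lp.hasSum_norm (by norm_num) (vec ξ)
  simp only [ENNReal.toReal_ofNat, Real.rpow_ofNat] at h
  refine h.unique (hasSum_sum_of_ne_finset_zero fun g hg => ?_)
  have : vec ξ g = 0 := Finsupp.notMem_support_iff.1 hg
  rw [this, norm_zero, zero_pow two_ne_zero]

lemma lam_vec (y ξ : MonoidAlgebra ℂ Γ) : lam Γ y (vec ξ) = vec (y * ξ) := by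
  induction y using MonoidAlgebra.induction_linear with
  | zero => rw [map_zero, zero_mul]; rfl
  | add x y hx hy => rw [map_add, add_mul, add_apply, hx, hy]; rfl
  | single g c =>
    rw [lam_single]
    exact lp.ext (funext fun h => (MonoidAlgebra.coeff_single_mul_apply ξ c g h).symm)

end LamX

open LamX

/-- the norm can be tested on the group algebra -/
theorem norm_lam_le (y : MonoidAlgebra ℂ Γ) {C : ℝ} (hC : 0 ≤ C)
    (h : ∀ ξ : MonoidAlgebra ℂ Γ, ((y * ξ).coeff.sum fun _ c => ‖c‖ ^ 2) ≤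
      C ^ 2 * ξ.coeff.sum fun _ c => ‖c‖ ^ 2) : ‖lam Γ y‖ ≤ C := by
  classical
  refine ContinuousLinearMap.opNorm_le_bound _ hC fun v => ?_
  have hc : IsClosed {v : L2 Γ ℂ | ‖lam Γ y v‖ ≤ C * ‖v‖} := isClosed_le (by fun_prop) (by fun_prop)
  refine hc.mem_of_tendsto (lp.hasSum_single (by norm_num) v) (Eventually.of_forall fun s => ?_)
  have e : ∑ i ∈ s, lp.single 2 i (v i) = vec (∑ i ∈ s, MonoidAlgebra.single i (v i)) := by
    refine lp.ext (funext fun g => ?_)
    change _ = (∑ i ∈ s, MonoidAlgebra.single i (v i)).coeff g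
    rw [lp.coeFn_sum, Finset.sum_apply, MonoidAlgebra.coeff_sum, Finsupp.finset_sum_apply]
    refine Finset.sum_congr rfl fun i _ => ?_
    simp [Finsupp.single_apply, Pi.single_apply, eq_comm]
  change ‖lam Γ y (∑ i ∈ s, lp.single 2 i (v i))‖ ≤ C * ‖∑ i ∈ s, lp.single 2 i (v i)‖
  rw [e, lam_vec]
  refine (abs_le_of_sq_le_sq' ?_ (by positivity)).2
  rw [mul_pow, norm_vec, norm_vec]
  exact h _

theorem exists_limit (y : MonoidAlgebra ℂ Γ) {q : ℝ} (h0 : 0 ≤ q) (h1 : q < 1)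
    (h : ∀ j, ‖lam Γ (y ^ (j + 1) - y ^ j)‖ ≤ q ^ j) :
    ∃ p ∈ Mor Γ ℂ ℂ, p ∘L p = p ∧ Tendsto (fun j => (y ^ j).coeff 1) atTop (𝓝 (tau p)) := by
  obtain ⟨p, hp⟩ := cauchySeq_tendsto_of_complete (cauchySeq_of_le_geometric q 1 h1
    (f := fun j => lam Γ (y ^ j)) fun j => by
      rw [dist_eq_norm', ← map_sub, one_mul]
      exact h j)
  refine ⟨p, isClosed_Mor.mem_of_tendsto hp (Eventually.of_forall fun j => lam_mem _), ?_, ?_⟩
  · have h2 : Tendsto (fun j => lam Γ (y ^ (j + j))) atTop (𝓝 p) :=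
      hp.comp (tendsto_atTop_mono (fun j => by simp only [id]; omega) tendsto_id)
    simp only [pow_add, map_mul] at h2
    exact tendsto_nhds_unique (hp.mul hp) h2
  · simpa only [Function.comp_def, tau_lam] using (continuous_tau.tendsto p).comp hp

end Vale.Agent.P089
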