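import Vale.Agent.P089.Link
import Vale.Agent.P089.FinRep
import Vale.Agent.P089.Count
import Vale.Agent.P089.Indu
import Vale.Agent.P089.Mat
import Vale.Agent.P089.Cyc

/-! The trace of an index lies in the countable set `TS` (job MainA). -/

namespace Vale.Agent.P089

variable {G : Type} [Group G] {Z : Type} [TopologicalSpace Z] [T2Space Z] [MulAction G Z]
  [ContinuousConstSMul G Z] [ProperlyDiscontinuousSMul G Z] {H : Type}
  [NormedAddCommGroup H] [InnerProductSpace ℂ H] [CompleteSpace H]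
  (x : Cycle G H Z) (c : Cutoff G Z)

namespace MainAX

open scoped Pointwise

lemma mulOn_hom {Λ Λ' : Type} [Group Λ] [Group Λ'] {S : Finset G} {s : G → Λ} (hs : MulOn S s)
    (θ : Λ →* Λ') : MulOn S fun g => θ (s g) := fun g hg h hh hgh => by
  rw [← map_mul, hs g hg h hh hgh]

lemma mulOn_id (S : Finset G) : MulOn S (id : G → G) := fun _ _ _ _ _ => rfl

omit [T2Space Z] in
/-- the index over any group is a difference of traces of idempotents -/
lemma idx_eq {Λ : Type} [Group Λ] {φ : G → Λ} (hφ : MulOn (SS c) φ) {r : ℂ}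
    (h : (trD Λ H).Idx (gr Λ x) (PP x c φ) r) : ∃ a b : Idem Λ, r = Tr a.e - Tr b.e := by
  have h1 := (PP_good x c φ).adm (PP_idem x c hφ)
  have h2 := (PP_good x c φ).par (PP_idem x c hφ)
  obtain ⟨a, b, S, hS, R, hR, e1, e2, e3⟩ := finrep h1 h2.1 h2.2
  exact ⟨a, b, link h1 h a b hS hR e1 e2 e3⟩

omit [T2Space Z] in
lemma idx_ind {Λ Λ' : Type} [Group Λ] [Group Λ'] (θ : Λ →* Λ') (hθ : Function.Injective θ)
    (φ : G → Λ) {r : ℂ} (h : (trD Λ H).Idx (gr Λ x) (PP x c φ) r) :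
    (trD Λ' H).Idx (gr Λ' x) (PP x c fun g => θ (φ g)) r :=
  indu θ hθ (SS c) φ _ h

lemma clif' {Λ : Type} [Group Λ] {N : ℕ} {F γ : H →L[ℂ] H} {e1 : γ * γ = 1}
    {e2 : γ * F = -(F * γ)} (P : (Fin N → Bool) → MorA Λ H) (m : Fin N → Bool → MorA Λ H)
    (r : (Fin N → Bool) → ℂ) (hP : ∀ J, (trD Λ H).Good (grd Λ F γ e1 e2) (P J))
    (hPP : ∀ J, P J * P J = P J) (hm : ∀ j b, (trD Λ H).Good (grd Λ F γ e1 e2) (m j b))
    (h1 : ∀ j J, m j (J j) * P J = P (Function.update J j (!J j)) * m j (J j))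
    (h2 : ∀ J, (∑ j, m j (!J j) * m j (J j)) * P J = P J)
    (h3 : ∀ j j' b b', j ≠ j' → m j b * m j' b' = m j' b' * m j b)
    (hr : ∀ J, (trD Λ H).Idx (grd Λ F γ e1 e2) (P J) (r J)) (hN : 0 < N) {r' : ℂ}
    (hr' : ∀ J, J ≠ (fun _ => false) → r J = r') : r (fun _ => false) = r' :=
  (exists_matD (G := Λ) (Fin N → Bool) e1 e2).elim fun _ h => h.elim fun _ h => h.elim
    fun _ h => h.elim fun _ h => h.elim fun M => clif M P m r hP hPP hm h1 h2 h3 hr hN hr'

omit [T2Space Z] in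
/-- the cube argument -/
lemma cube [DecidableEq G] {ρ : Finset G → ZeroAtInftyContinuousMap Z ℂ} (hρ : Gap c (SS c) ρ)
    {Λ : Type} [Group Λ] (φ : (Fin ((SS c).card + 1) → Bool) → G → Λ)
    (w : Fin ((SS c).card + 1) → Bool → Finset G → Λ) (hφ : ∀ J, MulOn (SS c) (φ J))
    (h1 : ∀ j (J : Fin ((SS c).card + 1) → Bool), ∀ g ∈ SS c, ∀ σ : Finset G, σ.Nonempty →
      σ ⊆ SS c → g⁻¹ • σ ⊆ SS c →
      w j (J j) σ * φ J g = φ (Function.update J j (!J j)) g * w j (J j) (g⁻¹ • σ))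
    (h2 : ∀ j b σ, w j (!b) σ * w j b σ = 1)
    (h3 : ∀ j j' b b' σ σ', j ≠ j' → w j b σ * w j' b' σ' = w j' b' σ' * w j b σ) {r r' : ℂ}
    (hr : (trD Λ H).Idx (gr Λ x) (PP x c (φ fun _ => false)) r)
    (hr' : ∀ J, J ≠ (fun _ => false) → (trD Λ H).Idx (gr Λ x) (PP x c (φ J)) r') : r = r' := by
  have a1 : ∀ J, (trD Λ H).Idx (gr Λ x) (PP x c (φ J))
      (if J = fun _ => false then r else r') := fun J => by
    split_ifs with hJ
    · rw [hJ]
      exact hr
    · exact hr' J hJ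
  have key := clif' (e1 := x.γ_sq) (e2 := x.γ_F) (fun J => PP x c (φ J))
    (fun j b => mm x c ρ j (w j b)) (fun J => if J = fun _ => false then r else r')
    (fun J => PP_good x c _) (fun J => PP_idem x c (hφ J)) (fun j b => mm_good x c _ _ _)
    (fun j J => mm_intertwine x c hρ j (h1 j J))
    (fun J => mm_sum x c hρ (t := fun j => w j (J j)) (t' := fun j => w j (!J j))
      (fun j σ => h2 j (J j) σ) (φ J))
    (fun j j' b b' hj => mm_comm x c ρ j j' fun σ σ' => h3 j j' b b' σ σ' hj)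
    a1 (Nat.succ_pos _) (r' := r') fun J hJ => if_neg hJ
  simpa using key

end MainAX

theorem exists_index : ∃ k, IsIndex x c k := by
  have h1 := (PP_good x c id).adm (PP_idem x c (MainAX.mulOn_id _))
  have h2 := (PP_good x c id).par (PP_idem x c (MainAX.mulOn_id _))
  obtain ⟨a, b, S, hS, R, hR, e1, e2, e3⟩ := finrep h1 h2.1 h2.2
  refine ⟨cls a - cls b, a, b, rfl, S, hS, R, hR, ?_, ?_, ?_⟩
  · rw [projP_eq]
    exact e1
  · rw [projM_eq]
    exact e2
  · rw [projT_eq]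
    exact e3

theorem idx_mem {r : ℂ} (h : (trD G H).Idx (gr G x) (PP x c id) r) : r ∈ TS := by
  classical
  obtain ⟨k, rel, s, q, Λ, _, α, β, t, hα, hβ, hs, hq, ht⟩ := exists_tw (SS c)
  obtain ⟨r', hr'⟩ := TrD.exists_idx (PP_good x c s) (PP_idem x c hs)
  obtain ⟨a, b, hab⟩ := MainAX.idx_eq x c hs hr'
  refine ⟨k, rel, a, b, Eq.trans ?_ hab⟩
  obtain ⟨ρ, hρ⟩ := exists_gap c
  let θ : (Fin ((SS c).card + 1) → Bool) →
      PresentedGroup (rel : Set (FreeGroup (Fin k))) →* (Fin ((SS c).card + 1) → Λ) :=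
    fun J => MonoidHom.pi fun j => if J j then α else β.comp q
  have hθ : ∀ J u j, θ J u j = if J j then α u else β (q u) := fun J u j => by
    change (if J j then α else β.comp q) u = _
    split_ifs <;> rfl
  let w : Bool → Finset G → Λ := fun b σ => if b then (t σ)⁻¹ else t σ
  refine MainAX.cube x c hρ (fun J g => θ J (s g)) (fun j b σ => Pi.mulSingle j (w b σ))
    (fun J => MainAX.mulOn_hom hs _) (fun j J g hg σ h1 h2 h3 => ?_) (fun j b σ => ?_)
    (fun j j' b b' σ σ' hj => Pi.mulSingle_commute hj _ _) ?_ fun J hJ => ?_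
  · funext i
    have e := ht g hg σ h1 h2 h3
    rw [Pi.mul_apply, Pi.mul_apply, hθ, hθ, hq g hg]
    by_cases hi : i = j
    · subst hi
      rw [Pi.mulSingle_eq_same, Pi.mulSingle_eq_same, Function.update_self]
      cases J i
      · simpa [w] using e
      · simp only [w, if_true, Bool.not_true, Bool.false_eq_true, if_false]
        rw [inv_mul_eq_iff_eq_mul, ← mul_assoc, e, mul_inv_cancel_right]
    · rw [Pi.mulSingle_eq_of_ne hi, Pi.mulSingle_eq_of_ne hi, Function.update_of_ne hi, one_mul,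
        mul_one]
  · rw [← Pi.mulSingle_mul]
    cases b <;> simp [w]
  · have h1 := MainAX.idx_ind x c (MonoidHom.pi fun _ : Fin ((SS c).card + 1) => β)
      (fun u v huv => hβ (congrFun huv 0)) id h
    rwa [PP_congr x c (φ' := fun g => θ (fun _ => false) (s g)) fun g hg => by
      funext j
      rw [hθ, hq g hg]
      rfl] at h1
  · refine MainAX.idx_ind x c (θ J) (fun u v huv => hα ?_) s hr'
    obtain ⟨j, hj⟩ := Function.ne_iff.1 hJ
    have := congrFun huv j
    rwa [hθ, hθ, if_pos (by simpa using hj), if_pos (by simpa using hj)] at this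

theorem index_mem {k : K0 G} (h : IsIndex x c k) : tauK k ∈ TS := by
  obtain ⟨a, b, rfl, S, hS, R, hR, e1, e2, e3⟩ := h
  have h0 := PP_idem x c (MainAX.mulOn_id (SS c))
  obtain ⟨r, hr⟩ := TrD.exists_idx (PP_good x c id) h0
  rw [projT_eq] at e3
  rw [projP_eq] at e1
  rw [projM_eq] at e2
  rw [map_sub, tauK_cls, tauK_cls, ← link ((PP_good x c id).adm h0) hr a b hS hR e1 e2 e3]
  exact idx_mem x c hr

end Vale.Agent.P089
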