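import Vale.Agent.P089.Dist

/-! Walks of type `W` do not close up (job NoClose). -/

namespace Vale.Agent.P089.Geo

namespace NoCloseX

lemma chain {E Bk : Finset ℕ} {V : Type} {u v : ℕ → V}
    (h : ∀ i ∈ E, i ∉ Bk → i + 1 ∈ E ∧ u (i + 1) = v i) {i L : ℕ} (hi : i ∈ E)
    (hL : ∀ j < L, i + j ∉ Bk) : ∀ j ≤ L, i + j ∈ E := by
  intro j
  induction j with
  | zero => exact fun _ => hi
  | succ j ih => exact fun hj => (h _ (ih (by omega)) (hL j hj)).1

lemma core {E Z : Finset ℕ} {d : ℕ → ℤ} {L c : ℕ} (h1 : ∀ i ∈ E, |d i| ≤ 1)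
    (h2 : ∀ i ∈ E, d i = 1 ∨ ∃ j < L, i + j ∈ Z) (h3 : |∑ i ∈ E, d i| ≤ c) :
    E.card ≤ c + 2 * (Z.card * L) := by
  classical
  have a1 : (E.filter fun i => d i ≠ 1).card ≤ Z.card * L := by
    refine (Finset.card_le_card (t := (Z ×ˢ Finset.range L).image fun p => p.1 - p.2)
      fun i hi => ?_).trans (Finset.card_image_le.trans (by simp))
    obtain ⟨hi, hd⟩ := Finset.mem_filter.1 hi
    obtain ⟨j, hj, hZ⟩ := (h2 i hi).resolve_left hd
    exact Finset.mem_image.2 ⟨(i + j, j), by simp [hj, hZ], by simp⟩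
  have a2 : ∑ i ∈ E, (1 - 2 * if d i ≠ 1 then (1 : ℤ) else 0) ≤ ∑ i ∈ E, d i :=
    Finset.sum_le_sum fun i hi => by
      have := abs_le.1 (h1 i hi)
      split_ifs with h <;> omega
  rw [Finset.sum_sub_distrib, ← Finset.mul_sum, Finset.sum_boole] at a2
  simp only [Finset.sum_const, nsmul_eq_mul, mul_one] at a2
  have a3 := (le_abs_self _).trans h3
  have a4 : ((E.filter fun i => d i ≠ 1).card : ℤ) ≤ (Z.card * L : ℕ) := by exact_mod_cast a1
  omega

end NoCloseX

open NoCloseX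

variable {S V : Type} [Fintype S] {F : Fam S V} {ω : Set ℕ} {G : Type} [Group G]
  (Ω : Geo F ω G) {P : ℕ → G} {s : ℕ → S × Bool} {r : ℕ → Option (G × ℕ)} {n : ℕ} {R R' : G × ℕ}

theorem θ_inj {u v : V} (hu : F.lev u ∈ ω) (h : F.lev v = F.lev u) (e : Ω.θ u = Ω.θ v) :
    u = v := by
  obtain ⟨y, s, hw, h0, h1⟩ := F.exists_geo h
  rcases Nat.eq_zero_or_pos (F.dist u v) with hn | hn
  · rw [hn] at h1
    exact h0.symm.trans h1
  exfalso
  obtain ⟨hr, hd⟩ := F.geo_rd hw (by rw [h0, h1])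
  obtain ⟨g, m, -, E, Bk, u', v', hB, hE, hc, hcard, hl⟩ := Ω.gl (fun i => Ω.θ (y i)) s _ hn
    (fun i hi => Ω.θ_st (by rw [F.lev_wk hw hi.le, h0]; exact hu) (hw i hi)) hr
    (by simp only [h0, h1, e])
  have := core (Z := Bk) (L := F.ell m) (c := 5 * F.ell m)
    (d := fun i => (F.dist u (v' i) : ℤ) - F.dist u (u' i))
    (fun i hi => F.lip_dist u _ _ _ (hE i hi).2.2.1) (fun i hi => by
      by_contra hcon
      push Not at hcon
      have a1 := chain hc hi hcon.2
      let z : ℕ → V := fun j => Nat.casesOn j (u' i) fun j => v' (i + j)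
      have a2 : ∀ j ≤ F.ell m, z j = u' (i + j) := fun j hj => by
        cases j with
        | zero => rfl
        | succ j => exact (hc _ (a1 j (by omega)) (hcon.2 j hj)).2.symm
      have a3 : F.ell (F.lev (z 0)) = F.ell m := congrArg F.ell (hE i hi).2.1
      have a4 := (hE _ (a1 _ le_rfl)).1
      have a5 : u' i = y i := F.piece z (fun j => y (i + j)) (fun j => s (i + j))
        (fun j hj => by
          rw [a2 j (by omega)]
          exact (hE _ (a1 j (by omega))).2.2.1)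
        (fun j hj => hw _ (by omega)) fun j hj => hr (i + j) (by omega)
      have a6 := (hE i hi).2.2.1
      rw [a5] at a6
      apply hcon.1
      rw [a5, F.st_fun a6 (hw i (by omega)), ← h0, hd i (by omega), hd (i + 1) (by omega)]
      simp) (by exact_mod_cast hl _ (F.lip_dist u))
  have := Nat.mul_le_mul_right (F.ell m) hB
  omega

variable {Ω}

lemma On.rev {p : G} {a : S × Bool} (h : Ω.On R p a) : Ω.On R (p * Ω.gen a) (iv a) := by
  obtain ⟨hR, u, v, hu, hs, rfl⟩ := h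
  exact ⟨hR, v, u, (F.lev_st hs).trans hu, F.st_rev hs, by rw [Ω.θ_st (hu ▸ hR) hs, mul_assoc]⟩

lemma On.src {p : G} {a : S × Bool} (h : Ω.On R p a) : Ω.In R p := by
  obtain ⟨hR, u, v, hu, -, e⟩ := h
  exact ⟨hR, u, hu, e⟩

lemma On.tgt {p : G} {a : S × Bool} (h : Ω.On R p a) : Ω.In R (p * Ω.gen a) := h.rev.src

lemma on_iff {u : V} {a : S × Bool} (hR : R.2 ∈ ω) (hu : F.lev u = R.2) :
    Ω.On R (R.1 * Ω.θ u) a ↔ a ∈ F.out u := by
  rw [F.mem_out]
  constructor
  · rintro ⟨-, u', v, hu', hs, e⟩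
    rw [Ω.θ_inj (hu ▸ hR) (hu'.trans hu.symm) (mul_left_cancel e)]
    exact ⟨v, hs⟩
  · rintro ⟨v, hs⟩
    exact ⟨hR, u, v, hu, hs, rfl⟩

/-- a walk on a copy lifts -/
lemma lift (a k : ℕ) (hs : ∀ i < k, P (a + i + 1) = P (a + i) * Ω.gen (s (a + i)))
    (ho : ∀ i < k, Ω.On R (P (a + i)) (s (a + i))) {c : V} (hc : F.lev c = R.2)
    (h0 : P a = R.1 * Ω.θ c) : ∃ y, F.Wk y (fun i => s (a + i)) k ∧ y 0 = c ∧
      ∀ i ≤ k, F.lev (y i) = R.2 ∧ P (a + i) = R.1 * Ω.θ (y i) := by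
  have h1 : ∀ i, ∃ w, (i = 0 → w = c) ∧ (i ≤ k → F.lev w = R.2 ∧ P (a + i) = R.1 * Ω.θ w) := by
    intro i
    cases i with
    | zero => exact ⟨c, fun _ => rfl, fun _ => ⟨hc, h0⟩⟩
    | succ i =>
      by_cases hi : i < k
      · obtain ⟨-, w, hw, e⟩ := (ho i hi).tgt
        exact ⟨w, fun h => by omega, fun _ => ⟨hw, (hs i hi).trans e⟩⟩
      · exact ⟨c, fun _ => rfl, fun h => by omega⟩
  choose y hy hy' using h1
  refine ⟨y, fun i hi => ?_, hy 0 rfl, hy'⟩
  obtain ⟨hR, u, v, hu, hst, e⟩ := ho i hi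
  obtain ⟨a1, a2⟩ := hy' i hi.le
  obtain ⟨a3, a4⟩ := hy' (i + 1) hi
  have e1 : u = y i := Ω.θ_inj (hu ▸ hR) (a1.trans hu.symm) (mul_left_cancel (e.symm.trans a2))
  have hv := (F.lev_st hst).trans hu
  have e2 : v = y (i + 1) := Ω.θ_inj (hv ▸ hR) (a3.trans hv.symm) (mul_left_cancel (a := R.1) (by
    rw [← a4, ← add_assoc, hs i hi, e, Ω.θ_st (hu ▸ hR) hst, mul_assoc]))
  rw [← e1, ← e2]
  exact hst

/-- two copies with a long common path coincide -/
theorem piece_on (a : ℕ) (hs : ∀ i < n, P (i + 1) = P i * Ω.gen (s i)) (hr : Rd s n)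
    (ha : a + F.ell R.2 < n) (h : ∀ j ≤ F.ell R.2, Ω.On R (P (a + j)) (s (a + j)) ∧
      Ω.On R' (P (a + j)) (s (a + j))) : R = R' := by
  obtain ⟨-, c, hc, e⟩ := (h 0 (Nat.zero_le _)).1.src
  obtain ⟨-, c', hc', e'⟩ := (h 0 (Nat.zero_le _)).2.src
  obtain ⟨y, hy, h0, -⟩ := lift a (F.ell R.2 + 1) (fun i hi => hs _ (by omega))
    (fun i hi => (h i (by omega)).1) hc e
  obtain ⟨y', hy', h0', -⟩ := lift a (F.ell R.2 + 1) (fun i hi => hs _ (by omega))
    (fun i hi => (h i (by omega)).2) hc' e'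
  have h1 : F.lev (y 0) = R.2 := by rw [h0, hc]
  have h2 := F.piece y y' (fun i => s (a + i)) (h1 ▸ hy) (h1 ▸ hy')
    (fun j hj => hr (a + j) (by rw [h1] at hj; omega))
  rw [h0, h0'] at h2
  subst h2
  exact Prod.ext (mul_right_cancel (e.symm.trans e')) (hc.symm.trans hc')

theorem W.sub (h : Ω.W P s r n) (a k : ℕ) (hk : a + k ≤ n) :
    Ω.W (fun i => P (a + i)) (fun i => s (a + i)) (fun i => r (a + i)) k where
  step i hi := h.step (a + i) (by omega)
  red i hi := h.red (a + i) (by omega)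
  mem i hi := h.mem _ (by omega)
  itv i j l R h1 h2 h3 := h.itv _ _ _ R (by omega) (by omega) (by omega)
  geo R := (h.geo R).imp fun _ hf => ⟨hf.1, fun i hi => hf.2 _ (by omega)⟩
  long l hl R hR := by
    rcases h.long (a + l) (by omega) R hR with h1 | h1 | ⟨i, hi, h1⟩
    · exact .inl (h.itv 0 _ _ R (by omega) (by omega) (by omega) h1 hR)
    · exact .inr (.inl (h.itv _ _ _ R (by omega) (by omega) (by omega) hR h1))
    · by_cases h2 : i ≤ a
      · exact .inl (h.itv (i + 0) _ _ R (by omega) (by omega) (by omega) (h1 0 (by omega)) hR)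
      by_cases h3 : a + k ≤ i + F.ell R.2
      · exact .inr (.inl (h.itv _ _ _ R (by omega) (by omega) hi hR (h1 _ le_rfl)))
      refine .inr (.inr ⟨i - a, by omega, fun j hj => ?_⟩)
      rw [show a + (i - a + j) = i + j by omega]
      exact h1 j hj
  free i R hi hc := h.free (a + i) R (by omega) fun j hj => by
    rw [add_assoc]
    exact hc j hj

theorem W.run (h : Ω.W P s r n) (a k : ℕ) (hk : a + k ≤ n)
    (ho : ∀ i < k, Ω.On R (P (a + i)) (s (a + i)) ∧ r (a + i) ≠ some R) : k ≤ 6 * F.ell R.2 := by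
  have h' := h.sub a k hk
  by_contra hcon
  refine h'.free (F.ell R.2) R (by omega) fun j hj => ⟨?_, (ho _ (by omega)).1⟩
  by_contra hr
  obtain ⟨R', hR'⟩ := Option.ne_none_iff_exists'.1 hr
  refine (ho (F.ell R.2 + j) (by omega)).2 (hR'.trans (congrArg some ?_))
  have key : ∀ (i : ℕ) (Q Q' : G × ℕ), i + F.ell Q.2 < k → (∀ l ≤ F.ell Q.2,
      Ω.On Q (P (a + (i + l))) (s (a + (i + l))) ∧ Ω.On Q' (P (a + (i + l))) (s (a + (i + l)))) →
      Q = Q' := fun i Q Q' => piece_on (P := fun i => P (a + i)) i h'.step h'.red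
  rcases h'.long _ (by omega) R' hR' with h1 | h1 | ⟨i, hi, h1⟩
  · exact (key 0 _ _ (by omega) fun l hl => ⟨(ho _ (by omega)).1, h'.mem (0 + l) (by omega) _
      (h'.itv _ _ _ _ (by omega) (by omega) (by omega) h1 hR')⟩).symm
  · exact (key (5 * F.ell R.2) _ _ (by omega) fun l hl => ⟨(ho _ (by omega)).1,
      h'.mem (5 * F.ell R.2 + l) (by omega) _
        (h'.itv _ _ _ _ (by omega) (by omega) (by omega) hR' h1)⟩).symm
  · exact key i _ _ hi fun l hl => ⟨h'.mem (i + l) (by omega) _ (h1 l hl), (ho _ (by omega)).1⟩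

theorem W.noclose (h : Ω.W P s r n) (hn : 0 < n) : P n ≠ P 0 := by
  classical
  intro e
  obtain ⟨g, m, hm, E, Bk, u, v, hB, hE, hc, hcard, hl⟩ := Ω.gl P s n hn h.step h.red e
  obtain ⟨f, hf, hf'⟩ := h.geo (g, m)
  let Z := (Finset.range n).filter fun i => i + 1 < n ∧ r i ≠ some (g, m) ∧ r (i + 1) = some (g, m)
  have hZ : Z.card ≤ 1 := Finset.card_le_one.2 fun i hi j hj => by
    obtain ⟨-, a1, a2, a3⟩ := Finset.mem_filter.1 hi
    obtain ⟨-, b1, b2, b3⟩ := Finset.mem_filter.1 hj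
    by_contra hne
    rcases lt_or_gt_of_ne hne with hlt | hlt
    · exact b2 (h.itv _ _ _ _ hlt (Nat.le_succ j) b1 a3 b3)
    · exact a2 (h.itv _ _ _ _ hlt (Nat.le_succ i) a1 b3 a3)
  have := core (Z := Bk ∪ Z) (L := 6 * F.ell m) (c := 5 * F.ell m)
    (d := fun i => f (v i) - f (u i)) (fun i hi => hf _ _ _ (hE i hi).2.2.1) (fun i hi => by
      by_contra hcon
      push Not at hcon
      have a1 := chain hc hi (L := 6 * F.ell m) fun j hj hb =>
        hcon.2 j hj (Finset.mem_union_left _ hb)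
      have a2 : ∀ j ≤ 6 * F.ell m, r (i + j) ≠ some (g, m) := by
        intro j
        induction j with
        | zero =>
          intro _ hr
          obtain ⟨b1, b2, b3, b4⟩ := hE i hi
          apply hcon.1
          rw [hf' i b1 hr _ _ b2 b3 b4]
          ring
        | succ j ih =>
          intro hj hr
          have := (hE _ (a1 _ hj)).1
          exact hcon.2 j hj (Finset.mem_union_right _ (Finset.mem_filter.2
            ⟨Finset.mem_range.2 (by omega), this, ih (by omega), hr⟩))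
      have a3 := (hE _ (a1 _ le_rfl)).1
      have a4 := h.run (R := (g, m)) i (6 * F.ell m + 1) (by omega) fun j hj => by
        obtain ⟨-, b2, b3, b4⟩ := hE _ (a1 j (by omega))
        exact ⟨⟨hm, _, _, b2, b3, b4⟩, a2 j (by omega)⟩
      simp only at a4
      omega) (by exact_mod_cast hl f hf)
  have h1 : (Bk ∪ Z).card ≤ 6 := (Finset.card_union_le _ _).trans (by omega)
  have := Nat.mul_le_mul_right (6 * F.ell m) h1
  omega

theorem W.inj (h : Ω.W P s r n) {i j : ℕ} (hi : i ≤ n) (hj : j ≤ n) (e : P i = P j) : i = j := by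
  wlog hij : i ≤ j generalizing i j
  · exact (this hj hi e.symm (by omega)).symm
  by_contra hne
  refine (h.sub i (j - i) (by omega)).noclose (by omega) ?_
  simp only [Nat.add_sub_of_le hij, add_zero, e]

variable (Ω) in
theorem gen_ne_one (a : S × Bool) : Ω.gen a ≠ 1 := by
  intro e
  obtain ⟨g, m, -, E, Bk, u, v, -, hE, -, hcard, -⟩ := Ω.gl (fun _ => 1) (fun _ => a) 1 one_pos
    (fun _ _ => by rw [e, mul_one]) (fun i hi => by omega) rfl
  have : E.card ≤ 1 := Finset.card_le_one.2 fun i hi j hj => by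
    have := (hE i hi).1
    have := (hE j hj).1
    omega
  omega

end Vale.Agent.P089.Geo
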