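import Vale.Agent.P089.Iso
import Vale.Agent.P089.Dual

/-! The projection and its trace (job Proj). -/

namespace Vale.Agent.P089.Geo

open Classical MeasureTheory

variable {S V : Type} [Fintype S] {F : Fam S V} {ω : Set ℕ} {G : Type} [Group G]
  (Ω : Geo F ω G)

theorem meas_full (μ : Measure Ω.XX) [IsProbabilityMeasure μ] [μ.IsAddLeftInvariant] {R : G × ℕ}
    (hR : R.2 ∈ ω) : MeasurableSet {x : Ω.XX | Ω.full x.1 R} ∧
      μ.real {x | Ω.full x.1 R} = (1 / 2) ^ ((F.lv R.2).card + 1) := by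
  let φ : Ω.XX →+ (V × (S × Bool) → ZMod 2) :=
    AddMonoidHom.mk' (fun x => Ω.res x.1 R) fun x y => Ω.res_add x.1 y.1 R
  have dep : ∀ x x' : Ω.XX, (∀ p ∈ Ω.blk R ×ˢ Finset.univ, x.1 p = x'.1 p) → φ x = φ x' :=
    fun x x' h => funext fun p => by
      change Ω.res x.1 R p = Ω.res x'.1 R p
      unfold res
      split_ifs with c
      · exact h _ (Finset.mem_product.2 ⟨Ω.mem_blk.2 ⟨_, c, rfl⟩, Finset.mem_univ _⟩)
      · rfl
  have e : {x : Ω.XX | Ω.full x.1 R} = {x | φ x = F.pat R.2} := Set.ext fun x => Ω.full_iff hR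
  have rg : ∀ c, c ∈ φ.range ↔ c ∈ F.code R.2 := fun c =>
    ⟨fun ⟨x, h⟩ => h ▸ x.2 R hR, fun h => (Ω.ext_code hR h).elim fun x h => ⟨⟨x, h.1⟩, h.2⟩⟩
  rw [e]
  refine ⟨measurableSet_setOfPred.2 (measurable_fin _ _ _ fun x x' h => by rw [dep x x' h]), ?_⟩
  rw [meas_fiber _ μ φ _ dep (c := F.pat R.2) ((rg _).2 (F.pat_mem _)),
    Nat.card_congr (Equiv.subtypeEquivRight rg), F.code_card]
  simp

/-- the integral of the diagonal of the limit projection -/
theorem integral_lim (μ : Measure Ω.XX) [IsProbabilityMeasure μ] [μ.IsAddLeftInvariant]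
    (φ : Ω.XX → ℂ) (h1 : ∀ x R, Ω.full x.1 R → 1 ∈ Ω.blk R → φ x = 1 / ((Ω.blk R).card : ℂ))
    (h2 : ∀ x, (∀ R, Ω.full x.1 R → 1 ∉ Ω.blk R) → φ x = 0) :
    ∫ x, φ x ∂μ = ∑' m, if m ∈ ω then (1 / 2 : ℂ) ^ ((F.lv m).card + 1) else 0 := by
  let A : ℕ → Set Ω.XX := fun m => ⋃ v ∈ F.lv m, {x | Ω.full x.1 ((Ω.θ v)⁻¹, m)}
  have mb : ∀ {m v}, v ∈ F.lv m → 1 ∈ Ω.blk ((Ω.θ v)⁻¹, m) := fun h =>
    Ω.mem_blk.2 ⟨_, F.mem_lv.1 h, (inv_mul_cancel _).symm⟩
  have mA : ∀ {m x}, x ∈ A m → ∃ R, R.2 = m ∧ Ω.full x.1 R ∧ 1 ∈ Ω.blk R := fun h => by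
    obtain ⟨v, h1, h2⟩ := Set.mem_iUnion₂.1 h
    exact ⟨_, rfl, h2, mb h1⟩
  have ms : ∀ R, MeasurableSet {x : Ω.XX | Ω.full x.1 R} := fun R => by
    by_cases h : R.2 ∈ ω
    · exact (Ω.meas_full μ h).1
    · rw [Set.eq_empty_of_forall_notMem (s := {x : Ω.XX | Ω.full x.1 R}) fun x hx => h hx.1]
      exact MeasurableSet.empty
  have hm : ∀ m, MeasurableSet (A m) := fun m => Finset.measurableSet_biUnion _ fun v _ => ms _
  have ev : ∀ m, Set.EqOn φ (fun _ => 1 / ((F.lv m).card : ℂ)) (A m) := fun m x hx => by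
    obtain ⟨R, rfl, a1, a2⟩ := mA hx
    rw [h1 x R a1 a2, Ω.card_blk a1.1]
  rw [← setIntegral_eq_integral_of_forall_compl_eq_zero (s := ⋃ m, A m) fun x hx => h2 x
    fun R a1 a2 => hx ?_, integral_iUnion hm (fun m m' e => Set.disjoint_left.2 fun x a b => e ?_)
    (IntegrableOn.of_bound (measure_lt_top _ _) (aestronglyMeasurable_iUnion_iff.2 fun m =>
      aestronglyMeasurable_const.congr (ae_restrict_of_forall_mem (hm m) fun x hx =>
        (ev m hx).symm)) 1 (ae_restrict_of_forall_mem (MeasurableSet.iUnion hm) fun x hx => ?_))]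
  · refine tsum_congr fun m => ?_
    rw [setIntegral_congr_fun (hm m) (ev m), setIntegral_const]
    split_ifs with c
    · have hc : ((F.lv m).card : ℂ) ≠ 0 :=
        Nat.cast_ne_zero.2 (Nat.ne_zero_of_lt (F.wide m))
      rw [measureReal_biUnion_finset (fun v hv v' hv' e => Set.disjoint_left.2 fun x a b => e ?_)
        fun v _ => ms _, Finset.sum_congr rfl fun v _ => (Ω.meas_full μ (R := (_, m)) c).2]
      · simp only [Finset.sum_const, nsmul_eq_mul, Complex.real_smul]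
        push_cast
        field_simp
      · have h3 := F.mem_lv.1 hv
        exact Ω.θ_inj (h3 ▸ c) ((F.mem_lv.1 hv').trans h3.symm)
          (inv_injective (congrArg Prod.fst (full.eq a b (mb hv) (mb hv'))))
    · rw [Set.eq_empty_of_forall_notMem (s := A m) fun x hx => ?_, measureReal_empty, zero_smul]
      obtain ⟨R, rfl, a1, -⟩ := mA hx
      exact c a1.1
  · obtain ⟨R, rfl, a1, a2⟩ := mA a
    obtain ⟨R', rfl, b1, b2⟩ := mA b
    rw [a1.eq b1 a2 b2]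
  · obtain ⟨m, hx⟩ := Set.mem_iUnion.1 hx
    rw [ev m hx, norm_div, norm_one, Complex.norm_natCast, one_div]
    exact Nat.cast_inv_le_one _
  · obtain ⟨v, b1, b2⟩ := Ω.mem_blk.1 a2
    exact Set.mem_iUnion.2 ⟨R.2, Set.mem_iUnion₂.2 ⟨v, F.mem_lv.2 b1,
      show Ω.full x.1 _ by rwa [← eq_inv_of_mul_eq_one_left b2.symm]⟩⟩

lemma proj_dep {x x' : G × (S × Bool) → ZMod 2}
    (h : ∀ p ∈ insert 1 (Finset.univ.image Ω.gen) ×ˢ Finset.univ, x p = x' p) :
    (∀ a, Ω.opn x 1 a ↔ Ω.opn x' 1 a) ∧ (Ω.dfc x 1 ↔ Ω.dfc x' 1) := by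
  have h1 : ∀ g ∈ insert 1 (Finset.univ.image Ω.gen), want x g = want x' g := fun g hg =>
    Finset.filter_congr fun a _ => by rw [h _ (Finset.mem_product.2 ⟨hg, Finset.mem_univ _⟩)]
  have h2 := h1 1 (Finset.mem_insert_self _ _)
  have h3 := fun a => h1 _ (Finset.mem_insert_of_mem (Finset.mem_image_of_mem _
    (Finset.mem_univ a)))
  simp only [dfc, opn, valid, one_mul, h2, h3, implies_true, and_self]

lemma proj_sh (x : G × (S × Bool) → ZMod 2) (g : G) :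
    (∀ a, Ω.opn (fun p => x (g * p.1, p.2)) 1 a ↔ Ω.opn x g a) ∧
      (Ω.dfc (fun p => x (g * p.1, p.2)) 1 ↔ Ω.dfc x g) := by
  have h : ∀ h, want (fun p => x (g * p.1, p.2)) h = want x (g * h) := fun _ => rfl
  simp only [dfc, opn, valid, one_mul, mul_one, h, implies_true, and_self]

include Ω in
theorem exists_proj [Countable G] : ∃ (Γ : Type) (_ : Group Γ) (_ : Countable Γ),
    ∃ p ∈ Mor Γ ℂ ℂ, p ∘L p = p ∧
      tau p = ∑' m, if m ∈ ω then (1 / 2 : ℂ) ^ ((F.lv m).card + 1) else 0 := by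
  obtain ⟨μ, _, _⟩ := exists_haar Ω.XX Ω.XX_closed
  obtain ⟨Γ, _, _, ρ, h1, h2, h3, h4, h5⟩ := exists_dual Ω.XX (fun x hx g => Ω.XX_shift hx g) μ
  choose sh hsh using h1
  choose m hm using fun a => h2 _ (fun x => if Ω.opn x 1 a then 1 else 0)
    fun x x' h => if_congr ((Ω.proj_dep h).1 a) rfl rfl
  obtain ⟨md, hd⟩ := h2 _ (fun x => if Ω.dfc x 1 then 1 else 0)
    fun x x' h => if_congr (Ω.proj_dep h).2 rfl rfl
  choose N n1 n2 n3 n4 using fun x : Ω.XX => Ω.exists_net x.2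
  obtain ⟨y, hy⟩ : ∃ y, ∀ x, (N x).IsAvg (ρ x y) :=
    ⟨1 - (1 / (2 * (Fintype.card (S × Bool) + 1)) : ℂ) • (∑ a, m a * (1 - sh (Ω.gen a)) + md),
      fun x f g => by
        simp only [map_sub, map_one, map_smul, map_add, map_sum, map_mul, LinearMap.sub_apply,
          LinearMap.smul_apply, LinearMap.add_apply, LinearMap.sum_apply, Module.End.mul_apply,
          Module.End.one_apply, Finsupp.sub_apply, Finsupp.smul_apply, Finsupp.add_apply,
          Finsupp.finsetSum_apply, hm, hd, hsh, n1, n2, n3, (Ω.proj_sh x.1 g).1,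
          (Ω.proj_sh x.1 g).2, smul_eq_mul, ite_mul, one_mul, zero_mul]
        congr 3
        refine Finset.sum_congr rfl fun a _ => ?_
        split_ifs <;> simp⟩
  obtain ⟨q, q0, q1, hq⟩ := Net.iter (S × Bool) (2 * (F.D + 1) * (F.D + 1))
  obtain ⟨p, p1, p2, p3⟩ := exists_limit y q0 q1 fun j => h5 _ _ (pow_nonneg q0 j) fun x f => by
    rw [map_sub, map_pow, map_pow]
    exact (hq G _ _ (hy x)).1 j f
  refine ⟨Γ, inferInstance, inferInstance, p, p1, p2, tendsto_nhds_unique p3 ?_⟩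
  rw [← Ω.integral_lim μ (fun x => if h : ∃ R, Ω.full x.1 R ∧ 1 ∈ Ω.blk R then
    1 / ((Ω.blk h.choose).card : ℂ) else 0) (fun x R a b => by
      have h : ∃ R, Ω.full x.1 R ∧ 1 ∈ Ω.blk R := ⟨R, a, b⟩
      rw [dif_pos h, h.choose_spec.1.eq a h.choose_spec.2 b])
    fun x h => dif_neg fun ⟨R, a, b⟩ => h R a b]
  simp only [← h4]
  refine tendsto_integral_of_dominated_convergence (fun _ => 1)
    (fun j => (h3 _).aestronglyMeasurable) (integrable_const _)
    (fun j => Filter.Eventually.of_forall fun x => ?_) (Filter.Eventually.of_forall fun x => ?_)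
  · rw [map_pow]
    exact (hq G _ _ (hy x)).2.1 j 1
  · simp only [map_pow]
    split_ifs with h
    · exact (hq G _ _ (hy x)).2.2.1 _ ((n4 x _).2 ⟨_, h.choose_spec.1, rfl⟩) 1 h.choose_spec.2
    · refine (hq G _ _ (hy x)).2.2.2 1 fun b hb c => ?_
      obtain ⟨R, a, rfl⟩ := (n4 x b).1 hb
      exact h ⟨R, a, c⟩

end Vale.Agent.P089.Geo
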