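import Mathlib

/-! A counting version of the local lemma (job Ros). -/

namespace Vale.Agent.P089

namespace RosX

open Classical Finset

variable {V K ι : Type} [Fintype V] [DecidableEq V] [Fintype K] (E : Finset ι) (D : ι → Finset V)
  (c : ι → V → K) (k0 : K)

noncomputable def good (U : Finset V) : Finset (V → K) :=
  univ.filter fun κ => (∀ v, v ∉ U → κ v = k0) ∧ ∀ e ∈ E, D e ⊆ U → ∃ v ∈ D e, κ v ≠ c e v

theorem mem_good {U : Finset V} {κ : V → K} : κ ∈ good E D c k0 U ↔
    (∀ v, v ∉ U → κ v = k0) ∧ ∀ e ∈ E, D e ⊆ U → ∃ v ∈ D e, κ v ≠ c e v := by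
  simp [good]

theorem count (U : Finset V) {v : V} (hv : v ∉ U) :
    (good E D c k0 U).card * Fintype.card K ≤ (good E D c k0 (insert v U)).card +
      ∑ e ∈ E.filter (fun e => v ∈ D e ∧ D e ⊆ insert v U),
        (good E D c k0 (U \ (D e).erase v)).card := by
  set P : Finset ((V → K) × K) := good E D c k0 U ×ˢ univ with hP
  have hsub : P ⊆ (P.filter fun p => Function.update p.1 v p.2 ∈ good E D c k0 (insert v U)) ∪
      (E.filter (fun e => v ∈ D e ∧ D e ⊆ insert v U)).biUnion fun e =>
        P.filter fun p => ∀ w ∈ D e, Function.update p.1 v p.2 w = c e w := by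
    intro p hp
    have hg := (mem_good E D c k0).1 (mem_product.1 hp).1
    by_cases h1 : Function.update p.1 v p.2 ∈ good E D c k0 (insert v U)
    · exact mem_union_left _ (mem_filter.2 ⟨hp, h1⟩)
    · rw [mem_good] at h1
      have h2 : ∀ w, w ∉ insert v U → Function.update p.1 v p.2 w = k0 := fun w hw => by
        rw [mem_insert, not_or] at hw
        rw [Function.update_of_ne hw.1, hg.1 w hw.2]
      have h3 : ¬ ∀ e ∈ E, D e ⊆ insert v U →
          ∃ w ∈ D e, Function.update p.1 v p.2 w ≠ c e w := fun h => h1 ⟨h2, h⟩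
      push Not at h3
      obtain ⟨e, he, h4, h5⟩ := h3
      refine mem_union_right _ (mem_biUnion.2 ⟨e, mem_filter.2 ⟨he, ?_, h4⟩,
        mem_filter.2 ⟨hp, h5⟩⟩)
      by_contra h6
      obtain ⟨w, hw, h7⟩ := hg.2 e he fun w hw =>
        (mem_insert.1 (h4 hw)).resolve_left fun h => h6 (h ▸ hw)
      have h8 := h5 w hw
      have h9 : w ≠ v := fun h => h6 (h ▸ hw)
      rw [Function.update_of_ne h9] at h8
      exact h7 h8
  have hc : P.card = (good E D c k0 U).card * Fintype.card K := by
    rw [hP, card_product, card_univ]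
  rw [← hc]
  refine (card_le_card hsub).trans ((card_union_le _ _).trans (add_le_add ?_ ?_))
  · refine card_le_card_of_injOn (fun p => Function.update p.1 v p.2)
      (fun p hp => (mem_filter.1 hp).2) fun p hp q hq h => ?_
    have h1 := ((mem_good E D c k0).1 (mem_product.1 (mem_filter.1 hp).1).1).1 v hv
    have h2 := ((mem_good E D c k0).1 (mem_product.1 (mem_filter.1 hq).1).1).1 v hv
    refine Prod.ext (funext fun w => ?_) ?_
    · by_cases hw : w = v
      · rw [hw, h1, h2]
      · have := congrFun h w
        simpa only [Function.update_of_ne hw] using this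
    · have := congrFun h v
      simpa only [Function.update_self] using this
  · refine card_biUnion_le.trans (sum_le_sum fun e he => ?_)
    obtain ⟨-, hv', -⟩ := mem_filter.1 he
    refine card_le_card_of_injOn (fun p w => if w ∈ D e then k0 else p.1 w)
      (fun p hp => ?_) fun p hp q hq h => ?_
    · have hg := (mem_good E D c k0).1 (mem_product.1 (mem_filter.1 hp).1).1
      refine (mem_good E D c k0).2 ⟨fun w hw => ?_, fun e' he' h1 => ?_⟩
      · by_cases h1 : w ∈ D e
        · exact if_pos h1
        · beta_reduce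
          rw [if_neg h1]
          exact hg.1 w fun h2 => hw (mem_sdiff.2 ⟨h2, fun h3 => h1 (mem_of_mem_erase h3)⟩)
      · obtain ⟨w, hw, h2⟩ := hg.2 e' he' (h1.trans sdiff_subset)
        have h3 := mem_sdiff.1 (h1 hw)
        refine ⟨w, hw, ?_⟩
        have h4 : w ∉ D e := fun h4 => h3.2 (mem_erase.2 ⟨fun h5 => hv (h5 ▸ h3.1), h4⟩)
        beta_reduce
        rwa [if_neg h4]
    · have h1 := ((mem_good E D c k0).1 (mem_product.1 (mem_filter.1 hp).1).1).1 v hv
      have h2 := ((mem_good E D c k0).1 (mem_product.1 (mem_filter.1 hq).1).1).1 v hv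
      have h3 := (mem_filter.1 hp).2
      have h4 := (mem_filter.1 hq).2
      refine Prod.ext (funext fun w => ?_) ?_
      · by_cases hw : w = v
        · rw [hw, h1, h2]
        · by_cases h5 : w ∈ D e
          · have h6 := h3 w h5
            have h7 := h4 w h5
            rw [Function.update_of_ne hw] at h6 h7
            rw [h6, h7]
          · have := congrFun h w
            simpa only [if_neg h5] using this
      · have h6 := h3 v hv'
        have h7 := h4 v hv'
        rw [Function.update_self] at h6 h7
        rw [h6, h7]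

theorem grow {β : ℝ} (hβ : 1 ≤ β)
    (h : ∀ v, β + ∑ e ∈ E.filter (fun e => v ∈ D e), β / β ^ (D e).card ≤ Fintype.card K)
    (n : ℕ) : ∀ U : Finset V, U.card = n → ∀ v, v ∉ U →
      β * (good E D c k0 U).card ≤ (good E D c k0 (insert v U)).card := by
  have hβ0 : 0 < β := by linarith
  induction n using Nat.strong_induction_on with
  | _ n ih =>
    intro U hU v hv
    have chain : ∀ W : Finset V, W ⊆ U →
        β ^ W.card * (good E D c k0 (U \ W)).card ≤ (good E D c k0 U).card := by
      intro W
      induction W using Finset.induction_on with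
      | empty => intro _; simp
      | insert w W hw ihW =>
        intro hW
        have hwU : w ∈ U := hW (mem_insert_self _ _)
        have e : U \ W = insert w (U \ insert w W) := by
          ext x
          simp only [mem_sdiff, mem_insert]
          constructor
          · rintro ⟨h1, h2⟩
            by_cases h3 : x = w
            · exact Or.inl h3
            · exact Or.inr ⟨h1, fun h4 => h4.elim h3 h2⟩
          · rintro (rfl | ⟨h1, h2⟩)
            · exact ⟨hwU, hw⟩
            · exact ⟨h1, fun h3 => h2 (Or.inr h3)⟩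
        have hlt : (U \ insert w W).card < n := by
          rw [← hU]
          exact card_lt_card ⟨sdiff_subset, fun h1 => (mem_sdiff.1 (h1 hwU)).2 (mem_insert_self _ _)⟩
        have h1 := ih _ hlt _ rfl w fun h1 => (mem_sdiff.1 h1).2 (mem_insert_self _ _)
        rw [← e] at h1
        have h2 := ihW ((subset_insert _ _).trans hW)
        rw [card_insert_of_notMem hw, pow_succ, mul_assoc]
        exact (mul_le_mul_of_nonneg_left h1 (by positivity)).trans h2
    have h1 : ((good E D c k0 U).card : ℝ) * Fintype.card K ≤ (good E D c k0 (insert v U)).card +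
        ∑ e ∈ E.filter (fun e => v ∈ D e ∧ D e ⊆ insert v U),
          ((good E D c k0 (U \ (D e).erase v)).card : ℝ) := by
      exact_mod_cast count E D c k0 U hv
    have h2 : ∑ e ∈ E.filter (fun e => v ∈ D e ∧ D e ⊆ insert v U),
          ((good E D c k0 (U \ (D e).erase v)).card : ℝ) ≤
        ∑ e ∈ E.filter (fun e => v ∈ D e), β / β ^ (D e).card * (good E D c k0 U).card := by
      refine (sum_le_sum fun e he => ?_).trans (sum_le_sum_of_subset_of_nonneg
        (s := E.filter (fun e => v ∈ D e ∧ D e ⊆ insert v U))
        (fun e he => mem_filter.2 ⟨(mem_filter.1 he).1, (mem_filter.1 he).2.1⟩)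
        fun e _ _ => by positivity)
      obtain ⟨-, h3, h4⟩ := mem_filter.1 he
      have h5 := chain ((D e).erase v) fun w hw =>
        (mem_insert.1 (h4 (mem_of_mem_erase hw))).resolve_left (ne_of_mem_erase hw)
      have h6 : (D e).card = ((D e).erase v).card + 1 := (card_erase_add_one h3).symm
      rw [h6, pow_succ, div_mul_eq_mul_div, le_div_iff₀ (by positivity)]
      nlinarith
    rw [← sum_mul] at h2
    have h3 := mul_le_mul_of_nonneg_right (h v) (Nat.cast_nonneg (good E D c k0 U).card)
    nlinarith

end RosX

theorem rosenfeld {V K ι : Type} [Fintype V] [DecidableEq V] [Fintype K] (E : Finset ι)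
    (D : ι → Finset V) (c : ι → V → K) {β : ℝ} (hβ : 1 ≤ β) (hD : ∀ e ∈ E, (D e).Nonempty)
    (h0 : β ≤ Fintype.card K)
    (h : ∀ v, β + ∑ e ∈ E.filter (fun e => v ∈ D e), β / β ^ (D e).card ≤ Fintype.card K) :
    ∃ κ : V → K, ∀ e ∈ E, ∃ v ∈ D e, κ v ≠ c e v := by
  have hK : 0 < Fintype.card K := by
    have : (0 : ℝ) < Fintype.card K := by linarith
    exact_mod_cast this
  obtain ⟨k0⟩ := Fintype.card_pos_iff.1 hK
  have key : ∀ U : Finset V, (0 : ℝ) < (RosX.good E D c k0 U).card := by
    intro U
    induction U using Finset.induction_on with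
    | empty =>
      have : (RosX.good E D c k0 ∅).Nonempty := ⟨fun _ => k0, (RosX.mem_good E D c k0).2
        ⟨fun _ _ => rfl, fun e he h1 => absurd (Finset.subset_empty.1 h1) (hD e he).ne_empty⟩⟩
      exact_mod_cast this.card_pos
    | insert v U hv ih =>
      have h1 := RosX.grow E D c k0 hβ h _ U rfl v hv
      have h2 : 0 < β * (RosX.good E D c k0 U).card := by positivity
      exact h2.trans_le h1
  have h1 : (RosX.good E D c k0 Finset.univ).Nonempty := by
    rw [← Finset.card_pos]
    exact_mod_cast key _
  obtain ⟨κ, hκ⟩ := h1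
  exact ⟨κ, fun e he => ((RosX.mem_good E D c k0).1 hκ).2 e he (Finset.subset_univ _)⟩

end Vale.Agent.P089
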