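import Vale.Agent.P089.Fam
import Vale.Agent.P089.Code

/-! The disjoint union of the levels (job Sig). -/

namespace Vale.Agent.P089

open Classical

namespace SigX

variable {S : Type} {V : ℕ → Type} (Γ : ∀ m, Gp S (V m))

/-- the disjoint union -/
def sg : Gp S (Σ m, V m) where
  st p a p' := ∃ m v v', p = ⟨m, v⟩ ∧ p' = ⟨m, v'⟩ ∧ (Γ m).st v a v'
  st_fun := by
    rintro _ a _ _ ⟨m, v, v', rfl, rfl, h⟩ ⟨m', u, u', e, rfl, h'⟩
    obtain ⟨rfl, e⟩ := Sigma.mk.inj e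
    obtain rfl := eq_of_heq e
    rw [(Γ m).st_fun h h']
  st_rev := by
    rintro _ a _ ⟨m, v, v', rfl, rfl, h⟩
    exact ⟨m, v', v, rfl, rfl, (Γ m).st_rev h⟩

variable {Γ}

lemma st_iff {m : ℕ} {v : V m} {a : S × Bool} {p : Σ m, V m} :
    (sg Γ).st ⟨m, v⟩ a p ↔ ∃ v', p = ⟨m, v'⟩ ∧ (Γ m).st v a v' := by
  refine ⟨?_, fun ⟨v', h1, h2⟩ => ⟨m, v, v', rfl, h1, h2⟩⟩
  rintro ⟨m', u, u', e, rfl, h'⟩
  obtain ⟨rfl, e⟩ := Sigma.mk.inj e
  obtain rfl := eq_of_heq e
  exact ⟨u', rfl, h'⟩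

lemma out_eq [Fintype S] {m : ℕ} (v : V m) : (sg Γ).out ⟨m, v⟩ = (Γ m).out v := by
  ext a
  simp only [Gp.mem_out, st_iff]
  exact ⟨fun ⟨_, v', _, h⟩ => ⟨v', h⟩, fun ⟨v', h⟩ => ⟨_, v', rfl, h⟩⟩

lemma lift {y : ℕ → Σ m, V m} {s : ℕ → S × Bool} {n m : ℕ} {v : V m} (h : (sg Γ).Wk y s n)
    (h0 : y 0 = ⟨m, v⟩) : ∃ z, (Γ m).Wk z s n ∧ z 0 = v ∧ ∀ i ≤ n, y i = ⟨m, z i⟩ := by
  have h1 : ∀ i, ∃ u : V m, i ≤ n → y i = ⟨m, u⟩ := by
    intro i
    induction i with
    | zero => exact ⟨v, fun _ => h0⟩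
    | succ i ih =>
      obtain ⟨u, hu⟩ := ih
      by_cases hi : i + 1 ≤ n
      · obtain ⟨u', h1, -⟩ := st_iff.mp (hu (by omega) ▸ h i hi)
        exact ⟨u', fun _ => h1⟩
      · exact ⟨u, fun h => absurd h hi⟩
  choose z hz using h1
  refine ⟨z, fun i hi => ?_, sigma_mk_injective ((hz 0 (by omega)).symm.trans h0), hz⟩
  obtain ⟨u', h1, h2⟩ := st_iff.mp (hz i hi.le ▸ h i hi)
  rwa [sigma_mk_injective ((hz (i + 1) hi).symm.trans h1)]

lemma sub [∀ m, Fintype (V m)] {m : ℕ} {T : Finset (Σ m, V m)}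
    (h : T ⊆ Finset.univ.map (Function.Embedding.sigmaMk m)) :
    ∃ T' : Finset (V m), T = T'.map (Function.Embedding.sigmaMk m) := by
  obtain ⟨T', -, h⟩ := Finset.subset_map_iff.mp h
  exact ⟨T', h⟩

/-- extension by zero -/
noncomputable def ext (A : Type) (m : ℕ) :
    (V m × A → ZMod 2) →ₗ[ZMod 2] ((Σ m, V m) × A → ZMod 2) where
  toFun c p := if h : p.1.1 = m then c (h ▸ p.1.2, p.2) else 0
  map_add' c c' := funext fun p => by
    simp only [Pi.add_apply]
    split_ifs <;> simp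
  map_smul' r c := funext fun p => by
    simp only [Pi.smul_apply]
    split_ifs <;> simp

lemma ext_mk {A : Type} {m : ℕ} (c : V m × A → ZMod 2) (v : V m) (a : A) :
    ext A m c (⟨m, v⟩, a) = c (v, a) := dif_pos rfl

lemma ext_ne {A : Type} {m : ℕ} (c : V m × A → ZMod 2) {p : Σ m, V m} (h : p.1 ≠ m) (a : A) :
    ext A m c (p, a) = 0 := dif_neg h

lemma ext_inj {A : Type} {m : ℕ} : Function.Injective (ext (V := V) A m) := fun c c' h =>
  funext fun p => by rw [← ext_mk c, h, ext_mk]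

end SigX

open SigX in
theorem fam_of_levels {S : Type} [Fintype S] (V : ℕ → Type) [∀ m, Fintype (V m)]
    (Γ : ∀ m, Gp S (V m)) (D : ℕ) (tag : S × Bool → ℕ) (ell t : ℕ → ℕ)
    (deg : ∀ m v, 7 ≤ ((Γ m).out v).card ∧ ((Γ m).out v).card ≤ D)
    (tag_eq : ∀ m v, ∀ a ∈ (Γ m).out v, tag a = ((Γ m).out v).card)
    (ell_gt : ∀ m, m < ell m)
    (piece : ∀ m y y' s, (Γ m).Wk y s (ell m + 1) → (Γ m).Wk y' s (ell m + 1) →
      Rd s (ell m + 1) → y 0 = y' 0)
    (piece' : ∀ m m' y y' s, (Γ m).Wk y s (ell m + 1) → (Γ m').Wk y' s (ell m + 1) →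
      Rd s (ell m + 1) → m = m')
    (girth : ∀ m v, (Γ m).Girth v (100 * (ell m + 1) + 4 * t m))
    (big : ∀ m, 4 * (D + 1) ^ (2 * ell m + 3) ≤ 2 ^ t m)
    (wide : ∀ m, (D + 1) ^ (2 * ell m) < Fintype.card (V m))
    (expand : ∀ m, ∀ T : Finset (V m), 2 * T.card ≤ Fintype.card (V m) →
      T.card ≤ ((Γ m).bd T).card)
    (grow : ∀ m, Fintype.card (V m) + 2 ≤ Fintype.card (V (m + 1)))
    (num : ∀ m, 2 * ((Fintype.card (V m) + 1) * 2 ^ Fintype.card (S × Bool)) ^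
      ((D + 1) ^ (2 * ell m)) < 2 ^ Fintype.card (V m)) :
    Nonempty (Fam S (Σ m, V m)) := by
  have hA : 8 ≤ Fintype.card (S × Bool) := by
    obtain ⟨v⟩ : Nonempty (V 0) := Fintype.card_pos_iff.mp ((Nat.zero_le _).trans_lt (wide 0))
    have := (deg 0 v).1.trans (Finset.card_le_univ _)
    rw [Fintype.card_prod, Fintype.card_bool] at this ⊢
    omega
  choose C c1 c2 c3 c4 using fun m => exists_code
    (fun p : V m × (S × Bool) => if p.2 ∈ (Γ m).out p.1 then (1 : ZMod 2) else 0)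
    (fun v => by
      obtain ⟨a, ha⟩ := Finset.card_pos.mp
        (show 0 < ((Γ m).out v).card by have := (deg m v).1; omega)
      exact ⟨a, by simp [ha]⟩) hA ((Nat.zero_le _).trans_lt (wide m)) (num m)
  refine ⟨{
    toGp := sg Γ
    lev := Sigma.fst
    lev_st := by
      rintro _ a _ ⟨m, v, v', rfl, rfl, -⟩
      rfl
    lv := fun m => Finset.univ.map (Function.Embedding.sigmaMk m)
    mem_lv := by
      rintro ⟨m', v⟩ m
      refine ⟨fun h => ?_, ?_⟩
      · obtain ⟨u, -, e⟩ := Finset.mem_map.mp h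
        exact (congrArg Sigma.fst e).symm
      · rintro rfl
        exact Finset.mem_map.mpr ⟨v, Finset.mem_univ _, rfl⟩
    D := D
    deg := fun ⟨m, v⟩ => by rw [out_eq]; exact deg m v
    tag := tag
    tag_eq := fun ⟨m, v⟩ => by rw [out_eq]; exact tag_eq m v
    ell := ell
    t := t
    ell_gt := ell_gt
    piece := fun y y' s h h' hr => ?_
    girth := fun ⟨m, v⟩ y s n hn h hr e0 e1 => ?_
    big := big
    wide := by simpa using wide
    expand := fun m T hT h => ?_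
    grow := by simpa using grow
    code := fun m => (C m).map (ext _ m)
    code_supp := by
      rintro m _ ⟨c, -, rfl⟩ v a h
      exact ext_ne c h a
    pat_mem := fun m => ⟨_, c1 m, ?_⟩
    code_card := fun m => ?_
    code_dist := ?_
    code_onto := fun m T hT h f => ?_ }⟩
  · obtain ⟨z, a1, -, a3⟩ := lift (m := (y 0).1) (v := (y 0).2) h rfl
    obtain ⟨z', b1, -, b3⟩ := lift (m := (y' 0).1) (v := (y' 0).2) h' rfl
    have e := piece' _ _ _ _ _ a1 b1 hr
    generalize (y' 0).1 = m' at z' b1 b3 e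
    subst e
    rw [a3 0 (by omega), b3 0 (by omega), piece _ _ _ _ a1 b1 hr]
  · obtain ⟨z, a1, a2, a3⟩ := lift h e0
    exact girth m v z s n hn a1 hr a2 (sigma_mk_injective ((a3 n le_rfl).symm.trans e1))
  · obtain ⟨T, rfl⟩ := sub hT
    rw [Finset.card_map] at h ⊢
    refine (expand m T (by simpa using h)).trans (Finset.card_le_card_of_injOn
      (fun p => (⟨m, p.1⟩, p.2)) (fun p hp => ?_) fun p _ p' _ e => ?_)
    · simp only [Gp.bd, Finset.coe_filter, Set.mem_ofPred_eq] at hp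
      obtain ⟨a1, v', a2, a3⟩ := hp
      refine Finset.mem_filter.mpr ⟨Finset.mem_product.mpr ⟨Finset.mem_map_of_mem _
        (Finset.mem_product.mp a1).1, Finset.mem_univ _⟩, ⟨m, v'⟩, st_iff.mpr ⟨v', rfl, a2⟩, ?_⟩
      exact fun h => a3 ((Finset.mem_map' (Function.Embedding.sigmaMk m)).mp h)
    · exact Prod.ext (sigma_mk_injective (Prod.mk.inj e).1) (Prod.mk.inj e).2
  · funext ⟨⟨m', v⟩, a⟩
    by_cases h : m' = m
    · subst h
      simp [ext_mk, out_eq]
    · simp [ext_ne _ (p := ⟨m', v⟩) h, h]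
  · rw [Finset.card_map, Finset.card_univ, ← c2]
    exact (Nat.card_congr (Submodule.equivMapOfInjective _ ext_inj _).toEquiv).symm
  · rintro m _ ⟨c, hc, rfl⟩ T hT h h0
    obtain ⟨T, rfl⟩ := sub hT
    rw [c3 m c hc T (by simpa using h) fun v hv a =>
      (ext_mk c v a).symm.trans (h0 _ (Finset.mem_map_of_mem _ hv) a), map_zero]
  · obtain ⟨T, rfl⟩ := sub hT
    obtain ⟨c, hc, h1⟩ := c4 m T (by simpa using h) fun p => f (⟨m, p.1⟩, p.2)
    refine ⟨_, ⟨c, hc, rfl⟩, fun v hv a => ?_⟩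
    obtain ⟨u, hu, rfl⟩ := Finset.mem_map.mp hv
    exact (ext_mk c u a).trans (h1 u hu a)

theorem exists_bad (T : Set ℂ) (hT : T.Countable) (N : ℕ → ℕ) (hN : ∀ m, N m + 2 ≤ N (m + 1)) :
    ∃ ω : Set ℕ, (open Classical in ∑' m, if m ∈ ω then (1 / 2 : ℂ) ^ (N m + 1) else 0) ∉ T := by
  let a : Set ℕ → ℕ → ℝ := fun ω m => if m ∈ ω then (1 / 2 : ℝ) ^ (N m + 1) else 0
  have hk : ∀ m k, N m + 2 * k ≤ N (m + k) := fun m k => by
    induction k with
    | zero => simp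
    | succ k ih => have := hN (m + k); rw [← add_assoc]; omega
  have a0 : ∀ ω m, 0 ≤ a ω m := fun ω m => by simp only [a]; split_ifs <;> positivity
  have a1 : ∀ ω m k, a ω (k + (m + 1)) ≤ (1 / 2) ^ (N m + 3) * (1 / 2) ^ k := fun ω m k => by
    simp only [a]
    split_ifs
    · rw [← pow_add]
      refine pow_le_pow_of_le_one (by norm_num) (by norm_num) ?_
      have := hk m (k + 1)
      rw [show k + (m + 1) = m + (k + 1) by omega]
      omega
    · positivity
  have a2 : ∀ ω m, Summable fun k => a ω (k + (m + 1)) := fun ω m =>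
    Summable.of_nonneg_of_le (fun _ => a0 _ _) (a1 ω m) (summable_geometric_two.mul_left _)
  have a3 : ∀ ω, Summable (a ω) := fun ω => (summable_nat_add_iff 1).mp (a2 ω 0)
  have key : ∀ ω ω' m, (∀ k < m, (k ∈ ω ↔ k ∈ ω')) → m ∉ ω → m ∈ ω' →
      ∑' k, a ω k < ∑' k, a ω' k := by
    intro ω ω' m h h1 h2
    rw [← (a3 ω).sum_add_tsum_nat_add (m + 1), ← (a3 ω').sum_add_tsum_nat_add (m + 1),
      Finset.sum_range_succ, Finset.sum_range_succ]
    have b1 : ∑ k ∈ Finset.range m, a ω k = ∑ k ∈ Finset.range m, a ω' k :=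
      Finset.sum_congr rfl fun k hk => by simp only [a, h k (Finset.mem_range.mp hk)]
    have b2 := (a2 ω m).tsum_le_tsum (a1 ω m) (summable_geometric_two.mul_left _)
    have b3 : 0 ≤ ∑' k, a ω' (k + (m + 1)) := tsum_nonneg fun _ => a0 _ _
    rw [tsum_mul_left, tsum_geometric_two] at b2
    have b4 : a ω m = 0 := if_neg h1
    have b5 : a ω' m = (1 / 2) ^ (N m + 1) := if_pos h2
    have b6 : (0 : ℝ) < (1 / 2) ^ (N m + 1) := by positivity
    rw [show N m + 3 = N m + 1 + 2 from rfl, pow_add] at b2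
    linarith
  have inj : Function.Injective fun ω => ((∑' k, a ω k : ℝ) : ℂ) := by
    intro ω ω' e
    have e' : ∑' k, a ω k = ∑' k, a ω' k := Complex.ofReal_injective e
    by_contra hne
    have hex : ∃ m, ¬(m ∈ ω ↔ m ∈ ω') := not_forall.mp fun h => hne (Set.ext h)
    have h1 := Nat.find_spec hex
    have h2 : ∀ k < Nat.find hex, (k ∈ ω ↔ k ∈ ω') := fun k hk => not_not.mp (Nat.find_min hex hk)
    by_cases h3 : Nat.find hex ∈ ω
    · exact (key ω' ω _ (fun k hk => (h2 k hk).symm) (by tauto) h3).ne' e'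
    · exact (key ω ω' _ h2 h3 (by tauto)).ne e'
  by_contra hc
  push Not at hc
  have h1 : (Set.univ : Set (Set ℕ)).Countable := by
    refine Set.countable_of_injective_of_countable_image inj.injOn (hT.mono ?_)
    rintro _ ⟨ω, -, rfl⟩
    convert hc ω using 1
    simp only [Complex.ofReal_tsum, a]
    refine tsum_congr fun m => ?_
    split_ifs <;> simp
  have := Set.countable_univ_iff.mp h1
  obtain ⟨f, hf⟩ := exists_surjective_nat (Set ℕ)
  exact Function.cantor_surjective f hf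

end Vale.Agent.P089
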