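import Vale.Agent.P089.Defs

/-! The group `K₀(C*_r(G))` and the index of a cycle, for bundled inner product spaces. -/

namespace Vale.Agent.P089.BC

open scoped ZeroAtInfty

/-- a complex inner product space -/
structure Hilb where
  c : Type
  [grp : NormedAddCommGroup c]
  [inn : InnerProductSpace ℂ c]

attribute [instance] Hilb.grp Hilb.inn

/-- the space `ℓ²(G, X)` -/
noncomputable def l2 (G : Type) (X : Hilb) : Hilb := ⟨lp (fun _ : G => X.c) 2⟩

/-- the space `ℂ ^ n` -/
noncomputable def euc (n : ℕ) : Hilb := ⟨EuclideanSpace ℂ (Fin n)⟩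

/-- the direct sum -/
noncomputable def ds (X Y : Hilb) : Hilb := ⟨WithLp 2 (X.c × Y.c)⟩

section
variable {H K L : Type} [NormedAddCommGroup H] [InnerProductSpace ℂ H] [NormedAddCommGroup K]
  [InnerProductSpace ℂ K] [NormedAddCommGroup L] [InnerProductSpace ℂ L]

/-- composition -/
noncomputable def comp (a : K →L[ℂ] L) (b : H →L[ℂ] K) : H →L[ℂ] L := a ∘L b

/-- sum -/
noncomputable def add (a b : H →L[ℂ] K) : H →L[ℂ] K := a + b

/-- difference -/
noncomputable def sub (a b : H →L[ℂ] K) : H →L[ℂ] K := a - b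

/-- zero -/
noncomputable def zero : H →L[ℂ] K := 0

/-- a sum with finitely many nonzero terms -/
noncomputable def fsum {G : Type} (f : G → H →L[ℂ] K) : H →L[ℂ] K := ∑ᶠ g, f g

/-- evaluation -/
def app (a : H →L[ℂ] K) (v : H) : K := a v

/-- compact operators -/
def IsCpt (a : H →L[ℂ] K) : Prop := IsCompactOperator a

/-- norm closure of the linear span -/
def clspan (s : Set (H →L[ℂ] K)) : Set (H →L[ℂ] K) := closure (Submodule.span ℂ s)

end

/-- bounded operators -/
def Op (X Y : Hilb) : Type := X.c →L[ℂ] Y.c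

variable {G : Type} [Group G] {X Y X' Y' : Hilb}

/-- the values of a square summable function -/
def ev (ξ : (l2 G X).c) : G → X.c := Subtype.val ξ

/-- first coordinate -/
noncomputable def fst (X Y : Hilb) : Op (ds X Y) X := WithLp.fstL 2 ℂ X.c Y.c

/-- second coordinate -/
noncomputable def snd (X Y : Hilb) : Op (ds X Y) Y := WithLp.sndL 2 ℂ X.c Y.c

theorem exists_inl (X Y : Hilb) : ∃ i : Op X (ds X Y),
    ∀ v, app (fst X Y) (app i v) = v ∧ app (snd X Y) (app i v) = 0 :=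
  ⟨P089.inl X.c Y.c, fun _ => ⟨rfl, rfl⟩⟩

theorem exists_inr (X Y : Hilb) : ∃ i : Op Y (ds X Y),
    ∀ v, app (fst X Y) (app i v) = 0 ∧ app (snd X Y) (app i v) = v :=
  ⟨P089.inr X.c Y.c, fun _ => ⟨rfl, rfl⟩⟩

theorem exists_amp (g : G) (x : Op X Y) : ∃ T : Op (l2 G X) (l2 G Y),
    ∀ ξ h, ev (app T ξ) h = app x (ev ξ (g⁻¹ * h)) :=
  ⟨P089.amp g x, fun _ _ => rfl⟩

/-- first inclusion -/
noncomputable def inl (X Y : Hilb) : Op X (ds X Y) := (exists_inl X Y).choose

/-- second inclusion -/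
noncomputable def inr (X Y : Hilb) : Op Y (ds X Y) := (exists_inr X Y).choose

/-- the operator `x ⊗ λ g` -/
noncomputable def amp (g : G) (x : Op X Y) : Op (l2 G X) (l2 G Y) := (exists_amp g x).choose

variable (G X Y) in
/-- `B(X, Y) ⊗ C*_r(G)` -/
def Mor : Set (Op (l2 G X) (l2 G Y)) :=
  clspan {y : Op (l2 G X) (l2 G Y) | ∃ (g : G) (x : Op X Y), y = amp g x}

variable (G X Y) in
/-- `K(X, Y) ⊗ C*_r(G)` -/
def Cpt : Set (Op (l2 G X) (l2 G Y)) :=
  clspan {y : Op (l2 G X) (l2 G Y) | ∃ (g : G) (x : Op X Y), IsCpt x ∧ y = amp g x}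

/-- the block diagonal operator -/
noncomputable def dsum (a : Op (l2 G X) (l2 G X')) (b : Op (l2 G Y) (l2 G Y')) :
    Op (l2 G (ds X Y)) (l2 G (ds X' Y')) :=
  add (comp (amp 1 (inl X' Y')) (comp a (amp 1 (fst X Y))))
    (comp (amp 1 (inr X' Y')) (comp b (amp 1 (snd X Y))))

variable (G) in
/-- an idempotent matrix over `C*_r(G)` -/
structure Idem where
  n : ℕ
  e : Op (l2 G (euc n)) (l2 G (euc n))
  mem : e ∈ Mor G (euc n) (euc n)
  idem : e = comp e e

variable (G) in
/-- the relations `[c] = [a] + [b]` when `c` is equivalent to `a ⊕ b` -/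
def rels : Set (FreeAbelianGroup (Idem G)) :=
  {z | ∃ a b c : Idem G, (∃ u ∈ Mor G (ds (euc a.n) (euc b.n)) (euc c.n),
    ∃ v ∈ Mor G (euc c.n) (ds (euc a.n) (euc b.n)), dsum a.e b.e = comp v u ∧ c.e = comp u v) ∧
    z = FreeAbelianGroup.of c - FreeAbelianGroup.of a - FreeAbelianGroup.of b}

variable (G) in
/-- `K₀(C*_r(G))` -/
def K0 : Type := FreeAbelianGroup (Idem G) ⧸ AddSubgroup.closure (rels G)

noncomputable instance : AddCommGroup (K0 G) := QuotientAddGroup.Quotient.addCommGroup _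

/-- the class of an idempotent -/
noncomputable def cls (a : Idem G) : K0 G := QuotientAddGroup.mk (FreeAbelianGroup.of a)

variable {H : Type} [NormedAddCommGroup H] [InnerProductSpace ℂ H] [CompleteSpace H]
  {Z : Type} [TopologicalSpace Z] [MulAction G Z] [ContinuousConstSMul G Z]
  (x : Cycle G H Z) (c : Cutoff G Z)

/-- the coefficients of the cutoff projection -/
noncomputable def coef (g : G) : H →L[ℂ] H := x.π (c.c * trl g c.c) * (x.U g : H →L[ℂ] H)

/-- the projection on the even (`s = 1`) or odd (`s = -1`) part -/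
noncomputable def part (s : ℂ) : H →L[ℂ] H := (1 / 2 : ℂ) • (1 + s • x.γ)

/-- the even or odd part of the cutoff projection acting on the descended module -/
noncomputable def proj (s : ℂ) : Op (l2 G ⟨H⟩) (l2 G ⟨H⟩) :=
  comp (fsum fun g => amp (X := ⟨H⟩) (Y := ⟨H⟩) g (coef x c g))
    (amp (X := ⟨H⟩) (Y := ⟨H⟩) 1 (part x s))

/-- `k` is the index of the compressed operator from the even part to the odd part -/
def IsIndex (k : K0 G) : Prop :=
  ∃ a b : Idem G, k = cls a - cls b ∧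
    ∃ S ∈ Mor G (ds ⟨H⟩ (euc b.n)) (ds ⟨H⟩ (euc a.n)),
      ∃ R ∈ Mor G (ds ⟨H⟩ (euc a.n)) (ds ⟨H⟩ (euc b.n)),
        dsum (proj x c 1) b.e = comp R S ∧ dsum (proj x c (-1)) a.e = comp S R ∧
        sub S (dsum (comp (proj x c (-1)) (comp (amp (X := ⟨H⟩) (Y := ⟨H⟩) 1 x.F) (proj x c 1)))
          zero) ∈ Cpt G (ds ⟨H⟩ (euc b.n)) (ds ⟨H⟩ (euc a.n))

end Vale.Agent.P089.BC
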