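import Vale.Agent.P089.Amp
import Vale.Agent.P089.Good

/-! The canonical trace on operators of finite rank over `C*_r(G)` (job Tr). -/

namespace Vale.Agent.P089

variable {G : Type} [Group G] {H K L : Type}
  [NormedAddCommGroup H] [InnerProductSpace ℂ H] [CompleteSpace H]
  [NormedAddCommGroup K] [InnerProductSpace ℂ K] [CompleteSpace K]
  [NormedAddCommGroup L] [InnerProductSpace ℂ L] [CompleteSpace L]

open Classical in
/-- the canonical trace of `C*_r(G)` -/
noncomputable def tau (z : L2 G ℂ →L[ℂ] L2 G ℂ) : ℂ := z (lp.single 2 1 1) 1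

variable (G H K) in
/-- operators of finite rank -/
noncomputable def Fin0 : Submodule ℂ (L2 G H →L[ℂ] L2 G K) :=
  Submodule.span ℂ {y | ∃ ξ ∈ Mor G ℂ K, ∃ η ∈ Mor G H ℂ, y = ξ ∘L η}

variable (H) in
/-- a Hilbert basis -/
noncomputable def bas : HilbertBasis (exists_hilbertBasis ℂ H).choose ℂ H :=
  (exists_hilbertBasis ℂ H).choose_spec.choose

/-- the trace -/
noncomputable def Tr (y : L2 G H →L[ℂ] L2 G H) : ℂ :=
  ∑' k, tau (amp 1 (innerSL ℂ (bas H k)) ∘L y ∘L
    amp 1 (ContinuousLinearMap.toSpanSingleton ℂ (bas H k)))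

open Classical in
lemma tau_amp (g : G) (x : ℂ →L[ℂ] ℂ) : tau (amp g x) = if g = 1 then x 1 else 0 := by
  unfold tau
  rw [amp_apply, mul_one]
  split_ifs with h
  · rw [h, inv_one, lp.single_apply_self]
  · rw [lp.single_apply_ne _ _ _ (by simpa using h), map_zero]

lemma tau_add (y z : L2 G ℂ →L[ℂ] L2 G ℂ) : tau (y + z) = tau y + tau z := by
  rfl

lemma tau_smul (c : ℂ) (z : L2 G ℂ →L[ℂ] L2 G ℂ) : tau (c • z) = c * tau z := by
  rfl

lemma norm_tau_le (z : L2 G ℂ →L[ℂ] L2 G ℂ) : ‖tau z‖ ≤ ‖z‖ := by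
  classical
  refine (lp.norm_apply_le_norm (by norm_num) _ _).trans ((z.le_opNorm _).trans ?_)
  rw [lp.norm_single (by norm_num), norm_one, mul_one]

namespace TrX

/-- the trace as a continuous functional -/
noncomputable def tauL : (L2 G ℂ →L[ℂ] L2 G ℂ) →L[ℂ] ℂ :=
  LinearMap.mkContinuous
    { toFun := tau
      map_add' := tau_add
      map_smul' := tau_smul } 1 fun z => by simpa using norm_tau_le z

lemma tauL_apply (z : L2 G ℂ →L[ℂ] L2 G ℂ) : tauL z = tau z := rfl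

/-- operators commuting with `z` under the trace -/
noncomputable def comm (z : L2 G ℂ →L[ℂ] L2 G ℂ) : Submodule ℂ (L2 G ℂ →L[ℂ] L2 G ℂ) where
  carrier := {y | tauL (y ∘L z) = tauL (z ∘L y)}
  add_mem' {a b} ha hb := by
    simp only [Set.mem_ofPred_eq, ContinuousLinearMap.add_comp, ContinuousLinearMap.comp_add,
      map_add] at ha hb ⊢
    rw [ha, hb]
  zero_mem' := by simp
  smul_mem' c a ha := by
    simp only [Set.mem_ofPred_eq, ContinuousLinearMap.smul_comp, ContinuousLinearMap.comp_smul,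
      map_smul] at ha ⊢
    rw [ha]

lemma closed_comm (z : L2 G ℂ →L[ℂ] L2 G ℂ) :
    IsClosed (comm z : Set (L2 G ℂ →L[ℂ] L2 G ℂ)) :=
  isClosed_eq (tauL.continuous.comp (continuous_id.clm_comp continuous_const))
    (tauL.continuous.comp (continuous_const.clm_comp continuous_id))

end TrX

lemma continuous_tau : Continuous (tau (G := G)) := by
  exact TrX.tauL.continuous

lemma tau_comm {y z : L2 G ℂ →L[ℂ] L2 G ℂ} (hy : y ∈ Mor G ℂ ℂ) (hz : z ∈ Mor G ℂ ℂ) :
    tau (y ∘L z) = tau (z ∘L y) := by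
  refine Mor_le (TrX.closed_comm z) (fun g a => ?_) hy
  refine Eq.symm (Mor_le (TrX.closed_comm (amp g a)) (fun g' b => ?_) hz)
  change tau (amp g' b ∘L amp g a) = tau (amp g a ∘L amp g' b)
  have h1 : ∀ (x : ℂ →L[ℂ] ℂ) (c : ℂ), x c = c * x 1 := fun x c => by
    simpa using x.map_smul c 1
  have h2 : g' * g = 1 ↔ g * g' = 1 := by
    rw [mul_eq_one_iff_eq_inv, mul_eq_one_iff_eq_inv']
  rw [amp_comp, amp_comp, tau_amp, tau_amp]
  by_cases h : g * g' = 1
  · rw [if_pos h, if_pos (h2.2 h), ContinuousLinearMap.comp_apply, ContinuousLinearMap.comp_apply,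
      h1 b, h1 a (b 1), mul_comm]
  · rw [if_neg h, if_neg (mt h2.1 h)]

lemma rank_mem {ξ : L2 G ℂ →L[ℂ] L2 G K} {η : L2 G H →L[ℂ] L2 G ℂ} (hξ : ξ ∈ Mor G ℂ K)
    (hη : η ∈ Mor G H ℂ) : ξ ∘L η ∈ Fin0 G H K := by
  exact Submodule.subset_span ⟨ξ, hξ, η, hη, rfl⟩

lemma Fin0_le_Mor : Fin0 G H K ≤ Mor G H K := by
  refine Submodule.span_le.2 ?_
  rintro _ ⟨ξ, hξ, η, hη, rfl⟩
  exact Mor_comp hξ hη

lemma Mor_comp_Fin0 {x : L2 G K →L[ℂ] L2 G L} {y : L2 G H →L[ℂ] L2 G K} (hx : x ∈ Mor G K L)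
    (hy : y ∈ Fin0 G H K) : x ∘L y ∈ Fin0 G H L := by
  have : Fin0 G H K ≤ AmpX.preR (Fin0 G H L) x := by
    refine Submodule.span_le.2 ?_
    rintro _ ⟨ξ, hξ, η, hη, rfl⟩
    exact rank_mem (Mor_comp hx hξ) hη
  exact this hy

lemma Fin0_comp_Mor {x : L2 G K →L[ℂ] L2 G L} {y : L2 G H →L[ℂ] L2 G K} (hx : x ∈ Fin0 G K L)
    (hy : y ∈ Mor G H K) : x ∘L y ∈ Fin0 G H L := by
  have : Fin0 G K L ≤ AmpX.preL (Fin0 G H L) y := by
    refine Submodule.span_le.2 ?_
    rintro _ ⟨ξ, hξ, η, hη, rfl⟩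
    exact rank_mem hξ (Mor_comp hη hy)
  exact this hx

namespace TrX

open Filter Topology

/-- a diagonal entry -/
noncomputable def term (y : L2 G H →L[ℂ] L2 G H) (k : (exists_hilbertBasis ℂ H).choose) : ℂ :=
  tau (amp 1 (innerSL ℂ (bas H k)) ∘L y ∘L
    amp 1 (ContinuousLinearMap.toSpanSingleton ℂ (bas H k)))

lemma term_add (x y : L2 G H →L[ℂ] L2 G H) (k : (exists_hilbertBasis ℂ H).choose) :
    term (x + y) k = term x k + term y k := by
  simp only [term, ContinuousLinearMap.add_comp, ContinuousLinearMap.comp_add, tau_add]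

lemma term_smul (c : ℂ) (x : L2 G H →L[ℂ] L2 G H) (k : (exists_hilbertBasis ℂ H).choose) :
    term (c • x) k = c * term x k := by
  simp only [term, ContinuousLinearMap.smul_comp, ContinuousLinearMap.comp_smul, tau_smul]

/-- the projection on finitely many basis vectors -/
noncomputable def pr (s : Finset (exists_hilbertBasis ℂ H).choose) : H →L[ℂ] H :=
  ∑ k ∈ s, ContinuousLinearMap.toSpanSingleton ℂ (bas H k) ∘L innerSL ℂ (bas H k)

lemma pr_apply (s : Finset (exists_hilbertBasis ℂ H).choose) (v : H) :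
    pr s v = ∑ k ∈ s, inner ℂ (bas H k) v • bas H k := by
  simp [pr]

lemma norm_pr_le (s : Finset (exists_hilbertBasis ℂ H).choose) : ‖pr s‖ ≤ 1 := by
  refine ContinuousLinearMap.opNorm_le_bound _ zero_le_one fun v => ?_
  have h1 : inner ℂ (pr s v) (pr s v) = inner ℂ (pr s v) v := by
    rw [pr_apply, (bas H).orthonormal.inner_sum, sum_inner]
    exact Finset.sum_congr rfl fun k _ => by rw [inner_smul_left]
  have h2 := norm_inner_le_norm (𝕜 := ℂ) (pr s v) v
  rw [← h1, inner_self_eq_norm_sq_to_K] at h2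
  simp only [Complex.coe_algebraMap, norm_pow, Complex.norm_real, norm_norm] at h2
  rw [one_mul]
  by_contra h
  nlinarith [norm_nonneg v]

lemma tendsto_pr (v : H) : Tendsto (fun s => pr s v) atTop (𝓝 v) := by
  have h := (bas H).hasSum_repr v
  simp only [HilbertBasis.repr_apply_apply] at h
  simp only [pr_apply]
  exact h

variable (G H) in
/-- operators that are absorbed by the projections -/
noncomputable def absb : Submodule ℂ (L2 G ℂ →L[ℂ] L2 G H) where
  carrier := {ξ | Tendsto (fun s => amp (1 : G) (pr s) ∘L ξ) atTop (𝓝 ξ)}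
  add_mem' {a b} ha hb := by
    simp only [Set.mem_ofPred_eq, ContinuousLinearMap.comp_add] at ha hb ⊢
    exact ha.add hb
  zero_mem' := by simp
  smul_mem' c a ha := by
    simp only [Set.mem_ofPred_eq, ContinuousLinearMap.comp_smul] at ha ⊢
    exact ha.const_smul c

lemma closed_tendsto {A ι : Type} [NormedAddCommGroup A] (l : Filter ι) (T : ι → A → A)
    (h : ∀ s a b, ‖T s a - T s b‖ ≤ ‖a - b‖) :
    IsClosed {a | Tendsto (fun s => T s a) l (𝓝 a)} := by
  refine Equicontinuous.isClosed_setOfPred_tendsto (f := fun a : A => a) (F := T)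
    (UniformEquicontinuous.equicontinuous (LipschitzWith.uniformEquicontinuous _ 1 fun s => ?_))
    continuous_id
  refine LipschitzWith.of_dist_le_mul fun a b => ?_
  simpa [dist_eq_norm] using h s a b

lemma tendsto_of_le {A ι : Type} [NormedAddCommGroup A] {l : Filter ι} {T : ι → A} {a : A}
    {b : ι → ℝ} (h : ∀ s, ‖T s - a‖ ≤ b s) (hb : Tendsto b l (𝓝 0)) : Tendsto T l (𝓝 a) :=
  tendsto_iff_norm_sub_tendsto_zero.2 (squeeze_zero (fun _ => norm_nonneg _) h hb)

lemma mem_closure_of {A : Type} [NormedAddCommGroup A] {S : Set A} {a : A}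
    (h : ∀ ε : ℝ, 0 < ε → ∃ b ∈ S, ‖a - b‖ ≤ ε) : a ∈ closure S := by
  refine Metric.mem_closure_iff.2 fun ε hε => ?_
  obtain ⟨b, hb, h1⟩ := h _ (half_pos hε)
  exact ⟨b, hb, by rw [dist_eq_norm]; exact h1.trans_lt (half_lt_self hε)⟩

lemma closed_absb : IsClosed (absb G H : Set (L2 G ℂ →L[ℂ] L2 G H)) := by
  refine closed_tendsto (A := L2 G ℂ →L[ℂ] L2 G H) atTop
    (fun s ξ => amp (1 : G) (pr s) ∘L ξ) fun s a b => ?_
  rw [← ContinuousLinearMap.comp_sub]
  exact (ContinuousLinearMap.opNorm_comp_le _ _).trans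
    (mul_le_of_le_one_left (norm_nonneg _) ((norm_amp_le _ _).trans (norm_pr_le s)))

lemma Mor_le_absb : Mor G ℂ H ≤ absb G H := by
  refine Mor_le closed_absb fun g x => ?_
  change Tendsto (fun s => amp (1 : G) (pr s) ∘L amp g x) atTop (𝓝 (amp g x))
  have h := tendsto_iff_norm_sub_tendsto_zero.1 (tendsto_pr (x 1))
  refine tendsto_of_le (A := L2 G ℂ →L[ℂ] L2 G H) (fun s => ?_) h
  rw [amp_comp, one_mul, ← amp_sub]
  refine (norm_amp_le _ _).trans (ContinuousLinearMap.opNorm_le_bound _ (norm_nonneg _) fun c => ?_)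
  have : (pr s ∘L x - x) c = c • (pr s ∘L x - x) 1 := by
    rw [← map_smul, smul_eq_mul, mul_one]
  rw [this, norm_smul, mul_comm]
  rfl

lemma hasSum_rank {ξ : L2 G ℂ →L[ℂ] L2 G H} {η : L2 G H →L[ℂ] L2 G ℂ} (hξ : ξ ∈ Mor G ℂ H)
    (hη : η ∈ Mor G H ℂ) : HasSum (term (ξ ∘L η)) (tau (η ∘L ξ)) := by
  have h1 : Tendsto (fun s => amp (1 : G) (pr s) ∘L ξ) atTop (𝓝 ξ) := Mor_le_absb hξ
  have h2 : Continuous fun y : L2 G ℂ →L[ℂ] L2 G H => tauL (η ∘L y) :=
    tauL.continuous.comp (continuous_const.clm_comp continuous_id)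
  refine ((h2.tendsto ξ).comp h1).congr fun s => ?_
  simp only [Function.comp, pr, amp_sum, ContinuousLinearMap.finsetSum_comp,
    ContinuousLinearMap.comp_finsetSum, map_sum]
  refine Finset.sum_congr rfl fun k _ => ?_
  have h3 := tau_comm (Mor_comp (amp_mem_Mor 1 (innerSL ℂ (bas H k))) hξ)
    (Mor_comp hη (amp_mem_Mor 1 (ContinuousLinearMap.toSpanSingleton ℂ (bas H k))))
  refine Eq.trans ?_ h3.symm
  rw [tauL_apply, ← one_mul (1 : G), ← amp_comp, one_mul]
  rfl

lemma summable_term {x : L2 G H →L[ℂ] L2 G H} (hx : x ∈ Fin0 G H H) : Summable (term x) := by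
  induction hx using Submodule.span_induction with
  | mem y hy =>
    obtain ⟨ξ, hξ, η, hη, rfl⟩ := hy
    exact (hasSum_rank hξ hη).summable
  | zero =>
    have : term (0 : L2 G H →L[ℂ] L2 G H) = fun _ => 0 := by
      funext k
      simpa using term_smul 0 (0 : L2 G H →L[ℂ] L2 G H) k
    rw [this]
    exact summable_zero
  | add y z _ _ hy hz => exact (hy.add hz).congr fun k => (term_add y z k).symm
  | smul c y _ hy => exact (hy.mul_left c).congr fun k => (term_smul c y k).symm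

end TrX

theorem Tr_rank {ξ : L2 G ℂ →L[ℂ] L2 G H} {η : L2 G H →L[ℂ] L2 G ℂ} (hξ : ξ ∈ Mor G ℂ H)
    (hη : η ∈ Mor G H ℂ) : Tr (ξ ∘L η) = tau (η ∘L ξ) := by
  exact (TrX.hasSum_rank hξ hη).tsum_eq

theorem Tr_add {x y : L2 G H →L[ℂ] L2 G H} (hx : x ∈ Fin0 G H H) (hy : y ∈ Fin0 G H H) :
    Tr (x + y) = Tr x + Tr y := by
  change ∑' k, TrX.term (x + y) k = ∑' k, TrX.term x k + ∑' k, TrX.term y k
  rw [← (TrX.summable_term hx).tsum_add (TrX.summable_term hy)]
  exact tsum_congr fun k => TrX.term_add x y k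

theorem Tr_smul (c : ℂ) (x : L2 G H →L[ℂ] L2 G H) : Tr (c • x) = c * Tr x := by
  change ∑' k, TrX.term (c • x) k = c * ∑' k, TrX.term x k
  rw [← tsum_mul_left]
  exact tsum_congr fun k => TrX.term_smul c x k

theorem Tr_comm {x : L2 G H →L[ℂ] L2 G K} {y : L2 G K →L[ℂ] L2 G H} (hx : x ∈ Fin0 G H K)
    (hy : y ∈ Mor G K H) : Tr (y ∘L x) = Tr (x ∘L y) := by
  induction hx using Submodule.span_induction with
  | mem x hx =>
    obtain ⟨ξ, hξ, η, hη, rfl⟩ := hx
    exact (Tr_rank (Mor_comp hy hξ) hη).trans (Tr_rank hξ (Mor_comp hη hy)).symm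
  | zero =>
    have h1 := Tr_smul 0 (0 : L2 G H →L[ℂ] L2 G H)
    have h2 := Tr_smul 0 (0 : L2 G K →L[ℂ] L2 G K)
    simp only [smul_zero, zero_mul] at h1 h2
    rw [ContinuousLinearMap.comp_zero, ContinuousLinearMap.zero_comp, h1, h2]
  | add a b ha hb iha ihb =>
    rw [ContinuousLinearMap.comp_add, ContinuousLinearMap.add_comp,
      Tr_add (Mor_comp_Fin0 hy ha) (Mor_comp_Fin0 hy hb),
      Tr_add (Fin0_comp_Mor ha hy) (Fin0_comp_Mor hb hy), iha, ihb]
  | smul c a _ iha =>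
    rw [ContinuousLinearMap.comp_smul, ContinuousLinearMap.smul_comp, Tr_smul, Tr_smul, iha]

lemma TrX.id_mem [FiniteDimensional ℂ H] : ContinuousLinearMap.id ℂ (L2 G H) ∈ Fin0 G H H := by
  have h : ContinuousLinearMap.id ℂ H = ∑ i,
      ContinuousLinearMap.toSpanSingleton ℂ (stdOrthonormalBasis ℂ H i) ∘L
        innerSL ℂ (stdOrthonormalBasis ℂ H i) := by
    refine ContinuousLinearMap.ext fun v => ?_
    simpa using ((stdOrthonormalBasis ℂ H).sum_repr' v).symm
  rw [← amp_id, h, amp_sum]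
  refine Submodule.sum_mem _ fun i _ => ?_
  rw [← one_mul (1 : G), ← amp_comp]
  exact rank_mem (amp_mem_Mor _ _) (amp_mem_Mor _ _)

theorem Mor_le_Fin0_left [FiniteDimensional ℂ H] : Mor G H K ≤ Fin0 G H K := by
  intro y hy
  exact Mor_comp_Fin0 hy TrX.id_mem

theorem Mor_le_Fin0_right [FiniteDimensional ℂ K] : Mor G H K ≤ Fin0 G H K := by
  intro y hy
  exact Fin0_comp_Mor TrX.id_mem hy

theorem closure_Fin0 : (Fin0 G H K).topologicalClosure = Cpt G H K := by
  refine le_antisymm (Submodule.topologicalClosure_minimal _ (Submodule.span_le.2 ?_) isClosed_Cpt)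
    (Cpt_le (Submodule.isClosed_topologicalClosure _) fun g x hx => ?_)
  · rintro _ ⟨ξ, hξ, η, hη, rfl⟩
    exact Cpt_comp_Mor (Mor_le_Cpt_left hξ) hη
  · refine TrX.mem_closure_of (A := L2 G H →L[ℂ] L2 G K) fun ε hε => ?_
    obtain ⟨V, hV, h⟩ := compact_approx hx hε
    obtain ⟨n, j, j', h1, -⟩ := exists_coord V
    refine ⟨amp 1 j ∘L amp g (j' ∘L x),
      Mor_comp_Fin0 (amp_mem_Mor _ _) (Mor_le_Fin0_right (amp_mem_Mor _ _)), ?_⟩
    rw [amp_comp, one_mul, ← amp_sub, ← ContinuousLinearMap.comp_assoc, h1]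
    exact (norm_amp_le _ _).trans (h V le_rfl)

theorem continuous_Tr [FiniteDimensional ℂ H] : Continuous (Tr (G := G) (H := H)) := by
  have : Finite (exists_hilbertBasis ℂ H).choose :=
    (bas H).orthonormal.linearIndependent.finite
  have := Fintype.ofFinite (exists_hilbertBasis ℂ H).choose
  unfold Tr
  simp only [tsum_fintype]
  exact continuous_finsetSum _ fun k _ => continuous_tau.comp
    (continuous_const.clm_comp (continuous_id.clm_comp continuous_const))

variable (G H) in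
/-- the ideal and the trace -/
noncomputable def trD : TrD (MorA G H) where
  J := (Fin0 G H H).comap (MorA G H).val.toLinearMap
  mul_left y hx := Mor_comp_Fin0 y.2 hx
  mul_right y hx := Fin0_comp_Mor hx y.2
  tr x := Tr x.1
  tr_add hx hy := Tr_add hx hy
  tr_comm y hx := (Tr_comm hx y.2).symm

lemma mem_J {x : MorA G H} : x ∈ (trD G H).J ↔ x.1 ∈ Fin0 G H H := Iff.rfl

lemma mem_K {x : MorA G H} : x ∈ (trD G H).K ↔ x.1 ∈ Cpt G H H := by
  have h : Subtype.val '' ((trD G H).J : Set (MorA G H)) = Fin0 G H H := by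
    ext y
    exact ⟨fun ⟨z, hz, e⟩ => e ▸ hz, fun hy => ⟨⟨y, Fin0_le_Mor hy⟩, hy, rfl⟩⟩
  rw [← closure_Fin0]
  change x ∈ closure ((trD G H).J : Set (MorA G H)) ↔
    x.1 ∈ closure (Fin0 G H H : Set (L2 G H →L[ℂ] L2 G H))
  rw [← h]
  exact closure_subtype

variable (G) in
/-- the constant grading and operator -/
noncomputable def grd (F γ : H →L[ℂ] H) (h1 : γ * γ = 1) (h2 : γ * F = -(F * γ)) :
    Grd (MorA G H) where
  F := ampA 1 F
  γ := ampA 1 γ
  γγ := by rw [ampA_mul, one_mul, h1, ampA_one]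
  γF := by rw [ampA_mul, ampA_mul, h2, map_neg]

lemma good_ampA {F γ : H →L[ℂ] H} {h1 : γ * γ = 1} {h2 : γ * F = -(F * γ)} (g : G)
    {x : H →L[ℂ] H} (e1 : γ * x = x * γ) (e2 : IsCompactOperator (F * x - x * F : H →L[ℂ] H))
    (e3 : IsCompactOperator (x * (F * F - 1) : H →L[ℂ] H)) :
    (trD G H).Good (grd G F γ h1 h2) (ampA g x) := by
  refine ⟨?_, ?_, ?_⟩
  · change ampA 1 γ * ampA g x = ampA g x * ampA 1 γ
    rw [ampA_mul, ampA_mul, one_mul, mul_one, e1]
  · change ampA 1 F * ampA g x - ampA g x * ampA 1 F ∈ _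
    rw [ampA_mul, ampA_mul, one_mul, mul_one, ← map_sub, mem_K]
    exact amp_mem_Cpt g e2
  · change ampA g x * (ampA 1 F * ampA 1 F - 1) ∈ _
    rw [ampA_mul, one_mul, ← ampA_one, ← map_sub, ampA_mul, mul_one, mem_K]
    exact amp_mem_Cpt g e3

end Vale.Agent.P089
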